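import Vale.Agent.P328b.Box

/-! Discrete Bochner argument on a box. -/

namespace Vale.Agent.P328b

open Finset

variable {C : Type} [Fintype C] [DecidableEq C]

/-- Backward part of the divergence. -/
noncomputable def bk (ν φ : (C → ℕ) → ℝ) (c : C) (x : C → ℕ) : ℝ :=
  if 0 < x c then ν (dn x c) / ν x * φ (dn x c) else 0

/-- The generator. -/
noncomputable def gen (Q : C → ℕ) (ν u : (C → ℕ) → ℝ) (x : C → ℕ) : ℝ :=
  ∑ c, (gr Q u c x - bk ν (gr Q u c) c x)

/-- Curvature coefficient. -/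
noncomputable def curv (ν : (C → ℕ) → ℝ) (z : C → ℕ) (c c' : C) : ℝ :=
  ν (up z c) * ν (up z c') / (ν z * ν (up (up z c') c)) - 1

theorem sum_bk (Q : C → ℕ) (ν φ g : (C → ℕ) → ℝ) (hν : ∀ x, 0 < ν x) (c : C)
    (hφ : ∀ z, ¬ z c < Q c → φ z = 0) :
    ∑ x ∈ box Q, ν x * (bk ν φ c x * g x) = ∑ z ∈ box Q, ν z * (φ z * g (up z c)) := by
  have h := sum_shift Q c fun x => ν (dn x c) * (φ (dn x c) * g x)
  simp only [dn_up] at h
  calc _ = ∑ x ∈ box Q, (if 0 < x c then ν (dn x c) * (φ (dn x c) * g x) else 0) := by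
        refine Finset.sum_congr rfl fun x _ => ?_
        unfold bk
        split_ifs
        · have := (hν x).ne'
          field_simp
        · simp
    _ = _ := h
    _ = _ := by
        refine Finset.sum_congr rfl fun z _ => ?_
        split_ifs with hz
        · rfl
        · simp [hφ z hz]

omit [Fintype C] in
theorem gr_zero (Q : C → ℕ) (u : (C → ℕ) → ℝ) (c : C) (z : C → ℕ) (h : ¬ z c < Q c) :
    gr Q u c z = 0 := if_neg h

theorem sum_gen (Q : C → ℕ) (ν u g : (C → ℕ) → ℝ) (hν : ∀ x, 0 < ν x) :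
    ∑ x ∈ box Q, ν x * (g x * gen Q ν u x)
      = -∑ x ∈ box Q, ν x * ∑ c, gr Q g c x * gr Q u c x := by
  simp only [gen, Finset.mul_sum]
  rw [Finset.sum_comm, Finset.sum_comm (s := box Q), ← Finset.sum_neg_distrib]
  refine Finset.sum_congr rfl fun c _ => ?_
  have h := sum_bk Q ν (gr Q u c) g hν c (gr_zero Q u c)
  have e : ∑ x ∈ box Q, ν x * (g x * (gr Q u c x - bk ν (gr Q u c) c x))
      = ∑ x ∈ box Q, ν x * (g x * gr Q u c x)
        - ∑ x ∈ box Q, ν x * (bk ν (gr Q u c) c x * g x) := by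
    rw [← Finset.sum_sub_distrib]
    exact Finset.sum_congr rfl fun x _ => by ring
  rw [e, h, ← Finset.sum_sub_distrib, ← Finset.sum_neg_distrib]
  refine Finset.sum_congr rfl fun x _ => ?_
  by_cases hx : x c < Q c
  · simp only [gr, if_pos hx]; ring
  · simp [gr_zero Q u c x hx]

theorem sum_bk_bk (Q : C → ℕ) (ν u : (C → ℕ) → ℝ) (hν : ∀ x, 0 < ν x) (c c' : C) :
    ∑ w ∈ box Q, ν w * ((1 + curv ν w c c') * (gr Q u c (up w c') * gr Q u c' (up w c)))
      ≤ ∑ x ∈ box Q, ν x * (bk ν (gr Q u c) c x * bk ν (gr Q u c') c' x) := by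
  rw [sum_bk Q ν (gr Q u c) _ hν c (gr_zero Q u c)]
  have h := sum_shift Q c' fun z => ν z * (gr Q u c z * bk ν (gr Q u c') c' (up z c))
  have e : ∑ w ∈ box Q, ν w * ((1 + curv ν w c c') * (gr Q u c (up w c') * gr Q u c' (up w c)))
      = ∑ z ∈ box Q, (if z c' < Q c' then ν (up z c') * (gr Q u c (up z c')
        * bk ν (gr Q u c') c' (up (up z c') c)) else 0) := by
    refine Finset.sum_congr rfl fun w _ => ?_
    split_ifs with hw
    · have h0 : 0 < up (up w c') c c' := by simp only [up_apply]; simp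
      simp only [bk, if_pos h0, dn_up_up, curv]
      have := (hν w).ne'
      have := (hν (up (up w c') c)).ne'
      field_simp
      ring
    · have : gr Q u c' (up w c) = 0 := gr_zero _ _ _ _ (by
        simp only [up_apply]; omega)
      simp [this]
  rw [e, ← h]
  refine Finset.sum_le_sum fun z _ => ?_
  split_ifs with hz
  · exact le_rfl
  · by_cases hc : c' = c
    · subst hc
      have h0 : 0 < up z c' c' := by simp
      simp only [bk, if_pos h0, dn_up]
      have := hν z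
      have := hν (up z c')
      have e2 : ν z * (gr Q u c' z * (ν z / ν (up z c') * gr Q u c' z))
          = ν z * (ν z / ν (up z c')) * gr Q u c' z ^ 2 := by ring
      rw [e2]; positivity
    · have h0 : ¬ 0 < up z c c' := by rwa [up_ne _ hc]
      simp [bk, h0]

omit [Fintype C] in
theorem square_bound (Q : C → ℕ) (u : (C → ℕ) → ℝ) (z : C → ℕ) (c c' : C) (h η : ℝ)
    (hη : |h| ≤ η) (hη2 : η ≤ 1 / 2) :
    h * (gr Q u c z * gr Q u c' z) - η ^ 2 * (gr Q u c z ^ 2 + gr Q u c' z ^ 2)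
      ≤ gr Q u c z * gr Q u c' z - gr Q u c z * gr Q u c' (up z c)
        - gr Q u c' z * gr Q u c (up z c')
        + (1 + h) * (gr Q u c (up z c') * gr Q u c' (up z c)) := by
  have hh := abs_le.1 hη
  have hsq : h ^ 2 ≤ η ^ 2 := sq_le_sq' hh.1 hh.2
  have main : ∀ D D' S : ℝ, h * (D * D') - η ^ 2 * (D ^ 2 + D' ^ 2)
      ≤ D * D' - D * (D' + S) - D' * (D + S) + (1 + h) * ((D + S) * (D' + S)) := by
    intro D D' S
    have a1 : 0 ≤ (S + h * (D + D')) ^ 2 := sq_nonneg _
    have a2 : 0 ≤ (h + 1 / 2) * S ^ 2 := mul_nonneg (by linarith) (sq_nonneg _)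
    have a3 : h ^ 2 * (D + D') ^ 2 ≤ η ^ 2 * (2 * (D ^ 2 + D' ^ 2)) :=
      mul_le_mul hsq (by nlinarith [sq_nonneg (D - D')]) (sq_nonneg _) (sq_nonneg _)
    nlinarith
  by_cases hc : c' = c
  · subst hc
    have := main (gr Q u c' z) (gr Q u c' z) (gr Q u c' (up z c') - gr Q u c' z)
    simpa using this
  by_cases h1 : z c < Q c
  · by_cases h2 : z c' < Q c'
    · have h1' : up z c' c < Q c := by rwa [up_ne _ (Ne.symm hc)]
      have h2' : up z c c' < Q c' := by rwa [up_ne _ hc]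
      have := main (gr Q u c z) (gr Q u c' z) (gr Q u c (up z c') - gr Q u c z)
      have e : gr Q u c' (up z c) = gr Q u c' z + (gr Q u c (up z c') - gr Q u c z) := by
        simp only [gr, if_pos h1, if_pos h2, if_pos h1', if_pos h2', up_comm z c c']
        ring
      rw [e]
      simpa using this
    · have e1 := gr_zero Q u c' z h2
      have e2 := gr_zero Q u c' (up z c) (by rwa [up_ne _ hc])
      rw [e1, e2]
      have : 0 ≤ η ^ 2 * gr Q u c z ^ 2 := by positivity
      nlinarith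
  · have e1 := gr_zero Q u c z h1
    have e2 := gr_zero Q u c (up z c') (by rwa [up_ne _ (Ne.symm hc)])
    rw [e1, e2]
    have : 0 ≤ η ^ 2 * gr Q u c' z ^ 2 := by positivity
    nlinarith

theorem bochner_ineq (Q : C → ℕ) (ν u : (C → ℕ) → ℝ) (hν : ∀ x, 0 < ν x) (κ η : ℝ)
    (hη2 : η ≤ 1 / 2) (hη : ∀ z c c', |curv ν z c c'| ≤ η)
    (hκ : ∀ z (D : C → ℝ), κ * ∑ c, D c ^ 2 ≤ ∑ c, ∑ c', curv ν z c c' * (D c * D c')) :
    (κ - 2 * Fintype.card C * η ^ 2) * en Q ν u ≤ ∑ x ∈ box Q, ν x * gen Q ν u x ^ 2 := by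
  have e1 : ∑ x ∈ box Q, ν x * gen Q ν u x ^ 2 = ∑ c, ∑ c', ∑ x ∈ box Q, ν x *
      ((gr Q u c x - bk ν (gr Q u c) c x) * (gr Q u c' x - bk ν (gr Q u c') c' x)) := by
    rw [Finset.sum_congr rfl fun c _ => Finset.sum_comm, Finset.sum_comm]
    refine Finset.sum_congr rfl fun x _ => ?_
    rw [gen, sq, Finset.sum_mul_sum]
    simp only [Finset.mul_sum]
  have e2 : ∀ c c', ∑ z ∈ box Q, ν z * (curv ν z c c' * (gr Q u c z * gr Q u c' z)
      - η ^ 2 * (gr Q u c z ^ 2 + gr Q u c' z ^ 2)) ≤ ∑ x ∈ box Q, ν x *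
      ((gr Q u c x - bk ν (gr Q u c) c x) * (gr Q u c' x - bk ν (gr Q u c') c' x)) := by
    intro c c'
    have b1 := sum_bk Q ν (gr Q u c) (gr Q u c') hν c (gr_zero Q u c)
    have b2 := sum_bk Q ν (gr Q u c') (gr Q u c) hν c' (gr_zero Q u c')
    have b3 := sum_bk_bk Q ν u hν c c'
    have e3 : ∑ x ∈ box Q, ν x *
        ((gr Q u c x - bk ν (gr Q u c) c x) * (gr Q u c' x - bk ν (gr Q u c') c' x))
        = ∑ x ∈ box Q, ν x * (gr Q u c x * gr Q u c' x)
          - ∑ x ∈ box Q, ν x * (bk ν (gr Q u c) c x * gr Q u c' x)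
          - ∑ x ∈ box Q, ν x * (bk ν (gr Q u c') c' x * gr Q u c x)
          + ∑ x ∈ box Q, ν x * (bk ν (gr Q u c) c x * bk ν (gr Q u c') c' x) := by
      rw [← Finset.sum_sub_distrib, ← Finset.sum_sub_distrib, ← Finset.sum_add_distrib]
      exact Finset.sum_congr rfl fun x _ => by ring
    rw [e3, b1, b2]
    refine le_trans ?_ (add_le_add_right b3 _)
    rw [← Finset.sum_sub_distrib, ← Finset.sum_sub_distrib, ← Finset.sum_add_distrib]
    refine Finset.sum_le_sum fun z _ => ?_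
    have := mul_le_mul_of_nonneg_left (square_bound Q u z c c' _ η (hη z c c') hη2) (hν z).le
    linarith
  rw [e1]
  refine le_trans ?_ (Finset.sum_le_sum fun c _ => Finset.sum_le_sum fun c' _ => e2 c c')
  have e4 : ∑ c, ∑ c', ∑ z ∈ box Q, ν z * (curv ν z c c' * (gr Q u c z * gr Q u c' z)
      - η ^ 2 * (gr Q u c z ^ 2 + gr Q u c' z ^ 2))
      = ∑ z ∈ box Q, ν z * (∑ c, ∑ c', curv ν z c c' * (gr Q u c z * gr Q u c' z)
        - 2 * Fintype.card C * η ^ 2 * ∑ c, gr Q u c z ^ 2) := by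
    rw [Finset.sum_congr rfl fun c _ => Finset.sum_comm, Finset.sum_comm]
    refine Finset.sum_congr rfl fun z _ => ?_
    simp only [← Finset.mul_sum, Finset.sum_sub_distrib, Finset.sum_add_distrib, Finset.sum_const,
      card_univ, nsmul_eq_mul]
    ring
  rw [e4, en, Finset.mul_sum]
  refine Finset.sum_le_sum fun z _ => ?_
  have := mul_le_mul_of_nonneg_left (hκ z fun c => gr Q u c z) (hν z).le
  linarith

theorem const_of_gr (Q : C → ℕ) (u : (C → ℕ) → ℝ) (h : ∀ x ∈ box Q, ∀ c, gr Q u c x = 0) :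
    ∀ x ∈ box Q, u x = u 0 := by
  intro x
  induction hs : ∑ c, x c using Nat.strong_induction_on generalizing x with
  | _ s ih =>
    intro hx
    by_cases h0 : x = 0
    · rw [h0]
    · obtain ⟨c, hc⟩ : ∃ c, 0 < x c := by
        by_contra hn
        push Not at hn
        exact h0 (funext fun c => Nat.le_zero.1 (hn c))
      have hd := dn_mem_box hx c
      have h1 := h _ hd c
      have h2 : dn x c c < Q c := by
        have := mem_box.1 hx c
        simp; omega
      rw [gr, if_pos h2, up_dn x c hc] at h1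
      have h3 : ∑ e, dn x c e < s := by
        rw [← hs]
        refine Finset.sum_lt_sum (fun e _ => ?_) ⟨c, mem_univ c, by simp; omega⟩
        by_cases he : e = c
        · subst he; simp
        · rw [dn_ne _ he]
      rw [← ih _ h3 _ rfl hd]
      linarith

theorem poisson (Q : C → ℕ) (ν : (C → ℕ) → ℝ) (hν : ∀ x, 0 < ν x) (f : (C → ℕ) → ℝ) :
    ∃ (u : (C → ℕ) → ℝ) (m : ℝ), ∀ x ∈ box Q, f x - m = -gen Q ν u x := by
  classical
  let ext : (box Q → ℝ) → (C → ℕ) → ℝ := fun u x => if h : x ∈ box Q then u ⟨x, h⟩ else 0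
  have ext_add : ∀ u v x, ext (u + v) x = ext u x + ext v x := by
    intro u v x; simp only [ext]; split_ifs <;> simp
  have ext_smul : ∀ (t : ℝ) u x, ext (t • u) x = t * ext u x := by
    intro t u x; simp only [ext]; split_ifs <;> simp
  let A : (box Q → ℝ) →ₗ[ℝ] (box Q → ℝ) :=
    { toFun := fun u x => -gen Q ν (ext u) x + ∑ y ∈ box Q, ν y * ext u y
      map_add' := by
        intro u v
        funext x
        have h1 : gen Q ν (ext (u + v)) x = gen Q ν (ext u) x + gen Q ν (ext v) x := by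
          simp only [gen, ← Finset.sum_add_distrib]
          refine Finset.sum_congr rfl fun c _ => ?_
          simp only [gr, bk, ext_add]
          split_ifs <;> ring
        simp only [Pi.add_apply, h1, ext_add, mul_add, Finset.sum_add_distrib]
        ring
      map_smul' := by
        intro t u
        funext x
        have h1 : gen Q ν (ext (t • u)) x = t * gen Q ν (ext u) x := by
          simp only [gen, Finset.mul_sum]
          refine Finset.sum_congr rfl fun c _ => ?_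
          simp only [gr, bk, ext_smul]
          split_ifs <;> ring
        have h2 : ∑ y ∈ box Q, ν y * ext (t • u) y = t * ∑ y ∈ box Q, ν y * ext u y := by
          rw [Finset.mul_sum]
          exact Finset.sum_congr rfl fun y _ => by rw [ext_smul]; ring
        simp only [Pi.smul_apply, h1, h2, smul_eq_mul, RingHom.id_apply]
        ring }
  have h0 : (0 : C → ℕ) ∈ box Q := mem_box.2 fun c => Nat.zero_le _
  have hZ : 0 < ∑ y ∈ box Q, ν y := Finset.sum_pos (fun y _ => hν y) ⟨0, h0⟩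
  have hinj : Function.Injective A := by
    rw [← LinearMap.ker_eq_bot, LinearMap.ker_eq_bot']
    intro u hu
    have h1 : ∀ x ∈ box Q, gen Q ν (ext u) x = ∑ y ∈ box Q, ν y * ext u y := by
      intro x hx
      have := congrFun hu ⟨x, hx⟩
      simp only [A, LinearMap.coe_mk, AddHom.coe_mk, Pi.zero_apply] at this
      linarith
    have h2 := sum_gen Q ν (ext u) (fun _ => 1) hν
    have h3 : ∀ c x, gr Q (fun _ => (1 : ℝ)) c x = 0 := by
      intro c x; simp [gr]
    simp only [h3, zero_mul, Finset.sum_const_zero, mul_zero, neg_zero, one_mul] at h2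
    rw [Finset.sum_congr rfl fun x hx => by rw [h1 x hx], ← Finset.sum_mul] at h2
    have h4 : ∑ y ∈ box Q, ν y * ext u y = 0 := (mul_eq_zero.1 h2).resolve_left hZ.ne'
    have h5 := sum_gen Q ν (ext u) (ext u) hν
    rw [Finset.sum_congr rfl fun x hx => by rw [h1 x hx, h4]] at h5
    simp only [mul_zero, Finset.sum_const_zero, zero_eq_neg] at h5
    have h6 : ∀ x ∈ box Q, ∀ c, gr Q (ext u) c x = 0 := by
      intro x hx c
      have a := (Finset.sum_eq_zero_iff_of_nonneg fun x _ => mul_nonneg (hν x).le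
        (Finset.sum_nonneg fun c _ => mul_self_nonneg _)).1 h5 x hx
      have b := (mul_eq_zero.1 a).resolve_left (hν x).ne'
      exact mul_self_eq_zero.1
        ((Finset.sum_eq_zero_iff_of_nonneg fun c _ => mul_self_nonneg _).1 b c (mem_univ c))
    have h7 := const_of_gr Q (ext u) h6
    rw [Finset.sum_congr rfl fun x hx => by rw [h7 x hx], ← Finset.sum_mul] at h4
    have h8 : ext u 0 = 0 := (mul_eq_zero.1 h4).resolve_left hZ.ne'
    funext x
    have := h7 x.1 x.2
    rw [h8] at this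
    simpa [ext] using this
  obtain ⟨u, hu⟩ := (LinearMap.injective_iff_surjective.1 hinj) fun x => f x.1
  refine ⟨ext u, ∑ y ∈ box Q, ν y * ext u y, fun x hx => ?_⟩
  have := congrFun hu ⟨x, hx⟩
  simp only [A, LinearMap.coe_mk, AddHom.coe_mk] at this
  linarith

theorem bochner (Q : C → ℕ) (ν : (C → ℕ) → ℝ) (hν : ∀ x, 0 < ν x) (κ η : ℝ) (hκ0 : 0 < κ)
    (hη2 : η ≤ 1 / 2) (hη : ∀ z c c', |curv ν z c c'| ≤ η)
    (hκ : ∀ z (D : C → ℝ), κ * ∑ c, D c ^ 2 ≤ ∑ c, ∑ c', curv ν z c c' * (D c * D c'))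
    (hs : 4 * Fintype.card C * η ^ 2 ≤ κ) : PI Q ν (2 / κ) := by
  intro f
  obtain ⟨u, m, hu⟩ := poisson Q ν hν f
  refine ⟨m, ?_⟩
  have h1 := bochner_ineq Q ν u hν κ η hη2 hη hκ
  have hen := en_nonneg Q ν u fun x _ => (hν x).le
  have h2 : ∑ x ∈ box Q, ν x * gen Q ν u x ^ 2 = ∑ x ∈ box Q, ν x * (f x - m) ^ 2 :=
    Finset.sum_congr rfl fun x hx => by rw [hu x hx]; ring
  have h3 := sum_gen Q ν u (fun x => f x - m) hν
  have h4 : ∑ x ∈ box Q, ν x * ((f x - m) * gen Q ν u x)
      = -∑ x ∈ box Q, ν x * (f x - m) ^ 2 := by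
    rw [← Finset.sum_neg_distrib]
    exact Finset.sum_congr rfl fun x hx => by
      rw [show gen Q ν u x = -(f x - m) by rw [hu x hx]; ring]; ring
  have h5 : ∀ c x, gr Q (fun x => f x - m) c x = gr Q f c x := by
    intro c x; unfold gr; split_ifs <;> ring
  simp only [h5] at h3
  have h6 : ∑ x ∈ box Q, ν x * ∑ c, gr Q f c x * gr Q u c x
      ≤ 1 / κ * en Q ν f + κ / 4 * en Q ν u := by
    unfold en
    rw [Finset.mul_sum, Finset.mul_sum, ← Finset.sum_add_distrib]
    refine Finset.sum_le_sum fun x _ => ?_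
    have : ∑ c, gr Q f c x * gr Q u c x
        ≤ 1 / κ * ∑ c, gr Q f c x ^ 2 + κ / 4 * ∑ c, gr Q u c x ^ 2 := by
      rw [Finset.mul_sum, Finset.mul_sum, ← Finset.sum_add_distrib]
      refine Finset.sum_le_sum fun c _ => ?_
      have e : 1 / κ * gr Q f c x ^ 2 + κ / 4 * gr Q u c x ^ 2 - gr Q f c x * gr Q u c x
          = 1 / κ * (gr Q f c x - κ / 2 * gr Q u c x) ^ 2 := by
        field_simp; ring
      have : 0 ≤ 1 / κ * (gr Q f c x - κ / 2 * gr Q u c x) ^ 2 := by positivity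
      linarith
    have := mul_le_mul_of_nonneg_left this (hν x).le
    linarith
  have h7 : κ / 2 * en Q ν u ≤ (κ - 2 * Fintype.card C * η ^ 2) * en Q ν u :=
    mul_le_mul_of_nonneg_right (by linarith) hen
  have e : 2 / κ * en Q ν f = 2 * (1 / κ * en Q ν f) := by ring
  rw [e]
  linarith

end Vale.Agent.P328b
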