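import Mathlib

/-! Boxes in the integer lattice, gradients, Poincare inequalities. -/

namespace Vale.Agent.P328b

open Finset

variable {C : Type} [Fintype C] [DecidableEq C]

def box (Q : C → ℕ) : Finset (C → ℕ) := Fintype.piFinset fun c => range (Q c + 1)

theorem mem_box {Q x : C → ℕ} : x ∈ box Q ↔ ∀ c, x c ≤ Q c := by
  simp [box, Fintype.mem_piFinset, Nat.lt_succ_iff]

def up (x : C → ℕ) (c : C) : C → ℕ := Function.update x c (x c + 1)

def dn (x : C → ℕ) (c : C) : C → ℕ := Function.update x c (x c - 1)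

omit [Fintype C] in
@[simp] theorem up_self (x : C → ℕ) (c : C) : up x c c = x c + 1 := by simp [up]

omit [Fintype C] in
theorem up_ne (x : C → ℕ) {c c' : C} (h : c' ≠ c) : up x c c' = x c' := by simp [up, h]

omit [Fintype C] in
theorem up_apply (x : C → ℕ) (c c' : C) : up x c c' = x c' + if c' = c then 1 else 0 := by
  by_cases h : c' = c
  · subst h; simp
  · simp [up_ne x h, h]

omit [Fintype C] in
@[simp] theorem dn_self (x : C → ℕ) (c : C) : dn x c c = x c - 1 := by simp [dn]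

omit [Fintype C] in
theorem dn_ne (x : C → ℕ) {c c' : C} (h : c' ≠ c) : dn x c c' = x c' := by simp [dn, h]

omit [Fintype C] in
@[simp] theorem dn_up (x : C → ℕ) (c : C) : dn (up x c) c = x := by
  funext c'
  by_cases h : c' = c
  · subst h; simp
  · rw [dn_ne _ h, up_ne _ h]

omit [Fintype C] in
theorem up_dn (x : C → ℕ) (c : C) (h : 0 < x c) : up (dn x c) c = x := by
  funext c'
  by_cases h' : c' = c
  · subst h'; simp; omega
  · rw [up_ne _ h', dn_ne _ h']

omit [Fintype C] in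
theorem up_comm (x : C → ℕ) (c c' : C) : up (up x c) c' = up (up x c') c := by
  funext e
  simp only [up_apply]; omega

omit [Fintype C] in
theorem dn_up_up (x : C → ℕ) (c c' : C) : dn (up (up x c') c) c' = up x c := by
  rw [up_comm, dn_up]

theorem up_mem_box {Q x : C → ℕ} (hx : x ∈ box Q) {c : C} (h : x c < Q c) : up x c ∈ box Q := by
  rw [mem_box] at hx ⊢
  intro c'
  by_cases h' : c' = c
  · subst h'; simp; omega
  · rw [up_ne _ h']; exact hx c'

theorem dn_mem_box {Q x : C → ℕ} (hx : x ∈ box Q) (c : C) : dn x c ∈ box Q := by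
  rw [mem_box] at hx ⊢
  intro c'
  by_cases h' : c' = c
  · subst h'; have := hx c'; simp; omega
  · rw [dn_ne _ h']; exact hx c'

theorem sum_shift (Q : C → ℕ) (c : C) (G : (C → ℕ) → ℝ) :
    ∑ x ∈ box Q, (if 0 < x c then G x else 0)
      = ∑ z ∈ box Q, (if z c < Q c then G (up z c) else 0) := by
  rw [← Finset.sum_filter, ← Finset.sum_filter]
  refine Finset.sum_nbij' (fun x => dn x c) (fun z => up z c) ?_ ?_ ?_ ?_ ?_
  · intro x hx
    rw [mem_filter] at hx ⊢
    have := mem_box.1 hx.1 c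
    refine ⟨dn_mem_box hx.1 c, ?_⟩
    have := hx.2
    simp; omega
  · intro z hz
    rw [mem_filter] at hz ⊢
    exact ⟨up_mem_box hz.1 hz.2, by simp⟩
  · intro x hx
    exact up_dn x c (mem_filter.1 hx).2
  · intro z _
    exact dn_up z c
  · intro x hx
    rw [up_dn x c (mem_filter.1 hx).2]

/-- Forward difference, zero at the upper wall. -/
noncomputable def gr (Q : C → ℕ) (f : (C → ℕ) → ℝ) (c : C) (x : C → ℕ) : ℝ :=
  if x c < Q c then f (up x c) - f x else 0

/-- Energy. -/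
noncomputable def en (Q : C → ℕ) (ν f : (C → ℕ) → ℝ) : ℝ :=
  ∑ x ∈ box Q, ν x * ∑ c, gr Q f c x ^ 2

/-- Poincare inequality with constant `κ`. -/
def PI (Q : C → ℕ) (ν : (C → ℕ) → ℝ) (κ : ℝ) : Prop :=
  ∀ f : (C → ℕ) → ℝ, ∃ m : ℝ, ∑ x ∈ box Q, ν x * (f x - m) ^ 2 ≤ κ * en Q ν f

theorem en_nonneg (Q : C → ℕ) (ν f : (C → ℕ) → ℝ) (hν : ∀ x ∈ box Q, 0 ≤ ν x) : 0 ≤ en Q ν f :=
  Finset.sum_nonneg fun x hx => mul_nonneg (hν x hx) (Finset.sum_nonneg fun _ _ => sq_nonneg _)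

theorem PI.mono {Q : C → ℕ} {ν : (C → ℕ) → ℝ} {κ κ' : ℝ} (h : PI Q ν κ)
    (hν : ∀ x ∈ box Q, 0 ≤ ν x) (hκ : κ ≤ κ') : PI Q ν κ' := fun f =>
  let ⟨m, hm⟩ := h f
  ⟨m, hm.trans (mul_le_mul_of_nonneg_right hκ (en_nonneg Q ν f hν))⟩

/-- Bounded perturbation. -/
theorem PI.perturb {Q : C → ℕ} {ν ν' : (C → ℕ) → ℝ} {κ a b : ℝ} (h : PI Q ν κ) (hκ : 0 ≤ κ)
    (ha : 0 ≤ a) (h1 : ∀ x ∈ box Q, ν' x ≤ a * ν x) (h2 : ∀ x ∈ box Q, ν x ≤ b * ν' x) :
    PI Q ν' (a * b * κ) := by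
  intro f
  obtain ⟨m, hm⟩ := h f
  refine ⟨m, ?_⟩
  have e1 : ∑ x ∈ box Q, ν' x * (f x - m) ^ 2 ≤ a * ∑ x ∈ box Q, ν x * (f x - m) ^ 2 := by
    rw [Finset.mul_sum]
    refine Finset.sum_le_sum fun x hx => ?_
    rw [← mul_assoc]
    exact mul_le_mul_of_nonneg_right (h1 x hx) (sq_nonneg _)
  have e2 : en Q ν f ≤ b * en Q ν' f := by
    unfold en
    rw [Finset.mul_sum]
    refine Finset.sum_le_sum fun x hx => ?_
    rw [← mul_assoc]
    exact mul_le_mul_of_nonneg_right (h2 x hx) (Finset.sum_nonneg fun _ _ => sq_nonneg _)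
  calc _ ≤ a * ∑ x ∈ box Q, ν x * (f x - m) ^ 2 := e1
    _ ≤ a * (κ * en Q ν f) := mul_le_mul_of_nonneg_left hm ha
    _ ≤ a * (κ * (b * en Q ν' f)) :=
        mul_le_mul_of_nonneg_left (mul_le_mul_of_nonneg_left e2 hκ) ha
    _ = _ := by ring

/-- Mixed radix decomposition of a box. -/
theorem sum_radix (A Q δ : C → ℕ) (hδ : ∀ c, 0 < δ c) (hA : ∀ c, A c + 1 = δ c * (Q c + 1))
    (G : (C → ℕ) → ℝ) :
    ∑ x ∈ box A, G x
      = ∑ q ∈ box Q, ∑ z ∈ box (fun c => δ c - 1), G (fun c => δ c * q c + z c) := by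
  rw [← Finset.sum_product']
  refine Finset.sum_nbij' (fun x => (fun c => x c / δ c, fun c => x c % δ c))
    (fun p => fun c => δ c * p.1 c + p.2 c) ?_ ?_ ?_ ?_ ?_
  · intro x hx
    rw [mem_box] at hx
    rw [mem_product, mem_box, mem_box]
    refine ⟨fun c => ?_, fun c => ?_⟩
    · have h1 : x c < δ c * (Q c + 1) := by have := hx c; have := hA c; omega
      exact Nat.lt_succ_iff.1 (Nat.div_lt_of_lt_mul h1)
    · have := Nat.mod_lt (x c) (hδ c)
      show x c % δ c ≤ δ c - 1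
      omega
  · intro p hp
    rw [mem_product, mem_box, mem_box] at hp
    rw [mem_box]
    intro c
    have h1 := Nat.mul_le_mul_left (δ c) (hp.1 c)
    have h2 : p.2 c ≤ δ c - 1 := hp.2 c
    have h3 := hA c
    have h4 := hδ c
    rw [Nat.mul_add] at h3
    show δ c * p.1 c + p.2 c ≤ A c
    omega
  · intro x _
    funext c
    exact Nat.div_add_mod _ _
  · intro p hp
    rw [mem_product, mem_box, mem_box] at hp
    have h2 : ∀ c, p.2 c < δ c := fun c => by
      have h : p.2 c ≤ δ c - 1 := hp.2 c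
      have := hδ c; omega
    refine Prod.ext (funext fun c => ?_) (funext fun c => ?_)
    · show (δ c * p.1 c + p.2 c) / δ c = p.1 c
      rw [Nat.mul_add_div (hδ c), Nat.div_eq_of_lt (h2 c), add_zero]
    · show (δ c * p.1 c + p.2 c) % δ c = p.2 c
      rw [Nat.mul_add_mod, Nat.mod_eq_of_lt (h2 c)]
  · intro x _
    congr 1
    funext c
    exact (Nat.div_add_mod _ _).symm

theorem card_box (Q : C → ℕ) : (box Q).card = ∏ c, (Q c + 1) := by
  simp [box, Fintype.card_piFinset]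

/-- The soft constraint weight. -/
noncomputable def Phi {V : Type} [Fintype V] (K : ℝ) (a : V → C → ℝ) (b : V → ℝ) (x : C → ℕ) : ℝ :=
  ∏ v, (K + Real.exp (∑ c, a v c * x c + b v))⁻¹

omit [DecidableEq C] in
theorem Phi_pos {V : Type} [Fintype V] {K : ℝ} (hK : 0 < K) (a : V → C → ℝ) (b : V → ℝ)
    (x : C → ℕ) : 0 < Phi K a b x :=
  Finset.prod_pos fun _ _ => inv_pos.2 (add_pos hK (Real.exp_pos _))

theorem sum_mul_up (a : C → ℝ) (x : C → ℕ) (c : C) :
    ∑ e, a e * (up x c e : ℝ) = ∑ e, a e * x e + a c := by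
  simp only [up_apply, Nat.cast_add, Nat.cast_ite, Nat.cast_one, Nat.cast_zero, mul_add,
    Finset.sum_add_distrib, mul_ite, mul_one, mul_zero, Finset.sum_ite_eq', mem_univ, if_true]

theorem inv_add_exp_le {K : ℝ} (hK : 0 < K) (s t e : ℝ) (h : |s - t| ≤ e) :
    (K + Real.exp s)⁻¹ ≤ Real.exp e * (K + Real.exp t)⁻¹ := by
  have h1 := abs_le.1 h
  have he : 0 ≤ e := (abs_nonneg _).trans h
  have h2 : Real.exp t ≤ Real.exp e * Real.exp s := by
    rw [← Real.exp_add]; exact Real.exp_le_exp.2 (by linarith [h1.1])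
  have h3 : 1 ≤ Real.exp e := Real.one_le_exp he
  have p1 := Real.exp_pos s
  have p2 := Real.exp_pos t
  rw [← div_eq_mul_inv, inv_eq_one_div, div_le_div_iff₀ (by positivity) (by positivity)]
  nlinarith

omit [DecidableEq C] in
/-- Comparison of soft weights at two points. -/
theorem Phi_le {V : Type} [Fintype V] {K : ℝ} (hK : 0 < K) (a a' : V → C → ℝ) (b b' : V → ℝ)
    (x x' : C → ℕ) (e : V → ℝ)
    (h : ∀ v, |(∑ c, a v c * x c + b v) - (∑ c, a' v c * x' c + b' v)| ≤ e v) :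
    Phi K a b x ≤ Real.exp (∑ v, e v) * Phi K a' b' x' := by
  unfold Phi
  rw [Real.exp_sum, ← Finset.prod_mul_distrib]
  exact Finset.prod_le_prod (fun v _ => (inv_pos.2 (add_pos hK (Real.exp_pos _))).le)
    fun v _ => inv_add_exp_le hK _ _ _ (h v)

end Vale.Agent.P328b
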