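import Vale.Agent.P317.Markov

/-! Exponential convergence of a lazy reversible chain with a Poincare inequality. -/

namespace Vale.Agent.P328b

open Finset Vale.Agent.P317

variable {Ω : Type}

noncomputable def dirS (S : Finset Ω) (π : Ω → ℝ) (K : Ω → P317.Rand Ω) (f : Ω → ℝ) : ℝ :=
  ∑ x ∈ S, π x * (K x).E fun y => (f x - f y) ^ 2

def RevS (S : Finset Ω) (π : Ω → ℝ) (K : Ω → P317.Rand Ω) : Prop :=
  ∀ f g : Ω → ℝ, ∑ x ∈ S, π x * (g x * (K x).E f) = ∑ x ∈ S, π x * (f x * (K x).E g)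

theorem statS (S : Finset Ω) (π : Ω → ℝ) (K : Ω → P317.Rand Ω) (hrev : RevS S π K) (σ : Ω → ℝ) :
    ∑ x ∈ S, π x * (K x).E σ = ∑ x ∈ S, π x * σ x := by
  have := hrev σ fun _ => 1
  simpa [P317.Rand.E_const] using this

theorem dropS (S : Finset Ω) (π : Ω → ℝ) (hπ0 : ∀ x ∈ S, 0 ≤ π x) (K : Ω → P317.Rand Ω)
    (hrev : RevS S π K) (hlazy : Lazy K) (f : Ω → ℝ) :
    ∑ x ∈ S, π x * ((K x).E f) ^ 2 + (1 / 4) * dirS S π K f ≤ ∑ x ∈ S, π x * f x ^ 2 := by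
  rw [← statS S π K hrev fun y => f y ^ 2]
  unfold dirS
  rw [Finset.mul_sum, ← Finset.sum_add_distrib]
  refine Finset.sum_le_sum fun x hx => ?_
  have h2 : (fun y => (f x - f y) ^ 2) = fun y => (f x + (-1) * f y) ^ 2 := by
    funext y; ring
  have h3 := hlazy x (fun y => ((f x + 4 / 3 * ((K x).E f - f x)) + (-1) * f y) ^ 2)
    fun y => sq_nonneg _
  rw [h2, E_sq_affine]
  rw [E_sq_affine] at h3
  have h4 : ((K x).E f) ^ 2 + 1 / 4 * (f x ^ 2 + 2 * f x * (-1) * (K x).E f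
      + (-1) ^ 2 * (K x).E fun y => f y ^ 2) ≤ (K x).E fun y => f y ^ 2 := by
    nlinarith
  have h5 := mul_le_mul_of_nonneg_left h4 (hπ0 x hx)
  linarith

theorem contract (S : Finset Ω) (π : Ω → ℝ) (hπ0 : ∀ x ∈ S, 0 ≤ π x) (K : Ω → P317.Rand Ω)
    (hrev : RevS S π K) (hlazy : Lazy K) (κ : ℝ) (hκ : 1 ≤ κ)
    (hPI : ∀ f : Ω → ℝ, ∃ m : ℝ, ∑ x ∈ S, π x * (f x - m) ^ 2 ≤ κ * dirS S π K f)
    (g : Ω → ℝ) (hg : ∑ x ∈ S, π x * g x = 0) (T : ℕ) :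
    ∑ x ∈ S, π x * (iter K T x).E g = 0 ∧
      ∑ x ∈ S, π x * ((iter K T x).E g) ^ 2 ≤ (1 - 1 / (4 * κ)) ^ T * ∑ x ∈ S, π x * g x ^ 2 := by
  induction T with
  | zero => simpa [iter] using hg
  | succ T ih =>
    simp only [E_iter_succ]
    refine ⟨by rw [statS S π K hrev, ih.1], ?_⟩
    set h : Ω → ℝ := fun x => (iter K T x).E g
    have h1 := dropS S π hπ0 K hrev hlazy h
    obtain ⟨a, ha⟩ := hPI h
    have h2 : ∑ x ∈ S, π x * (h x - a) ^ 2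
        = ∑ x ∈ S, π x * h x ^ 2 - 2 * a * ∑ x ∈ S, π x * h x + ∑ x ∈ S, π x * a ^ 2 := by
      rw [Finset.mul_sum, ← Finset.sum_sub_distrib, ← Finset.sum_add_distrib]
      exact Finset.sum_congr rfl fun x _ => by ring
    have h3 : 0 ≤ ∑ x ∈ S, π x * a ^ 2 :=
      Finset.sum_nonneg fun x hx => mul_nonneg (hπ0 x hx) (sq_nonneg _)
    have h4 : ∑ x ∈ S, π x * h x ^ 2 ≤ κ * dirS S π K h := by
      rw [h2, ih.1] at ha; linarith
    have h5 : 1 / (4 * κ) * ∑ x ∈ S, π x * h x ^ 2 ≤ 1 / 4 * dirS S π K h := by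
      have := mul_le_mul_of_nonneg_left h4 (show 0 ≤ 1 / (4 * κ) by positivity)
      refine this.trans (le_of_eq ?_)
      field_simp
    have h6 : 0 ≤ 1 - 1 / (4 * κ) := by
      rw [sub_nonneg, div_le_one (by positivity)]; linarith
    have h7 := mul_le_mul_of_nonneg_left ih.2 h6
    rw [pow_succ']
    linarith

/-- Pointwise convergence from a start state of weight at least `Z / A`. -/
theorem converge (S : Finset Ω) (π : Ω → ℝ) (hπ0 : ∀ x ∈ S, 0 ≤ π x) (K : Ω → P317.Rand Ω)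
    (hrev : RevS S π K) (hlazy : Lazy K) (κ : ℝ) (hκ : 1 ≤ κ)
    (hPI : ∀ f : Ω → ℝ, ∃ m : ℝ, ∑ x ∈ S, π x * (f x - m) ^ 2 ≤ κ * dirS S π K f)
    (x0 : Ω) (hx0 : x0 ∈ S) (hp : 0 < π x0) (A : ℝ) (hA : ∑ x ∈ S, π x ≤ A * π x0)
    (f : Ω → ℝ) (hf : ∀ x, |f x| ≤ 1) (T : ℕ) :
    ((iter K T x0).E f - (∑ x ∈ S, π x * f x) / ∑ x ∈ S, π x) ^ 2
      ≤ A * Real.exp (-(T / (4 * κ))) := by
  set Z := ∑ x ∈ S, π x with hZ
  have hZ0 : 0 < Z := hp.trans_le (Finset.single_le_sum hπ0 hx0)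
  set μ := (∑ x ∈ S, π x * f x) / Z with hμ
  have e1 : ∑ x ∈ S, π x * f x = μ * Z := by rw [hμ]; field_simp
  have hg : ∑ x ∈ S, π x * (f x - μ) = 0 := by
    simp only [mul_sub, Finset.sum_sub_distrib, ← Finset.sum_mul]
    rw [e1]; ring
  have h := (contract S π hπ0 K hrev hlazy κ hκ hPI _ hg T).2
  have e2 : ∑ x ∈ S, π x * (f x - μ) ^ 2 ≤ Z := by
    have : ∑ x ∈ S, π x * (f x - μ) ^ 2
        = ∑ x ∈ S, π x * f x ^ 2 - 2 * μ * ∑ x ∈ S, π x * f x + μ ^ 2 * Z := by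
      rw [hZ, Finset.mul_sum, Finset.mul_sum, ← Finset.sum_sub_distrib, ← Finset.sum_add_distrib]
      exact Finset.sum_congr rfl fun x _ => by ring
    have h1 : ∑ x ∈ S, π x * f x ^ 2 ≤ Z := Finset.sum_le_sum fun x hx =>
      mul_le_of_le_one_right (hπ0 x hx) ((sq_le_one_iff_abs_le_one _).2 (hf x))
    rw [this, e1]
    nlinarith [mul_nonneg (sq_nonneg μ) hZ0.le]
  have h6 : 0 ≤ 1 - 1 / (4 * κ) := by
    rw [sub_nonneg, div_le_one (by positivity)]; linarith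
  have e3 : (1 - 1 / (4 * κ)) ^ T ≤ Real.exp (-(T / (4 * κ))) := by
    have := Real.add_one_le_exp (-(1 / (4 * κ)))
    refine (pow_le_pow_left₀ h6 (b := Real.exp (-(1 / (4 * κ)))) (by linarith) T).trans ?_
    rw [← Real.exp_nat_mul]
    exact le_of_eq (by congr 1; ring)
  have e4 := Finset.single_le_sum (f := fun x => π x * ((iter K T x).E fun x => f x - μ) ^ 2)
    (fun x hx => mul_nonneg (hπ0 x hx) (sq_nonneg _)) hx0
  simp only [P317.Rand.E_sub, P317.Rand.E_const] at e4 h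
  refine le_of_mul_le_mul_left ?_ hp
  calc _ ≤ (1 - 1 / (4 * κ)) ^ T * ∑ x ∈ S, π x * (f x - μ) ^ 2 := e4.trans h
    _ ≤ Real.exp (-(T / (4 * κ))) * (A * π x0) :=
        mul_le_mul e3 (e2.trans hA) (Finset.sum_nonneg fun x hx =>
          mul_nonneg (hπ0 x hx) (sq_nonneg _)) (Real.exp_pos _).le
    _ = _ := by ring

end Vale.Agent.P328b
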