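import Vale.Agent.P328b.Weight
import Vale.Agent.P328b.MarkovS

/-! The chain: transition formula, reversibility, convergence. -/

namespace Vale.Agent.P328b

open Finset Vale.Agent.P317

theorem E_test {P : ℕ} (hP : 4 ≤ P) (T s s' : ℕ) (F : ℕ → ℝ) :
    (test P T s s').E F
      = F 0 + (VV P T s : ℝ) / 2 ^ Nat.size (VV P T s + VV P T s') * (F 1 - F 0) := by
  unfold test
  rw [P317.Rand.E_bind, E_bits', min_eq_right (Nat.size_le.2 (VV_lt hP s s'))]
  have h : VV P T s ≤ 2 ^ Nat.size (VV P T s + VV P T s') :=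
    (Nat.le_add_right _ _).trans (Nat.lt_size_self _).le
  generalize Nat.size (VV P T s + VV P T s') = k at *
  generalize VV P T s = V at *
  have e : ∀ R, (P317.Rand.ret (if R < V then 1 else 0)).E F
      = F 0 + if h : R < V then F 1 - F 0 else 0 := by
    intro R
    by_cases h : R < V <;> simp [h]
  simp only [e, Finset.sum_add_distrib]
  rw [sum_range_dite' V _ h fun _ _ => F 1 - F 0]
  simp only [Finset.sum_const, card_range, card_univ, Fintype.card_fin, nsmul_eq_mul]
  push_cast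
  field_simp

variable {m n : ℕ}

instance (v : Vx m n) (e : Fin m × Fin n) : Decidable (inci v e) := by
  unfold inci; infer_instance

theorem prod_inci (F : Vx m n → ℝ) (e : Fin m × Fin n) :
    ∏ v, (if inci v e then F v else 1)
      = F none * F (some (.inl e.1)) * F (some (.inr e.2)) := by
  rw [Fintype.prod_option, Fintype.prod_sum_type]
  simp [inci, mul_assoc]

namespace Inst

variable (I : Inst m n)

noncomputable def pa (q q' : Fin m × Fin n → ℕ) (v : Vx m n) : ℝ :=
  (I.Vq q v : ℝ) / 2 ^ Nat.size (I.Vq q v + I.Vq q' v)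

noncomputable def acc (q q' : Fin m × Fin n → ℕ) (e : Fin m × Fin n) : ℝ :=
  ∏ v, if inci v e then I.pa q q' v else 1

theorem pa_nonneg (q q' : Fin m × Fin n → ℕ) (v : Vx m n) : 0 ≤ I.pa q q' v := by
  unfold pa; positivity

theorem pa_le (q q' : Fin m × Fin n → ℕ) (v : Vx m n) : I.pa q q' v ≤ 1 := by
  unfold pa
  rw [div_le_one (by positivity)]
  exact_mod_cast (Nat.le_add_right _ _).trans (Nat.lt_size_self _).le

theorem acc_nonneg (q q' : Fin m × Fin n → ℕ) (e : Fin m × Fin n) : 0 ≤ I.acc q q' e :=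
  Finset.prod_nonneg fun v _ => by split_ifs; exacts [I.pa_nonneg _ _ _, zero_le_one]

theorem acc_le (q q' : Fin m × Fin n → ℕ) (e : Fin m × Fin n) : I.acc q q' e ≤ 1 :=
  Finset.prod_le_one (fun v _ => by split_ifs; exacts [I.pa_nonneg _ _ _, zero_le_one])
    fun v _ => by split_ifs; exacts [I.pa_le _ _ _, le_rfl]

theorem E_try (q q' : Fin m × Fin n → ℕ) (e : Fin m × Fin n) (f : (Fin m × Fin n → ℕ) → ℝ) :
    (I.tryMove q q' e).E f = f q + I.acc q q' e * (f q' - f q) := by
  unfold tryMove testV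
  simp only [P317.Rand.E_bind, E_test I.four_le, P317.Rand.E_ret]
  rw [acc, prod_inci]
  unfold pa Vq
  norm_num
  ring

/-- Probability of proposing a given move. -/
noncomputable def cp (m n : ℕ) : ℝ := 1 / (4 * 2 ^ Nat.size (m * n))

theorem E_step (q : Fin m × Fin n → ℕ) (f : (Fin m × Fin n → ℕ) → ℝ) :
    (I.step q).E f = f q + cp m n * ∑ e,
      ((if q e < I.QQ e then I.acc q (up q e) e * (f (up q e) - f q) else 0)
        + if 0 < q e then I.acc q (dn q e) e * (f (dn q e) - f q) else 0) := by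
  set G : Fin m × Fin n → ℝ := fun e =>
    (if q e < I.QQ e then I.acc q (up q e) e * (f (up q e) - f q) else 0)
      + if 0 < q e then I.acc q (dn q e) e * (f (dn q e) - f q) else 0 with hG
  have e : ∀ k, ((bits 2).bind fun s =>
      if h : k < m * n then I.move q (cellOf k h) s else .ret q).E f
      = f q + if h : k < m * n then G (cellOf k h) / 4 else 0 := by
    intro k
    rw [P317.Rand.E_bind, E_bits']
    by_cases h : k < m * n
    · simp only [h, dif_pos, hG]
      norm_num [Finset.sum_range_succ, move]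
      split_ifs <;> simp only [E_try, P317.Rand.E_ret] <;> ring
    · simp [h]; ring
  unfold step
  rw [P317.Rand.E_bind, E_bits']
  simp only [e, Finset.sum_add_distrib]
  rw [sum_range_dite' _ _ (Nat.lt_size_self (m * n)).le fun k h => G (cellOf k h) / 4,
    sum_cellOf fun e => G e / 4, ← Finset.sum_div]
  simp only [Finset.sum_const, card_range, nsmul_eq_mul, cp]
  push_cast
  field_simp

theorem sc_up (q : Fin m × Fin n → ℕ) (e e' : Fin m × Fin n) :
    I.sc (up q e) e' = I.sc q e' + if e' = e then I.dd e else 0 := by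
  unfold sc
  rw [up_apply]
  split_ifs with h
  · rw [h, mul_add, mul_one]
  · rfl

theorem sum_sc_up (q : Fin m × Fin n → ℕ) (e : Fin m × Fin n) :
    ∑ e', I.sc (up q e) e' = ∑ e', I.sc q e' + I.dd e := by
  simp [sc_up, Finset.sum_add_distrib]

theorem row_sc_up (q : Fin m × Fin n → ℕ) (e : Fin m × Fin n) (i : Fin m) :
    rowS (I.sc (up q e)) i = rowS (I.sc q) i + if i = e.1 then I.dd e else 0 := by
  obtain ⟨a, b⟩ := e
  by_cases h : i = a <;> simp [rowS, sc_up, Finset.sum_add_distrib, h]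

theorem col_sc_up (q : Fin m × Fin n → ℕ) (e : Fin m × Fin n) (j : Fin n) :
    colS (I.sc (up q e)) j = colS (I.sc q) j + if j = e.2 then I.dd e else 0 := by
  obtain ⟨a, b⟩ := e
  by_cases h : j = b <;> simp [colS, sc_up, Finset.sum_add_distrib, h]

theorem Vq_up {q : Fin m × Fin n → ℕ} {e : Fin m × Fin n} {v : Vx m n} (h : ¬ inci v e) :
    I.Vq (up q e) v = I.Vq q v := by
  unfold Vq
  congr 1
  unfold inci at h
  rcases v with _ | i | j
  · simp at h
  · simp only [viol, row_sc_up]
    rw [if_neg fun h' => h (by simp [h']), add_zero]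
  · simp only [viol, col_sc_up]
    rw [if_neg fun h' => h (by simp [h']), add_zero]

theorem nu_acc (q : Fin m × Fin n → ℕ) (e : Fin m × Fin n) :
    I.nu (up q e) * I.acc (up q e) q e = I.nu q * I.acc q (up q e) e := by
  unfold nu acc
  rw [← Finset.prod_mul_distrib, ← Finset.prod_mul_distrib]
  refine Finset.prod_congr rfl fun v _ => ?_
  split_ifs with h
  · have a : (I.Vq q v : ℝ) ≠ 0 := by exact_mod_cast (I.Vq_pos q v).ne'
    have b : (I.Vq (up q e) v : ℝ) ≠ 0 := by exact_mod_cast (I.Vq_pos _ v).ne'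
    unfold pa
    rw [add_comm (I.Vq q v)]
    field_simp
  · rw [I.Vq_up h]

theorem form (f g : (Fin m × Fin n → ℕ) → ℝ) :
    ∑ q ∈ box I.QQ, I.nu q * (g q * (I.step q).E f) = ∑ q ∈ box I.QQ, I.nu q * (g q * f q)
      - cp m n * ∑ e, ∑ q ∈ box I.QQ,
        I.nu q * I.acc q (up q e) e * (gr I.QQ g e q * gr I.QQ f e q) := by
  have e1 : ∀ e, ∑ q ∈ box I.QQ, I.nu q * (g q *
      ((if q e < I.QQ e then I.acc q (up q e) e * (f (up q e) - f q) else 0)
        + if 0 < q e then I.acc q (dn q e) e * (f (dn q e) - f q) else 0))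
      = -∑ q ∈ box I.QQ, I.nu q * I.acc q (up q e) e * (gr I.QQ g e q * gr I.QQ f e q) := by
    intro e
    simp only [mul_add, Finset.sum_add_distrib, mul_ite, mul_zero]
    rw [sum_shift, ← Finset.sum_add_distrib, ← Finset.sum_neg_distrib]
    refine Finset.sum_congr rfl fun q _ => ?_
    unfold gr
    split_ifs
    · rw [dn_up]
      linear_combination g (up q e) * (f q - f (up q e)) * I.nu_acc q e
    · simp
  simp only [E_step, mul_add (g _), mul_add (I.nu _), Finset.sum_add_distrib (s := box I.QQ)]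
  rw [sub_eq_add_neg, ← mul_neg, ← Finset.sum_neg_distrib]
  simp only [← e1]
  rw [Finset.sum_comm, Finset.mul_sum]
  congr 1
  refine Finset.sum_congr rfl fun q _ => ?_
  rw [← Finset.mul_sum, ← Finset.mul_sum]
  ring

theorem step_rev : RevS (box I.QQ) I.nu I.step := fun f g => by
  rw [form, form]
  simp only [mul_comm (g _), mul_comm (gr I.QQ g _ _)]

theorem cp_pos : 0 < cp m n := by unfold cp; positivity

theorem step_lazy : Lazy I.step := fun q f hf => by
  rw [E_step]
  have a : ∀ q' e, -f q ≤ I.acc q q' e * (f q' - f q) := fun q' e => by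
    have := I.acc_nonneg q q' e
    have := I.acc_le q q' e
    nlinarith [hf q, hf q', mul_nonneg (I.acc_nonneg q q' e) (hf q')]
  have b := Finset.card_nsmul_le_sum univ (fun e =>
    (if q e < I.QQ e then I.acc q (up q e) e * (f (up q e) - f q) else 0)
      + if 0 < q e then I.acc q (dn q e) e * (f (dn q e) - f q) else 0) (-(2 * f q))
    fun e _ => by
      have := hf q
      have := a (up q e) e
      have := a (dn q e) e
      split_ifs <;> linarith
  rw [card_univ, card_cell, nsmul_eq_mul] at b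
  have c : cp m n * (m * n : ℕ) ≤ 1 / 4 := by
    unfold cp
    rw [div_mul_eq_mul_div, div_le_div_iff₀ (by positivity) (by positivity)]
    have : ((m * n : ℕ) : ℝ) ≤ 2 ^ Nat.size (m * n) := by
      exact_mod_cast (Nat.lt_size_self (m * n)).le
    linarith
  have d := mul_le_mul_of_nonneg_left b (cp_pos (m := m) (n := n)).le
  have := mul_le_mul_of_nonneg_right c (hf q)
  have := hf q
  linarith

theorem two_pow_size_le {x : ℕ} (h : 0 < x) : 2 ^ Nat.size x ≤ 2 * x := by
  have h1 : 0 < Nat.size x := Nat.size_pos.2 h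
  have h2 : 2 ^ (Nat.size x - 1) ≤ x := Nat.lt_size.1 (by omega)
  rw [show Nat.size x = Nat.size x - 1 + 1 by omega, pow_succ]
  omega

theorem acc_ge (h : I.Ok) (q : Fin m × Fin n → ℕ) (e : Fin m × Fin n) :
    1 / (par m n : ℝ) ^ 18 ≤ I.acc q (up q e) e := by
  have hP := I.four_le
  have hP' : (4 : ℝ) ≤ par m n := by exact_mod_cast hP
  have key : ∀ v, inci v e → 1 / (par m n : ℝ) ^ 6 ≤ I.pa q (up q e) v := by
    intro v hv
    have a := I.dd_le_ww h hv
    have b : I.Vq (up q e) v ≤ (par m n ^ 5 + 1) * I.Vq q v := by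
      refine VV_le hP ?_
      rcases v with _ | i | j
      · simp only [viol, sum_sc_up]; omega
      · simp only [viol, row_sc_up]; split_ifs <;> omega
      · simp only [viol, col_sc_up]; split_ifs <;> omega
    have c := two_pow_size_le (Nat.add_pos_left (I.Vq_pos q v) (I.Vq (up q e) v))
    have d : 2 * (par m n ^ 5 + 2) ≤ par m n ^ 6 := by
      have a : 4 ≤ par m n ^ 5 := hP.trans (Nat.le_self_pow (by norm_num) _)
      have b : 4 * par m n ^ 5 ≤ par m n * par m n ^ 5 := Nat.mul_le_mul_right _ hP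
      rw [show par m n * par m n ^ 5 = par m n ^ 6 by ring] at b
      omega
    have e := Nat.mul_le_mul_right (I.Vq q v) d
    unfold pa
    rw [div_le_div_iff₀ (by positivity) (by positivity), one_mul, mul_comm]
    have : 2 ^ Nat.size (I.Vq q v + I.Vq (up q _) v) ≤ par m n ^ 6 * I.Vq q v :=
      c.trans (le_trans (by nlinarith) e)
    exact_mod_cast this
  rw [acc, prod_inci, show 1 / (par m n : ℝ) ^ 18 = 1 / (par m n : ℝ) ^ 6 * (1 / (par m n : ℝ) ^ 6)
    * (1 / (par m n : ℝ) ^ 6) by field_simp]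
  exact mul_le_mul (mul_le_mul (key _ (Or.inl rfl)) (key _ (Or.inr (Or.inl rfl))) (by positivity)
    (I.pa_nonneg _ _ _)) (key _ (Or.inr (Or.inr rfl))) (by positivity)
    (mul_nonneg (I.pa_nonneg _ _ _) (I.pa_nonneg _ _ _))

include I in
theorem cp_ge : 1 / (par m n : ℝ) ^ 4 ≤ cp m n := by
  have hP := I.four_le
  have a := two_pow_size_le (Nat.mul_pos I.i0.pos I.j0.pos)
  have b := mn_le (m := m) (n := n)
  have c : 8 * par m n ^ 2 ≤ par m n ^ 2 * par m n ^ 2 := Nat.mul_le_mul_right _ (by nlinarith)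
  rw [show par m n ^ 2 * par m n ^ 2 = par m n ^ 4 by ring] at c
  have d : 4 * 2 ^ Nat.size (m * n) ≤ par m n ^ 4 := by omega
  exact one_div_le_one_div_of_le (by positivity) (by exact_mod_cast d)

theorem en_le (h : I.Ok) (f : (Fin m × Fin n → ℕ) → ℝ) :
    en I.QQ I.nu f ≤ (par m n : ℝ) ^ 22 * dirS (box I.QQ) I.nu I.step f := by
  have hP' : (4 : ℝ) ≤ par m n := by exact_mod_cast I.four_le
  unfold en dirS
  rw [Finset.mul_sum]
  refine Finset.sum_le_sum fun q _ => ?_
  rw [mul_left_comm]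
  refine mul_le_mul_of_nonneg_left ?_ (I.nu_pos q).le
  rw [E_step, sub_self, zero_pow two_ne_zero, zero_add, Finset.mul_sum, Finset.mul_sum]
  refine Finset.sum_le_sum fun e _ => ?_
  have a : 0 ≤ if 0 < q e then I.acc q (dn q e) e * ((f q - f (dn q e)) ^ 2 - 0) else 0 := by
    have := I.acc_nonneg q (dn q e) e
    split_ifs
    · rw [sub_zero]; positivity
    · exact le_rfl
  have b : 1 / (par m n : ℝ) ^ 18 * gr I.QQ f e q ^ 2
      ≤ if q e < I.QQ e then I.acc q (up q e) e * ((f q - f (up q e)) ^ 2 - 0) else 0 := by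
    unfold gr
    split_ifs
    · rw [sub_zero, sub_sq_comm]
      exact mul_le_mul_of_nonneg_right (I.acc_ge h q e) (sq_nonneg _)
    · simp
  calc _ = (par m n : ℝ) ^ 22 * (1 / (par m n : ℝ) ^ 4
        * (1 / (par m n : ℝ) ^ 18 * gr I.QQ f e q ^ 2)) := by field_simp
    _ ≤ _ := mul_le_mul_of_nonneg_left (mul_le_mul I.cp_ge (by linarith) (by positivity)
        cp_pos.le) (by positivity)

theorem walk_conv (h : I.Ok) (S : ℕ) (hS : 1 ≤ S) (f : (Fin m × Fin n → ℕ) → ℝ)
    (hf : ∀ x, |f x| ≤ 1) :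
    |(I.walk S).E f - (∑ q ∈ box I.QQ, I.nu q * f q) / ∑ q ∈ box I.QQ, I.nu q|
      ≤ Real.exp (-(S + 6)) := by
  have hP' : (4 : ℝ) ≤ par m n := by exact_mod_cast I.four_le
  have hS' : (1 : ℝ) ≤ S := by exact_mod_cast hS
  have h1 := converge (box I.QQ) I.nu (fun q _ => (I.nu_pos q).le) I.step I.step_rev I.step_lazy
    ((par m n : ℝ) ^ 519) (one_le_pow₀ (by linarith))
    (fun g => by
      obtain ⟨a, ha⟩ := I.nu_PI h g
      refine ⟨a, ha.trans ?_⟩
      rw [show (par m n : ℝ) ^ 519 = (par m n : ℝ) ^ 497 * (par m n : ℝ) ^ 22 by ring, mul_assoc]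
      exact mul_le_mul_of_nonneg_left (I.en_le h g) (by positivity))
    0 (mem_box.2 fun _ => Nat.zero_le _) (I.nu_pos 0) _ I.nu_start f hf (par m n ^ 600 * S)
  refine abs_le_of_sq_le_sq' ?_ (Real.exp_pos _).le |> abs_le.2
  unfold walk
  rw [iter_iter]
  refine h1.trans ?_
  have a : (2 : ℝ) ^ (2 * par m n ^ 15) ≤ Real.exp ((2 * par m n ^ 15 : ℕ) * 1) := by
    rw [Real.exp_nat_mul]
    exact pow_le_pow_left₀ (by norm_num) (by linarith [Real.add_one_le_exp 1]) _
  refine (mul_le_mul_of_nonneg_right a (Real.exp_pos _).le).trans ?_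
  rw [← Real.exp_add, ← Real.exp_nat_mul]
  refine Real.exp_le_exp.2 ?_
  push_cast
  generalize (par m n : ℝ) = p at *
  have p0 : 0 < p := by linarith
  rw [show p ^ 600 * S / (4 * p ^ 519) = p ^ 66 * p ^ 15 * S / 4 by field_simp]
  have b : (64 : ℝ) ≤ p ^ 66 := le_trans (by norm_num) (pow_le_pow_left₀ (by norm_num) hP' 66)
  have c : (1 : ℝ) ≤ p ^ 15 := one_le_pow₀ (by linarith)
  have d : 64 * p ^ 15 * S ≤ p ^ 66 * p ^ 15 * S := by gcongr
  nlinarith [mul_nonneg (sub_nonneg.2 c) (sub_nonneg.2 hS')]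

end Inst

end Vale.Agent.P328b
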