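import Vale.Agent.P317.Model

/-!
Machine model for P328: a random-access machine with bounded loops and fair coins.
Arithmetic has no multiplication, so each executed node adds at most one bit to the largest
number in memory.
-/

namespace Vale.Agent.P328b

open Finset Vale.Agent.P317

/-- Programs. -/
inductive Prog : Type
  | store : ℕ → Expr → Expr → Prog
  | seq : Prog → Prog → Prog
  | ifz : Expr → Prog → Prog → Prog
  | loop : Expr → Prog → Prog
  | coin : ℕ → Prog

/-- Execution on a pair (memory, steps used so far). -/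
def exec : Prog → Mem × ℕ → P317.Rand (Mem × ℕ)
  | .store a i e, s => .ret (s.1.set a (i.eval s.1) (e.eval s.1), s.2 + i.cost + e.cost + 1)
  | .seq c d, s => (exec c s).bind (exec d)
  | .ifz e c d, s =>
      if e.eval s.1 = 0 then exec c (s.1, s.2 + e.cost + 1) else exec d (s.1, s.2 + e.cost + 1)
  | .loop e c, s => iter (fun u => exec c (u.1, u.2 + 1)) (e.eval s.1) (s.1, s.2 + e.cost + 1)
  | .coin a, s => .flip (.ret (s.1.set a 0 0, s.2 + 1)) (.ret (s.1.set a 0 1, s.2 + 1))

/-- Contingency tables with row sums `r` and column sums `c`. -/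
def tables {m n : ℕ} (r : Fin m → ℕ) (c : Fin n → ℕ) : Finset (Fin m × Fin n → ℕ) :=
  (Fintype.piFinset fun e => range (r e.1 + 1)).filter fun X =>
    (∀ i, ∑ j, X (i, j) = r i) ∧ ∀ j, ∑ i, X (i, j) = c j

/-- Initial memory: array 0 holds `m`, `n`, `E`; array 1 the row sums; array 2 the column sums;
every other cell is 0. -/
def input {m n : ℕ} (r : Fin m → ℕ) (c : Fin n → ℕ) (E : ℕ) : Mem := fun a i =>
  if a = 0 then [m, n, E].getD i 0
  else if a = 1 then (if h : i < m then r ⟨i, h⟩ else 0)
  else if a = 2 then (if h : i < n then c ⟨i, h⟩ else 0)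
  else 0

/-- The output table is read row by row from array 3. -/
def output (m n : ℕ) (M : Mem) : Fin m × Fin n → ℕ := fun e => M 3 (e.1 * n + e.2)

end Vale.Agent.P328b
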