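import Vale.Agent.P328b.Soft
import Vale.Agent.P328b.Model

/-! Exact tables carry a constant fraction of the soft weight. -/

namespace Vale.Agent.P328b

open Finset

variable {m n : ℕ}

theorem mem_tables {r : Fin m → ℕ} {c : Fin n → ℕ} {X : Fin m × Fin n → ℕ} :
    X ∈ tables r c ↔ (∀ i, ∑ j, X (i, j) = r i) ∧ ∀ j, ∑ i, X (i, j) = c j := by
  simp only [tables, mem_filter, Fintype.mem_piFinset, mem_range, and_iff_right_iff_imp]
  rintro ⟨h, _⟩ ⟨i, j⟩
  have := Finset.single_le_sum (f := fun j => X (i, j)) (fun _ _ => Nat.zero_le _) (mem_univ j)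
  have := h i
  simp only at *
  omega

/-- Integer tables bounded below by `-B`. -/
noncomputable def ztabs (r : Fin m → ℕ) (c : Fin n → ℕ) (B : ℕ) : Finset (Fin m × Fin n → ℤ) :=
  (Fintype.piFinset fun e => Icc (-(B : ℤ)) (r e.1 + n * B)).filter fun Y =>
    (∀ i, ∑ j, Y (i, j) = r i) ∧ ∀ j, ∑ i, Y (i, j) = c j

theorem mem_ztabs {r : Fin m → ℕ} {c : Fin n → ℕ} {B : ℕ} {Y : Fin m × Fin n → ℤ} :
    Y ∈ ztabs r c B ↔ (∀ e, -(B : ℤ) ≤ Y e) ∧ (∀ i, ∑ j, Y (i, j) = r i)
      ∧ ∀ j, ∑ i, Y (i, j) = c j := by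
  simp only [ztabs, mem_filter, Fintype.mem_piFinset, mem_Icc]
  constructor
  · rintro ⟨h1, h2⟩
    exact ⟨fun e => (h1 e).1, h2⟩
  · rintro ⟨h1, h2⟩
    refine ⟨fun e => ⟨h1 e, ?_⟩, h2⟩
    obtain ⟨i, j⟩ := e
    have h3 := Finset.single_le_sum (f := fun j => Y (i, j) + B)
      (fun j _ => by have := h1 (i, j); omega) (mem_univ j)
    simp only [Finset.sum_add_distrib, h2.1 i, Finset.sum_const, card_univ, Fintype.card_fin,
      nsmul_eq_mul] at h3
    simp only
    omega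

def dl {k : ℕ} (a b x : Fin k) : ℤ := (if x = a then 1 else 0) - if x = b then 1 else 0

theorem sum_dl {k : ℕ} (a b : Fin k) : ∑ x, dl a b x = 0 := by simp [dl]

/-- Move `t` units along a 4-cycle. -/
def cyc (e p : Fin m × Fin n) (t : ℤ) (Y : Fin m × Fin n → ℤ) (x : Fin m × Fin n) : ℤ :=
  Y x + t * (dl e.1 p.1 x.1 * dl e.2 p.2 x.2)

theorem cyc_inj (e p : Fin m × Fin n) (t : ℤ) : Function.Injective (cyc e p t) := by
  intro Y Y' h
  funext x
  have := congrFun h x
  simpa [cyc] using this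

theorem geo_bound (σ : ℝ) (y : ℤ) (T : ℕ) :
    (Real.exp σ - 1) * ∑ t ∈ Icc 1 T, (if y - t < 0 then Real.exp (σ * ((y - t : ℤ) : ℝ)) else 0)
      = Real.exp (σ * (min y 0 : ℤ)) - Real.exp (σ * (min (y - T) 0 : ℤ)) := by
  induction T with
  | zero => simp
  | succ T ih =>
    rw [Finset.sum_Icc_succ_top (by omega), mul_add, ih]
    split_ifs with h
    · rw [min_eq_left (by omega : y - T ≤ 0), min_eq_left h.le, sub_mul, ← Real.exp_add]
      push_cast
      rw [show σ + σ * ((y : ℝ) - (T + 1)) = σ * (y - T) by ring]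
      ring
    · rw [min_eq_right (by omega : 0 ≤ y - T), min_eq_right (not_lt.1 h)]
      ring

theorem exists_big {k : ℕ} (f : Fin k → ℤ) (j : Fin k) (hj : f j < 0) (r T : ℕ)
    (hs : ∑ x, f x = r) (hT : k * (T - 1) ≤ r) : ∃ j', (T : ℤ) ≤ f j' := by
  by_contra hn
  push Not at hn
  have h1 : ∑ x, f x < ∑ _x : Fin k, ((T - 1 : ℕ) : ℤ) + 0 := by
    rw [add_zero]
    refine Finset.sum_lt_sum (fun x _ => ?_) ⟨j, mem_univ j, by omega⟩
    have := hn x
    omega
  simp only [Finset.sum_const, card_univ, Fintype.card_fin, nsmul_eq_mul, add_zero, hs] at h1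
  have : ((k * (T - 1) : ℕ) : ℤ) ≤ r := by exact_mod_cast hT
  push_cast at this
  omega

theorem cyc_step (r : Fin m → ℕ) (c : Fin n → ℕ) (B : ℕ) (e : Fin m × Fin n) (T : ℕ)
    (hT1 : n * (T - 1) ≤ r e.1) (hT2 : m * (T - 1) ≤ c e.2) (σ : ℝ) (hσ : 0 ≤ σ)
    (φ : Fin m × Fin n → ℤ → ℝ) (h0 : ∀ x y, 0 ≤ φ x y) (hmono : ∀ x, Monotone (φ x))
    (h1 : ∀ x y, 0 ≤ y → φ x y = 1) :
    T * (Real.exp σ - 1) * ∑ Y ∈ ztabs r c B,
        (if Y e < 0 then Real.exp (σ * Y e) * ∏ x ∈ univ.erase e, φ x (Y x) else 0)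
      ≤ m * n * ∑ Y ∈ ztabs r c B,
        Real.exp (σ * (min (Y e) 0 : ℤ)) * ∏ x ∈ univ.erase e, φ x (Y x) := by
  set R : (Fin m × Fin n → ℤ) → ℝ := fun Y => ∏ x ∈ univ.erase e, φ x (Y x) with hR
  have hR0 : ∀ Y, 0 ≤ R Y := fun Y => Finset.prod_nonneg fun x _ => h0 _ _
  have hl : 0 ≤ Real.exp σ - 1 := sub_nonneg.2 (Real.one_le_exp hσ)
  have a1 : ∑ Y ∈ ztabs r c B, (if Y e < 0 then Real.exp (σ * Y e) * R Y else 0)
      ≤ ∑ p : Fin m × Fin n, ∑ Y ∈ (ztabs r c B).filter
        (fun Y => Y e < 0 ∧ (T : ℤ) ≤ Y (e.1, p.2) ∧ (T : ℤ) ≤ Y (p.1, e.2)),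
        Real.exp (σ * Y e) * R Y := by
    simp only [Finset.sum_filter]
    rw [Finset.sum_comm]
    refine Finset.sum_le_sum fun Y hY => ?_
    have hnn : ∀ p ∈ (univ : Finset (Fin m × Fin n)), 0 ≤ if Y e < 0 ∧ (T : ℤ) ≤ Y (e.1, p.2)
        ∧ (T : ℤ) ≤ Y (p.1, e.2) then Real.exp (σ * Y e) * R Y else 0 := fun p _ => by
      have := hR0 Y
      split_ifs <;> positivity
    split_ifs with h
    · obtain ⟨_, h2, h3⟩ := mem_ztabs.1 hY
      obtain ⟨j', hj'⟩ := exists_big (fun j => Y (e.1, j)) e.2 h _ T (h2 e.1) hT1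
      obtain ⟨i', hi'⟩ := exists_big (fun i => Y (i, e.2)) e.1 h _ T (h3 e.2) hT2
      have := Finset.single_le_sum hnn (mem_univ (i', j'))
      rwa [if_pos ⟨h, hj', hi'⟩] at this
    · exact Finset.sum_nonneg hnn
  have a2 : ∀ (p : Fin m × Fin n), ∀ t ∈ Icc 1 T, ∑ Y ∈ (ztabs r c B).filter
        (fun Y => Y e < 0 ∧ (T : ℤ) ≤ Y (e.1, p.2) ∧ (T : ℤ) ≤ Y (p.1, e.2)),
        Real.exp (σ * Y e) * R Y
      ≤ ∑ Y ∈ ztabs r c B,
        (if Y e - t < 0 then Real.exp (σ * ((Y e - t : ℤ) : ℝ)) else 0) * R Y := by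
    intro p t ht
    rw [mem_Icc] at ht
    have key : ∀ Y ∈ (ztabs r c B).filter
        (fun Y => Y e < 0 ∧ (T : ℤ) ≤ Y (e.1, p.2) ∧ (T : ℤ) ≤ Y (p.1, e.2)),
        cyc e p t Y e = Y e + t ∧ ∀ x, Y x ≤ cyc e p t Y x ∨ (0 ≤ cyc e p t Y x ∧ 0 ≤ Y x) := by
      intro Y hY
      obtain ⟨_, h2, h3, h4⟩ := mem_filter.1 hY
      have n1 : e.2 ≠ p.2 := fun h => by rw [← h] at h3; simp only [Prod.mk.eta] at h3; omega
      have n2 : e.1 ≠ p.1 := fun h => by rw [← h] at h4; simp only [Prod.mk.eta] at h4; omega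
      refine ⟨by simp [cyc, dl, n1, n2], ?_⟩
      rintro ⟨i, j⟩
      by_cases hi : i = e.1
      · by_cases hj : j = e.2
        · left; simp [cyc, dl, hi, hj, n1, n2]
        · by_cases hj' : j = p.2
          · right; simp only [cyc, dl, hi, hj', n2, n1.symm, if_true, if_false]; omega
          · left; simp [cyc, dl, hj, hj']
      · by_cases hi' : i = p.1
        · by_cases hj : j = e.2
          · right; simp only [cyc, dl, hi', hj, n1, n2.symm, if_true, if_false]; omega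
          · by_cases hj' : j = p.2
            · left; simp [cyc, dl, hi', hj', n1.symm, n2.symm]
            · left; simp [cyc, dl, hj, hj']
        · left; simp [cyc, dl, hi, hi']
    calc _ ≤ ∑ Y ∈ (ztabs r c B).filter
          (fun Y => Y e < 0 ∧ (T : ℤ) ≤ Y (e.1, p.2) ∧ (T : ℤ) ≤ Y (p.1, e.2)),
          (if cyc e p t Y e - t < 0 then Real.exp (σ * ((cyc e p t Y e - t : ℤ) : ℝ)) else 0)
            * R (cyc e p t Y) := by
          refine Finset.sum_le_sum fun Y hY => ?_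
          obtain ⟨k1, k2⟩ := key Y hY
          rw [k1, add_sub_cancel_right, if_pos (mem_filter.1 hY).2.1]
          refine mul_le_mul_of_nonneg_left ?_ (Real.exp_pos _).le
          refine Finset.prod_le_prod (fun x _ => h0 _ _) fun x _ => ?_
          rcases k2 x with h | h
          · exact hmono x h
          · rw [h1 x _ h.1, h1 x _ h.2]
      _ = ∑ Y ∈ ((ztabs r c B).filter
          (fun Y => Y e < 0 ∧ (T : ℤ) ≤ Y (e.1, p.2) ∧ (T : ℤ) ≤ Y (p.1, e.2))).image (cyc e p t),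
          (if Y e - t < 0 then Real.exp (σ * ((Y e - t : ℤ) : ℝ)) else 0) * R Y := by
          rw [Finset.sum_image fun a _ b _ h => cyc_inj e p t h]
      _ ≤ _ := by
          refine Finset.sum_le_sum_of_subset_of_nonneg ?_ fun Y _ _ => ?_
          · intro Y' hY'
            obtain ⟨Y, hY, rfl⟩ := mem_image.1 hY'
            obtain ⟨k1, k2⟩ := key Y hY
            obtain ⟨b1, b2, b3⟩ := mem_ztabs.1 (mem_filter.1 hY).1
            refine mem_ztabs.2 ⟨fun x => ?_, fun i => ?_, fun j => ?_⟩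
            · have := b1 x
              rcases k2 x with h | h <;> omega
            · simp only [cyc, Finset.sum_add_distrib, ← Finset.mul_sum, b2, sum_dl, mul_zero,
                add_zero]
            · simp only [cyc, Finset.sum_add_distrib, ← Finset.mul_sum, ← Finset.sum_mul, b3,
                sum_dl, mul_zero, add_zero, zero_mul]
          · have := hR0 Y
            split_ifs <;> positivity
  have a3 : ∀ p : Fin m × Fin n, T * (Real.exp σ - 1) * ∑ Y ∈ (ztabs r c B).filter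
        (fun Y => Y e < 0 ∧ (T : ℤ) ≤ Y (e.1, p.2) ∧ (T : ℤ) ≤ Y (p.1, e.2)),
        Real.exp (σ * Y e) * R Y
      ≤ ∑ Y ∈ ztabs r c B, Real.exp (σ * (min (Y e) 0 : ℤ)) * R Y := by
    intro p
    have b1 := Finset.sum_le_sum (a2 p)
    rw [Finset.sum_const, Nat.card_Icc, Nat.add_sub_cancel, nsmul_eq_mul, Finset.sum_comm] at b1
    have b2 := mul_le_mul_of_nonneg_left b1 hl
    rw [mul_comm (T : ℝ), mul_assoc]
    refine b2.trans ?_
    rw [Finset.mul_sum]
    refine Finset.sum_le_sum fun Y _ => ?_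
    rw [← Finset.sum_mul, ← mul_assoc, geo_bound]
    exact mul_le_mul_of_nonneg_right (sub_le_self _ (Real.exp_pos _).le) (hR0 Y)
  have a4 := Finset.sum_le_sum fun p (_ : p ∈ univ) => a3 p
  rw [← Finset.mul_sum, Finset.sum_const, card_univ, nsmul_eq_mul] at a4
  simp only [Fintype.card_prod, Fintype.card_fin, Nat.cast_mul] at a4
  exact (mul_le_mul_of_nonneg_left a1 (by positivity)).trans a4

/-- Soft or hard sign constraint on a cell. -/
noncomputable def om (K : ℝ) (σ : Fin m × Fin n → ℝ) (A : Finset (Fin m × Fin n))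
    (x : Fin m × Fin n) (y : ℤ) : ℝ :=
  if 0 ≤ y then 1 else if x ∈ A then min 1 (K * Real.exp (σ x * y)) else 0

theorem om_nonneg {K : ℝ} (hK : 0 ≤ K) (σ : Fin m × Fin n → ℝ) (A : Finset (Fin m × Fin n))
    (x : Fin m × Fin n) (y : ℤ) : 0 ≤ om K σ A x y := by
  unfold om
  split_ifs
  · exact zero_le_one
  · exact le_min zero_le_one (by positivity)
  · exact le_rfl

theorem om_mono {K : ℝ} (hK : 0 ≤ K) (σ : Fin m × Fin n → ℝ) (hσ : ∀ x, 0 ≤ σ x)
    (A : Finset (Fin m × Fin n)) (x : Fin m × Fin n) : Monotone (om K σ A x) := by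
  intro y y' h
  unfold om
  split_ifs with h1 h2 h3 h4
  · exact le_rfl
  · omega
  · omega
  · exact min_le_left _ _
  · refine min_le_min_left _ (mul_le_mul_of_nonneg_left (Real.exp_le_exp.2 ?_) hK)
    exact mul_le_mul_of_nonneg_left (by exact_mod_cast h) (hσ x)
  · exact zero_le_one
  · exact le_rfl

theorem soft_count (r : Fin m → ℕ) (c : Fin n → ℕ) (B : ℕ) {K M : ℝ} (hK : 0 < K) (hM : 0 < M)
    (σ : Fin m × Fin n → ℝ) (hσ : ∀ x, 0 ≤ σ x) (T : Fin m × Fin n → ℕ)
    (A : Finset (Fin m × Fin n)) (hT1 : ∀ e ∈ A, n * (T e - 1) ≤ r e.1)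
    (hT2 : ∀ e ∈ A, m * (T e - 1) ≤ c e.2)
    (hs : ∀ e ∈ A, m * n * (1 + K * M) ≤ T e * (Real.exp (σ e) - 1)) :
    ∑ Y ∈ ztabs r c B, ∏ x, om K σ A x (Y x) ≤ (1 + 1 / M) ^ A.card * (tables r c).card := by
  induction A using Finset.induction_on with
  | empty =>
    simp only [card_empty, pow_zero, one_mul]
    have e : ∀ Y : Fin m × Fin n → ℤ, ∏ x, om K σ ∅ x (Y x) = if ∀ x, 0 ≤ Y x then 1 else 0 := by
      intro Y
      simp [om, Finset.prod_ite_zero]
    simp only [e, Finset.sum_boole]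
    refine Nat.cast_le.2 (Finset.card_le_card_of_injOn (fun Y x => (Y x).toNat) ?_ ?_)
    · intro Y hY
      obtain ⟨h1, h2⟩ := mem_filter.1 hY
      obtain ⟨_, b2, b3⟩ := mem_ztabs.1 h1
      refine mem_tables.2 ⟨fun i => ?_, fun j => ?_⟩
      · have := b2 i
        zify
        simp only [Int.toNat_of_nonneg (h2 _), this]
      · have := b3 j
        zify
        simp only [Int.toNat_of_nonneg (h2 _), this]
    · intro Y hY Y' hY' h
      funext x
      have := congrFun h x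
      have h1 := (mem_filter.1 hY).2 x
      have h2 := (mem_filter.1 hY').2 x
      simp only at this
      omega
  | insert e A he ih =>
    have ih' := ih (fun x hx => hT1 x (mem_insert_of_mem hx))
      (fun x hx => hT2 x (mem_insert_of_mem hx)) (fun x hx => hs x (mem_insert_of_mem hx))
    have hc := cyc_step r c B e (T e) (hT1 e (mem_insert_self _ _)) (hT2 e (mem_insert_self _ _))
      (σ e) (hσ e) (om K σ A) (om_nonneg hK.le σ A) (om_mono hK.le σ hσ A)
      fun x y hy => if_pos hy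
    have hs' := hs e (mem_insert_self _ _)
    set R : (Fin m × Fin n → ℤ) → ℝ := fun Y => ∏ x ∈ univ.erase e, om K σ A x (Y x) with hR
    have hR0 : ∀ Y, 0 ≤ R Y := fun Y => Finset.prod_nonneg fun x _ => om_nonneg hK.le _ _ _ _
    set H := ∑ Y ∈ ztabs r c B, (if Y e < 0 then Real.exp (σ e * Y e) * R Y else 0) with hH
    set C0 := ∑ Y ∈ ztabs r c B, ∏ x, om K σ A x (Y x) with hC0
    have e0 : ∀ Y : Fin m × Fin n → ℤ, ∏ x, om K σ A x (Y x) = if 0 ≤ Y e then R Y else 0 := by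
      intro Y
      rw [← Finset.mul_prod_erase univ _ (mem_univ e)]
      simp [om, he, hR]
    have hH0 : 0 ≤ H := Finset.sum_nonneg fun Y _ => by
      have := hR0 Y
      split_ifs <;> positivity
    have hC : 0 ≤ C0 := Finset.sum_nonneg fun Y _ =>
      Finset.prod_nonneg fun x _ => om_nonneg hK.le _ _ _ _
    have e1 : ∑ Y ∈ ztabs r c B, Real.exp (σ e * (min (Y e) 0 : ℤ)) * R Y = C0 + H := by
      rw [hC0, hH, ← Finset.sum_add_distrib]
      refine Finset.sum_congr rfl fun Y _ => ?_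
      rw [e0]
      by_cases h : 0 ≤ Y e
      · simp [h, not_lt.2 h]
      · simp [h, not_le.1 h, min_eq_left (not_le.1 h).le]
    have e2 : ∑ Y ∈ ztabs r c B, ∏ x, om K σ (insert e A) x (Y x) ≤ C0 + K * H := by
      rw [hC0, hH, Finset.mul_sum, ← Finset.sum_add_distrib]
      refine Finset.sum_le_sum fun Y _ => ?_
      rw [e0, ← Finset.mul_prod_erase univ _ (mem_univ e), Finset.prod_congr rfl fun x hx =>
        show om K σ (insert e A) x (Y x) = om K σ A x (Y x) by
          simp [om, Finset.ne_of_mem_erase hx]]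
      by_cases h : 0 ≤ Y e
      · simp [h, not_lt.2 h, om, hR]
      · simp only [h, not_le.1 h, om, if_false, if_true, mem_insert_self, zero_add]
        rw [← mul_assoc]
        exact mul_le_mul_of_nonneg_right (min_le_right _ _) (hR0 Y)
    rw [e1] at hc
    have hmn : (0 : ℝ) < m * n := by
      have := e.1.pos
      have := e.2.pos
      positivity
    have e3 : K * H ≤ 1 / M * C0 := by
      have b1 := (mul_le_mul_of_nonneg_right hs' hH0).trans hc
      have b2 : K * M * H ≤ C0 := by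
        refine le_of_mul_le_mul_left ?_ hmn
        linarith
      rw [one_div, ← div_eq_inv_mul, le_div_iff₀ hM]
      linarith
    rw [card_insert_of_notMem he, pow_succ]
    calc _ ≤ (1 + 1 / M) * C0 := by linarith
      _ ≤ (1 + 1 / M) * ((1 + 1 / M) ^ A.card * (tables r c).card) :=
          mul_le_mul_of_nonneg_left ih' (by positivity)
      _ = _ := by ring

end Vale.Agent.P328b
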