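import Vale.Agent.P328b.Box

/-! Decomposition into fibres and marginal. -/

namespace Vale.Agent.P328b

open Finset

variable {C : Type} [Fintype C] [DecidableEq C]

theorem sum_split (Q QS QL : C → ℕ)
    (hs : ∀ c, (QS c = Q c ∧ QL c = 0) ∨ (QS c = 0 ∧ QL c = Q c)) (G : (C → ℕ) → ℝ) :
    ∑ q ∈ box Q, G q = ∑ s ∈ box QS, ∑ l ∈ box QL, G (s + l) := by
  rw [sum_radix Q QL (fun c => QS c + 1) (fun c => Nat.succ_pos _) (fun c => by
    rcases hs c with h | h <;> simp [h.1, h.2]), Finset.sum_comm]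
  refine Finset.sum_congr rfl fun s _ => Finset.sum_congr rfl fun l hl => ?_
  congr 1
  funext c
  have := mem_box.1 hl c
  rcases hs c with h | h
  · have : l c = 0 := by omega
    simp [this]
  · simp [h.1, add_comm]

omit [Fintype C] in
theorem add_up (a x : C → ℕ) (c : C) : a + up x c = up (a + x) c := by
  funext e
  simp only [Pi.add_apply, up_apply]; omega

omit [Fintype C] in
theorem up_add' (a x : C → ℕ) (c : C) : up a c + x = up (a + x) c := by
  funext e
  simp only [Pi.add_apply, up_apply]; omega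

omit [Fintype C] in
theorem gr_zero' (Q : C → ℕ) (u : (C → ℕ) → ℝ) (c : C) (z : C → ℕ) (h : ¬ z c < Q c) :
    gr Q u c z = 0 := if_neg h

theorem decomp_PI (Q QS QL : C → ℕ)
    (hs : ∀ c, (QS c = Q c ∧ QL c = 0) ∨ (QS c = 0 ∧ QL c = Q c)) (ν : (C → ℕ) → ℝ)
    (hν : ∀ x, 0 ≤ ν x) (κL κS R d : ℝ) (hκL : 0 ≤ κL) (hκS : 0 ≤ κS) (hR0 : 0 ≤ R)
    (hd : (Fintype.card C : ℝ) ≤ d)
    (hL : ∀ s, PI QL (fun l => ν (s + l)) κL)
    (hS : PI QS (fun s => ∑ l ∈ box QL, ν (s + l)) κS)
    (hR : ∀ x c, 0 < QS c → ν x ≤ R * ν (up x c)) :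
    PI Q ν (2 * κL + 6 * κS * (1 + d * (R + 1) * κL)) := by
  intro f
  choose F hF using fun s => hL s fun l => f (s + l)
  obtain ⟨m, hm⟩ := hS F
  refine ⟨m, ?_⟩
  set A : (C → ℕ) → ℝ := fun s => ∑ l ∈ box QL, ν (s + l) * (f (s + l) - F s) ^ 2 with hA
  have hA0 : ∀ s, 0 ≤ A s := fun s => Finset.sum_nonneg fun l _ => mul_nonneg (hν _) (sq_nonneg _)
  have hE : en Q ν f = ∑ s ∈ box QS, ∑ l ∈ box QL, ν (s + l) * ∑ c, gr Q f c (s + l) ^ 2 :=
    sum_split Q QS QL hs _
  have hE0 : 0 ≤ en Q ν f := en_nonneg Q ν f fun x _ => hν x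
  have h1 : ∑ s ∈ box QS, A s ≤ κL * en Q ν f := by
    rw [hE, Finset.mul_sum]
    refine Finset.sum_le_sum fun s hs' => (hF s).trans (mul_le_mul_of_nonneg_left ?_ hκL)
    refine Finset.sum_le_sum fun l _ => mul_le_mul_of_nonneg_left
      (Finset.sum_le_sum fun c _ => ?_) (hν _)
    unfold gr
    by_cases h : l c < QL c
    · have h2 := mem_box.1 hs' c
      have h3 : (s + l) c < Q c := by
        simp only [Pi.add_apply]
        rcases hs c with h4 | h4 <;> omega
      rw [if_pos h, if_pos h3, ← add_up]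
    · rw [if_neg h, zero_pow two_ne_zero]
      exact sq_nonneg _
  have h2 : en QS (fun s => ∑ l ∈ box QL, ν (s + l)) F
      ≤ 3 * (1 + d * (R + 1) * κL) * en Q ν f := by
    have a1 : ∀ c, ∑ s ∈ box QS, (∑ l ∈ box QL, ν (s + l)) * gr QS F c s ^ 2
        ≤ 3 * (∑ s ∈ box QS, ∑ l ∈ box QL, ν (s + l) * gr Q f c (s + l) ^ 2)
          + 3 * (R + 1) * ∑ s ∈ box QS, A s := by
      intro c
      have b1 : ∑ s ∈ box QS, (if s c < QS c then A (up s c) else 0) ≤ ∑ s ∈ box QS, A s := by
        rw [← sum_shift]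
        refine Finset.sum_le_sum fun s _ => ?_
        split_ifs
        · exact le_rfl
        · exact hA0 s
      have b2 : ∑ s ∈ box QS, (∑ l ∈ box QL, ν (s + l)) * gr QS F c s ^ 2
          ≤ ∑ s ∈ box QS, (3 * (∑ l ∈ box QL, ν (s + l) * gr Q f c (s + l) ^ 2)
            + 3 * R * (if s c < QS c then A (up s c) else 0) + 3 * A s) := by
        refine Finset.sum_le_sum fun s _ => ?_
        by_cases h : s c < QS c
        · simp only [if_pos h, hA, Finset.mul_sum, Finset.sum_mul, ← Finset.sum_add_distrib]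
          refine Finset.sum_le_sum fun l hl => ?_
          have h3 : (s + l) c < Q c := by
            have := mem_box.1 hl c
            simp only [Pi.add_apply]
            rcases hs c with h4 | h4 <;> omega
          have h4 := hR (s + l) c (by omega)
          simp only [gr, if_pos h, if_pos h3, up_add']
          have h5 := mul_le_mul_of_nonneg_right h4 (sq_nonneg (f (up (s + l) c) - F (up s c)))
          have h6 : (F (up s c) - F s) ^ 2 ≤ 3 * (f (up (s + l) c) - f (s + l)) ^ 2
              + 3 * (f (up (s + l) c) - F (up s c)) ^ 2 + 3 * (f (s + l) - F s) ^ 2 := by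
            nlinarith [sq_nonneg (f (up (s + l) c) - f (s + l) + (f (up (s + l) c) - F (up s c))),
              sq_nonneg (f (up (s + l) c) - f (s + l) - (f (s + l) - F s)),
              sq_nonneg (f (up (s + l) c) - F (up s c) + (f (s + l) - F s))]
          have h7 := mul_le_mul_of_nonneg_left h6 (hν (s + l))
          linarith
        · have : 0 ≤ ∑ l ∈ box QL, ν (s + l) * gr Q f c (s + l) ^ 2 :=
            Finset.sum_nonneg fun l _ => mul_nonneg (hν _) (sq_nonneg _)
          have := hA0 s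
          simp only [gr_zero' QS F c s h, if_neg h]
          nlinarith
      simp only [Finset.sum_add_distrib, ← Finset.mul_sum] at b2
      nlinarith
    have a2 : en QS (fun s => ∑ l ∈ box QL, ν (s + l)) F
        = ∑ c, ∑ s ∈ box QS, (∑ l ∈ box QL, ν (s + l)) * gr QS F c s ^ 2 := by
      unfold en
      simp only [Finset.mul_sum]
      exact Finset.sum_comm
    have a3 : en Q ν f = ∑ c, ∑ s ∈ box QS, ∑ l ∈ box QL, ν (s + l) * gr Q f c (s + l) ^ 2 := by
      rw [hE]
      simp only [Finset.mul_sum]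
      rw [Finset.sum_congr rfl fun s _ => Finset.sum_comm, Finset.sum_comm]
    have a4 := Finset.sum_le_sum fun c (_ : c ∈ univ) => a1 c
    rw [← a2, Finset.sum_add_distrib, ← Finset.mul_sum, ← a3, Finset.sum_const, card_univ,
      nsmul_eq_mul] at a4
    have a5 : (Fintype.card C : ℝ) * (3 * (R + 1) * ∑ s ∈ box QS, A s)
        ≤ d * (3 * (R + 1) * (κL * en Q ν f)) :=
      mul_le_mul hd (mul_le_mul_of_nonneg_left h1 (by positivity))
        (mul_nonneg (by positivity) (Finset.sum_nonneg fun s _ => hA0 s))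
        (le_trans (Nat.cast_nonneg _) hd)
    linarith
  have h3 : ∑ x ∈ box Q, ν x * (f x - m) ^ 2 ≤ 2 * ∑ s ∈ box QS, A s
      + 2 * ∑ s ∈ box QS, (∑ l ∈ box QL, ν (s + l)) * (F s - m) ^ 2 := by
    rw [sum_split Q QS QL hs]
    simp only [hA, Finset.mul_sum, Finset.sum_mul, ← Finset.sum_add_distrib]
    refine Finset.sum_le_sum fun s _ => Finset.sum_le_sum fun l _ => ?_
    have h6 : (f (s + l) - m) ^ 2 ≤ 2 * (f (s + l) - F s) ^ 2 + 2 * (F s - m) ^ 2 := by
      nlinarith [sq_nonneg (f (s + l) - F s - (F s - m))]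
    have h7 := mul_le_mul_of_nonneg_left h6 (hν (s + l))
    linarith
  have h4 := mul_le_mul_of_nonneg_left h2 hκS
  nlinarith

end Vale.Agent.P328b
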