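import Vale.Agent.P328b.Bochner

/-! Poincare inequality for slowly varying soft weights. -/

namespace Vale.Agent.P328b

open Finset

variable {C : Type} [Fintype C] [DecidableEq C] {V : Type} [Fintype V]

theorem psd_prod (s : Finset V) (p : V → C → ℝ) (κ : ℝ) (hκ : 0 ≤ κ) (E : C → C → ℝ)
    (hE : ∀ D : C → ℝ, (∑ c, D c) ^ 2 + κ * ∑ c, D c ^ 2 ≤ ∑ c, ∑ c', E c c' * (D c * D c'))
    (D : C → ℝ) : (∑ c, D c) ^ 2 + κ * ∑ c, D c ^ 2
      ≤ ∑ c, ∑ c', (E c c' * ∏ v ∈ s, (1 + p v c * p v c')) * (D c * D c') := by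
  classical
  induction s using Finset.induction_on generalizing D with
  | empty => simpa using hE D
  | insert v s hv ih =>
    have h1 := ih D
    have h2 := ih fun c => p v c * D c
    have h3 : 0 ≤ (∑ c, p v c * D c) ^ 2 + κ * ∑ c, (p v c * D c) ^ 2 := by positivity
    have e : ∑ c, ∑ c', (E c c' * ∏ v ∈ insert v s, (1 + p v c * p v c')) * (D c * D c')
        = ∑ c, ∑ c', (E c c' * ∏ v ∈ s, (1 + p v c * p v c')) * (D c * D c')
          + ∑ c, ∑ c', (E c c' * ∏ v ∈ s, (1 + p v c * p v c'))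
            * (p v c * D c * (p v c' * D c')) := by
      simp only [← Finset.sum_add_distrib, Finset.prod_insert hv]
      exact Finset.sum_congr rfl fun c _ => Finset.sum_congr rfl fun c' _ => by ring
    rw [e]; linarith

theorem sum_sq_up (x : C → ℕ) (c : C) :
    ∑ e, (up x c e : ℝ) ^ 2 = ∑ e, (x e : ℝ) ^ 2 + (2 * x c + 1) := by
  have : ∀ e, (up x c e : ℝ) ^ 2 = (x e : ℝ) ^ 2 + if e = c then 2 * (x c : ℝ) + 1 else 0 := by
    intro e
    by_cases h : e = c
    · subst h; simp; ring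
    · simp [up_ne x h, h]
  simp [this, Finset.sum_add_distrib]

/-- Rank-one factor. -/
noncomputable def pf (K t s : ℝ) : ℝ :=
  Real.sqrt (K * Real.exp t) * (Real.exp s - 1) / (K + Real.exp (t + s))

theorem pf_id {K : ℝ} (hK : 0 < K) (t s s' : ℝ) :
    (K + Real.exp (t + s))⁻¹ * (K + Real.exp (t + s'))⁻¹
      = (K + Real.exp t)⁻¹ * (K + Real.exp (t + s' + s))⁻¹ * (1 + pf K t s * pf K t s') := by
  have h : Real.sqrt (K * Real.exp t) * Real.sqrt (K * Real.exp t) = K * Real.exp t :=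
    Real.mul_self_sqrt (by positivity)
  have e : pf K t s * pf K t s' = K * Real.exp t * ((Real.exp s - 1) * (Real.exp s' - 1))
      / ((K + Real.exp (t + s)) * (K + Real.exp (t + s'))) := by
    unfold pf
    rw [div_mul_div_comm, ← h]
    congr 1
    rw [h]
    linear_combination ((Real.exp s - 1) * (Real.exp s' - 1)) * h
  rw [e]
  simp only [Real.exp_add]
  have := Real.exp_pos t
  have := Real.exp_pos s
  have := Real.exp_pos s'
  field_simp
  ring

theorem abs_pf_le {K : ℝ} (hK : 0 < K) (t s τ : ℝ) (hs : |s| ≤ τ) (hτ : τ ≤ 1 / 4) :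
    |pf K t s| ≤ 2 * τ := by
  have h1 : |Real.exp s - 1| ≤ 2 * τ :=
    (Real.abs_exp_sub_one_le (by linarith)).trans (by linarith)
  have h2 : 1 / 2 ≤ Real.exp s := by linarith [(abs_le.1 h1).1]
  have p1 := Real.exp_pos t
  have p2 := Real.exp_pos (t + s)
  have h3 : Real.sqrt (K * Real.exp t) ≤ K + Real.exp (t + s) := by
    rw [Real.sqrt_le_left (by positivity), Real.exp_add]
    have : 0 ≤ K * Real.exp t * (Real.exp s - 1 / 2) := mul_nonneg (by positivity) (by linarith)
    nlinarith [sq_nonneg K, sq_nonneg (Real.exp t * Real.exp s)]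
  unfold pf
  rw [abs_div, abs_mul, abs_of_nonneg (Real.sqrt_nonneg _), abs_of_pos (add_pos hK p2),
    div_le_iff₀ (add_pos hK p2)]
  have h0 : 0 ≤ τ := (abs_nonneg _).trans hs
  calc _ ≤ (K + Real.exp (t + s)) * (2 * τ) :=
        mul_le_mul h3 h1 (abs_nonneg _) (by positivity)
    _ = _ := by ring

theorem curv_eq {K : ℝ} (hK : 0 < K) (a : V → C → ℝ) (b : V → ℝ) (κ : ℝ) (z : C → ℕ) (c c' : C) :
    curv (fun l => Real.exp (-(κ / 2) * ∑ e, (l e : ℝ) ^ 2) * Phi K a b l) z c c'
      = (if c = c' then Real.exp κ else 1) * ∏ v, (1 + pf K (∑ e, a v e * z e + b v) (a v c)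
        * pf K (∑ e, a v e * z e + b v) (a v c')) - 1 := by
  unfold curv
  congr 1
  have h1 : Phi K a b (up z c) * Phi K a b (up z c') = Phi K a b z * Phi K a b (up (up z c') c)
      * ∏ v, (1 + pf K (∑ e, a v e * z e + b v) (a v c)
        * pf K (∑ e, a v e * z e + b v) (a v c')) := by
    unfold Phi
    simp only [← Finset.prod_mul_distrib, sum_mul_up]
    refine Finset.prod_congr rfl fun v _ => ?_
    have := pf_id hK (∑ e, a v e * z e + b v) (a v c) (a v c')
    simp only [add_right_comm _ _ (b v)]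
    exact this
  have h2 : Real.exp (-(κ / 2) * ∑ e, (up z c e : ℝ) ^ 2)
      * Real.exp (-(κ / 2) * ∑ e, (up z c' e : ℝ) ^ 2)
      = Real.exp (-(κ / 2) * ∑ e, (z e : ℝ) ^ 2)
        * Real.exp (-(κ / 2) * ∑ e, (up (up z c') c e : ℝ) ^ 2)
        * (if c = c' then Real.exp κ else 1) := by
    simp only [sum_sq_up]
    by_cases h : c = c'
    · subst h
      simp only [if_true, ← Real.exp_add, up_self]
      congr 1; push_cast; ring
    · simp only [if_neg h, mul_one, ← Real.exp_add, up_ne _ h]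
      congr 1; ring
  have p1 := (Phi_pos hK a b z).ne'
  have p2 := (Phi_pos hK a b (up (up z c') c)).ne'
  have p3 := (Real.exp_pos (-(κ / 2) * ∑ e, (z e : ℝ) ^ 2)).ne'
  have p4 := (Real.exp_pos (-(κ / 2) * ∑ e, (up (up z c') c e : ℝ) ^ 2)).ne'
  rw [div_eq_iff (mul_ne_zero (mul_ne_zero p3 p1) (mul_ne_zero p4 p2)), mul_mul_mul_comm, h1, h2]
  ring

theorem fiber_PI {K : ℝ} (hK : 0 < K) (a : V → C → ℝ) (b : V → ℝ) (Q : C → ℕ) (τ Qb d M : ℝ)
    (hd : (Fintype.card C : ℝ) ≤ d) (hd1 : 1 ≤ d) (hM : (Fintype.card V : ℝ) ≤ M) (hM1 : 1 ≤ M)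
    (hQ : ∀ c, (Q c : ℝ) ≤ Qb) (hQb : 8 ≤ Qb) (ha : ∀ v c, |a v c| ≤ τ) (hτ0 : 0 ≤ τ)
    (hτ : 100 * d * M * Qb * τ ^ 2 ≤ 1) : PI Q (Phi K a b) (4 * d * Qb ^ 2) := by
  set κ : ℝ := 1 / (d * Qb ^ 2) with hκ
  have hdQ : 64 ≤ d * Qb ^ 2 := by nlinarith
  have hκ0 : 0 < κ := by positivity
  have hκ1 : κ ≤ 1 / 64 := one_div_le_one_div_of_le (by norm_num) hdQ
  have hκ2 : κ * (d * Qb ^ 2) = 1 := by rw [hκ]; field_simp
  set y : ℝ := M * (4 * τ ^ 2) with hy
  have hy0 : 0 ≤ y := by positivity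
  have hy1 : 25 * (d * Qb) * y ≤ 1 := by rw [hy]; linarith
  have hdQ1 : 8 ≤ d * Qb := by nlinarith
  have hy2 : y ≤ 1 / 200 := by nlinarith
  have hτ4 : τ ≤ 1 / 4 := by nlinarith
  have hx0 : |Real.exp κ - 1| ≤ 2 * κ := by
    have := Real.abs_exp_sub_one_le (x := κ) (by rw [abs_of_pos hκ0]; linarith)
    rwa [abs_of_pos hκ0] at this
  have hx1 := Real.add_one_le_exp κ
  have hB := bochner Q (fun l => Real.exp (-(κ / 2) * ∑ e, (l e : ℝ) ^ 2) * Phi K a b l)
    (fun x => mul_pos (Real.exp_pos _) (Phi_pos hK a b x)) κ (4 * y + 2 * κ) hκ0 (by linarith)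
    ?_ ?_ ?_
  · have := hB.perturb (ν' := Phi K a b) (a := 2) (b := 1) (by positivity) (by norm_num) ?_ ?_
    · convert this using 1
      rw [hκ]; field_simp; ring
    · intro x hx
      have h1 : ∑ e, (x e : ℝ) ^ 2 ≤ d * Qb ^ 2 := by
        calc _ ≤ ∑ _e : C, Qb ^ 2 := Finset.sum_le_sum fun e _ => by
              have : (x e : ℝ) ≤ Qb := le_trans (by exact_mod_cast mem_box.1 hx e) (hQ e)
              exact pow_le_pow_left₀ (Nat.cast_nonneg _) this 2
          _ ≤ _ := by
              rw [Finset.sum_const, card_univ, nsmul_eq_mul]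
              exact mul_le_mul_of_nonneg_right hd (sq_nonneg _)
      have h2 := Real.add_one_le_exp (-(κ / 2) * ∑ e, (x e : ℝ) ^ 2)
      have h3 := mul_le_mul_of_nonneg_left h1 hκ0.le
      have h4 := Phi_pos hK a b x
      have h5 : 1 ≤ 2 * Real.exp (-(κ / 2) * ∑ e, (x e : ℝ) ^ 2) := by linarith
      nlinarith
    · intro x _
      have h1 : Real.exp (-(κ / 2) * ∑ e, (x e : ℝ) ^ 2) ≤ 1 := by
        rw [Real.exp_le_one_iff]
        have : 0 ≤ ∑ e, (x e : ℝ) ^ 2 := by positivity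
        nlinarith
      exact mul_le_mul_of_nonneg_right h1 (Phi_pos hK a b x).le
  · intro z c c'
    rw [curv_eq hK]
    have h1 := Finset.norm_prod_one_add_sub_one_le univ fun v =>
      pf K (∑ e, a v e * z e + b v) (a v c) * pf K (∑ e, a v e * z e + b v) (a v c')
    have h2 : ∑ v, ‖pf K (∑ e, a v e * z e + b v) (a v c)
        * pf K (∑ e, a v e * z e + b v) (a v c')‖ ≤ y := by
      calc _ ≤ ∑ _v : V, 4 * τ ^ 2 := Finset.sum_le_sum fun v _ => by
            rw [Real.norm_eq_abs, abs_mul]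
            calc _ ≤ 2 * τ * (2 * τ) := mul_le_mul (abs_pf_le hK _ _ _ (ha v c) hτ4)
                  (abs_pf_le hK _ _ _ (ha v c') hτ4) (abs_nonneg _) (by positivity)
              _ = _ := by ring
        _ ≤ _ := by
            rw [Finset.sum_const, card_univ, nsmul_eq_mul]
            exact mul_le_mul_of_nonneg_right hM (by positivity)
    have h3 : Real.exp y - 1 ≤ 2 * y := by
      have := Real.abs_exp_sub_one_le (x := y) (by rw [abs_of_nonneg hy0]; linarith)
      rw [abs_of_nonneg hy0] at this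
      exact (le_abs_self _).trans this
    have h4 := Real.exp_le_exp.2 h2
    rw [Real.norm_eq_abs] at h1
    generalize (∏ v, (1 + pf K (∑ e, a v e * z e + b v) (a v c)
        * pf K (∑ e, a v e * z e + b v) (a v c'))) = P at h1 ⊢
    have h5 := abs_le.1 (h1.trans (by linarith : _ ≤ 2 * y))
    have h6 := abs_le.1 hx0
    split_ifs
    · rw [abs_le]
      constructor <;> nlinarith
    · rw [abs_le]
      constructor <;> linarith
  · intro z D
    simp only [curv_eq hK]
    have h := psd_prod univ (fun v c => pf K (∑ e, a v e * z e + b v) (a v c)) κ hκ0.le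
      (fun c c' => if c = c' then Real.exp κ else 1) ?_ D
    · have e : (∑ c, D c) ^ 2 = ∑ c, ∑ c', D c * D c' := by rw [sq, Finset.sum_mul_sum]
      simp only [sub_mul, one_mul, Finset.sum_sub_distrib]
      linarith
    · intro D
      have e : ∀ c c', (if c = c' then Real.exp κ else 1) * (D c * D c')
          = D c * D c' + if c = c' then (Real.exp κ - 1) * D c ^ 2 else 0 := by
        intro c c'
        split_ifs with h
        · subst h; ring
        · ring
      simp only [e, Finset.sum_add_distrib, Finset.sum_ite_eq, mem_univ, if_true]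
      rw [sq, Finset.sum_mul_sum, ← Finset.mul_sum]
      have : 0 ≤ ∑ c, D c ^ 2 := by positivity
      nlinarith
  · have h1 : 4 * (Fintype.card C : ℝ) * (4 * y + 2 * κ) ^ 2 ≤ 4 * d * (32 * y ^ 2 + 8 * κ ^ 2) :=
      mul_le_mul (by linarith) (by nlinarith [sq_nonneg (4 * y - 2 * κ)]) (sq_nonneg _)
        (by linarith)
    have h2 : 32 * d * κ ^ 2 ≤ κ / 2 := by
      have : 64 * (κ * d) ≤ κ * (d * Qb ^ 2) := by
        have : 64 ≤ Qb ^ 2 := by nlinarith
        have := mul_le_mul_of_nonneg_left this (show 0 ≤ κ * d by positivity)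
        linarith
      nlinarith
    have h3 : 128 * d * y ^ 2 ≤ κ / 2 := by
      have a1 : (25 * (d * Qb) * y) ^ 2 ≤ 1 := pow_le_one₀ (by positivity) hy1
      have a2 : 128 * d * y ^ 2 * (d * Qb ^ 2) ≤ κ / 2 * (d * Qb ^ 2) := by nlinarith
      exact le_of_mul_le_mul_right a2 (by linarith)
    linarith

end Vale.Agent.P328b
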