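import Vale.Agent.P328b.Chain

/-! Filling the blocks, completion to tables, acceptance probability. -/

namespace Vale.Agent.P328b

open Finset Vale.Agent.P317

theorem All_bits (k : ℕ) : (bits k).All fun r => r < 2 ^ k := by
  induction k with
  | zero => exact Nat.one_pos
  | succ k ih =>
    have h : bits (k + 1) = (bits k).bind fun r => coinR.bind fun c => .ret (r + r + c) :=
      iter_succ' _ _ _
    rw [h]
    refine P317.Rand.All_bind ih fun r hr => ⟨?_, ?_⟩
    · show r + r + 0 < _
      rw [pow_succ]; omega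
    · show r + r + 1 < _
      rw [pow_succ]; omega

theorem sum_box_single {C : Type} [Fintype C] [DecidableEq C] (c : C) (d : ℕ)
    (G : (C → ℕ) → ℝ) :
    ∑ l ∈ box (Pi.single c d), G l = ∑ R ∈ range (d + 1), G (Pi.single c R) := by
  have h : ∀ l ∈ box (Pi.single c d : C → ℕ), Pi.single c (l c) = l := by
    intro l hl
    funext e
    have := mem_box.1 hl e
    by_cases he : e = c
    · subst he; simp
    · simp only [Pi.single_eq_of_ne he] at this ⊢; omega
  refine Finset.sum_nbij' (fun l => l c) (fun R => Pi.single c R) ?_ ?_ h (by simp)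
    fun l hl => by rw [h l hl]
  · intro l hl
    have := mem_box.1 hl c
    simpa [Nat.lt_succ_iff] using this
  · intro R hR
    refine mem_box.2 fun e => ?_
    by_cases he : e = c
    · subst he; simpa [Nat.lt_succ_iff] using hR
    · simp [he]

theorem one_add_pow_le {P k : ℕ} (hP : 0 < P) (hk : k ≤ P) : (1 + 1 / (P : ℝ)) ^ k ≤ 3 := by
  have hP' : (0 : ℝ) < P := by exact_mod_cast hP
  have h1 := Real.add_one_le_exp (1 / (P : ℝ))
  refine (pow_le_pow_left₀ (by positivity) (b := Real.exp (1 / P)) (by linarith) k).trans ?_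
  rw [← Real.exp_nat_mul]
  have : (k : ℝ) * (1 / P) ≤ 1 := by
    rw [mul_one_div, div_le_one hP']; exact_mod_cast hk
  exact (Real.exp_le_exp.2 this).trans (Real.exp_one_lt_d9.le.trans (by norm_num))

variable {m n : ℕ}

theorem sum_colS (x : Fin m × Fin n → ℕ) : ∑ j, colS x j = ∑ e, x e :=
  (Fintype.sum_prod_type_right x).symm

theorem sum_rowS (x : Fin m × Fin n → ℕ) : ∑ i, rowS x i = ∑ e, x e :=
  (Fintype.sum_prod_type x).symm

namespace Inst

variable (I : Inst m n)

theorem kk_le (e : Fin m × Fin n) : I.kk e ≤ Nat.size I.tot := by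
  refine Nat.size_le_size ((Nat.div_le_self _ _).trans ?_)
  have := Finset.single_le_sum (f := I.r) (fun _ _ => Nat.zero_le _) (mem_univ e.1)
  unfold uu tot
  split_ifs <;> omega

def Qk (k : ℕ) (e : Fin m × Fin n) : ℕ := if idx e < k then I.dd e - 1 else 0

theorem E_fillAux (x : Fin m × Fin n → ℕ) (k : ℕ) (hk : k ≤ m * n)
    (G : (Fin m × Fin n → ℕ) → ℝ) :
    (iterIdx I.fillAt k x).E G * ∑ _z ∈ box (I.Qk k), (1 : ℝ) = ∑ z ∈ box (I.Qk k), G (x + z) := by
  induction k generalizing G with
  | zero =>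
    have : box (I.Qk 0) = {0} := by
      ext z; simp [mem_box, Qk, funext_iff]
    simp [this, iterIdx]
  | succ k ih =>
    have hk' : k < m * n := hk
    set c := cellOf k hk' with hc
    have hd := I.dd_pos c
    have hs : ∀ F : (Fin m × Fin n → ℕ) → ℝ, ∑ z ∈ box (I.Qk (k + 1)), F z
        = ∑ s ∈ box (I.Qk k), ∑ R ∈ range (I.dd c), F (s + Pi.single c R) := by
      intro F
      rw [sum_split (I.Qk (k + 1)) (I.Qk k) (Pi.single c (I.dd c - 1))]
      · simp only [sum_box_single, Nat.sub_add_cancel hd]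
      · intro e
        by_cases he : e = c
        · right
          rw [he]
          simp [Qk, hc, idx_cellOf]
        · left
          have : idx e ≠ k := fun h => he (idx_inj (by rw [h, hc, idx_cellOf]))
          simp only [Qk, Pi.single_eq_of_ne he, and_true]
          split_ifs <;> first | rfl | omega
    have hf : ∀ y, (I.fillAt k y).E G
        = (∑ R ∈ range (I.dd c), G (y + Pi.single c R)) / I.dd c := by
      intro y
      unfold fillAt
      rw [dif_pos hk', P317.Rand.E_bind, E_bits', min_eq_right (I.kk_le _)]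
      simp only [P317.Rand.E_ret, dd, ← hc, Nat.cast_pow, Nat.cast_ofNat]
      congr 1
      refine Finset.sum_congr rfl fun R _ => ?_
      congr 1
      funext e
      by_cases he : e = c
      · rw [he]; simp
      · simp [he]
    have hd' : (I.dd c : ℝ) ≠ 0 := by exact_mod_cast hd.ne'
    rw [iterIdx, P317.Rand.E_bind, hs, hs]
    simp only [hf, Finset.sum_const, card_range, nsmul_eq_mul, mul_one] at ih ⊢
    rw [← mul_assoc, ih hk'.le, Finset.sum_mul]
    refine Finset.sum_congr rfl fun s _ => ?_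
    rw [div_mul_cancel₀ _ hd']
    simp only [add_assoc]

/-- The offsets inside a block. -/
def blk : Finset (Fin m × Fin n → ℕ) := box fun e => I.dd e - 1

theorem E_fill (x : Fin m × Fin n → ℕ) (G : (Fin m × Fin n → ℕ) → ℝ) :
    (I.fill x).E G * I.blk.card = ∑ z ∈ I.blk, G (x + z) := by
  have h := I.E_fillAux x _ le_rfl G
  have e : I.Qk (m * n) = fun e => I.dd e - 1 := funext fun e => if_pos (idx_lt e)
  rw [e] at h
  simpa [fill, blk] using h

def star (e : Fin m × Fin n) : Prop := e.1 = I.i0 ∨ e.2 = I.j0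

instance (e : Fin m × Fin n) : Decidable (I.star e) := by unfold star; infer_instance

/-- Zero on the distinguished row and column. -/
def Zs (x : Fin m × Fin n → ℕ) : Prop := ∀ e, I.star e → x e = 0

def vx (e : Fin m × Fin n) : Vx m n :=
  if e.1 = I.i0 then (if e.2 = I.j0 then none else some (.inr e.2)) else some (.inl e.1)

/-- Integer completion. -/
def zc (x : Fin m × Fin n → ℕ) (e : Fin m × Fin n) : ℤ :=
  if I.star e then -I.tz x (I.vx e) else x e

theorem Zs.row {I : Inst m n} {x : Fin m × Fin n → ℕ} (h : I.Zs x) : rowS x I.i0 = 0 :=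
  Finset.sum_eq_zero fun _ _ => h _ (Or.inl rfl)

theorem Zs.col {I : Inst m n} {x : Fin m × Fin n → ℕ} (h : I.Zs x) : colS x I.j0 = 0 :=
  Finset.sum_eq_zero fun _ _ => h _ (Or.inr rfl)

theorem zc_row (h : I.Ok) {x : Fin m × Fin n → ℕ} (hx : I.Zs x) (i : Fin m) :
    ∑ j, I.zc x (i, j) = I.r i := by
  by_cases hi : i = I.i0
  · have e : ∀ j, I.zc x (i, j) = (I.c j : ℤ) - colS x j
        + if j = I.j0 then (I.r I.i0 + ∑ e, x e : ℕ) - (I.tot : ℤ) else 0 := by
      intro j
      by_cases hj : j = I.j0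
      · simp [zc, star, vx, tz, hi, hj, hx.col]; ring
      · simp [zc, star, vx, tz, hi, hj]
    have a := sum_colS x
    have b := h.sum_eq
    simp only [e, Finset.sum_add_distrib, Finset.sum_sub_distrib, Finset.sum_ite_eq', mem_univ,
      if_true, ← Nat.cast_sum, tot]
    rw [hi]
    omega
  · have e : ∀ j, I.zc x (i, j) = (x (i, j) : ℤ)
        + if j = I.j0 then (I.r i : ℤ) - rowS x i else 0 := by
      intro j
      by_cases hj : j = I.j0
      · simp [zc, star, vx, tz, hi, hj, hx (i, I.j0) (Or.inr rfl)]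
      · simp [zc, star, hi, hj]
    simp only [e, Finset.sum_add_distrib, Finset.sum_ite_eq', mem_univ, if_true, ← Nat.cast_sum,
      rowS]
    omega

theorem zc_col {x : Fin m × Fin n → ℕ} (hx : I.Zs x) (j : Fin n) :
    ∑ i, I.zc x (i, j) = I.c j := by
  by_cases hj : j = I.j0
  · have e : ∀ i, I.zc x (i, j) = (I.r i : ℤ) - rowS x i
        + if i = I.i0 then (I.c I.j0 + ∑ e, x e : ℕ) - (I.tot : ℤ) else 0 := by
      intro i
      by_cases hi : i = I.i0
      · simp [zc, star, vx, tz, hi, hj, hx.row]; ring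
      · simp [zc, star, vx, tz, hi, hj]
    have a := sum_rowS x
    simp only [e, Finset.sum_add_distrib, Finset.sum_sub_distrib, Finset.sum_ite_eq', mem_univ,
      if_true, ← Nat.cast_sum, tot]
    rw [hj]
    omega
  · have e : ∀ i, I.zc x (i, j) = (x (i, j) : ℤ)
        + if i = I.i0 then (I.c j : ℤ) - colS x j else 0 := by
      intro i
      by_cases hi : i = I.i0
      · simp [zc, star, vx, tz, hi, hj, hx (I.i0, j) (Or.inl rfl)]
      · simp [zc, star, hi, hj]
    simp only [e, Finset.sum_add_distrib, Finset.sum_ite_eq', mem_univ, if_true, ← Nat.cast_sum,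
      colS]
    omega

theorem uniq (Y Y' : Fin m × Fin n → ℤ) (h1 : ∀ i, ∑ j, Y (i, j) = ∑ j, Y' (i, j))
    (h2 : ∀ j, ∑ i, Y (i, j) = ∑ i, Y' (i, j)) (h3 : ∀ e, ¬ I.star e → Y e = Y' e) : Y = Y' := by
  have a : ∀ i, (∀ j, j ≠ I.j0 → Y (i, j) = Y' (i, j)) → Y (i, I.j0) = Y' (i, I.j0) := by
    intro i h
    have := h1 i
    rw [← sub_eq_zero, ← Finset.sum_sub_distrib,
      Finset.sum_eq_single I.j0 (fun j _ hj => sub_eq_zero.2 (h j hj)) (by simp)] at this
    exact sub_eq_zero.1 this
  have b : ∀ i j, j ≠ I.j0 → Y (i, j) = Y' (i, j) := by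
    intro i j hj
    by_cases hi : i = I.i0
    · have := h2 j
      rw [← sub_eq_zero, ← Finset.sum_sub_distrib, Finset.sum_eq_single I.i0
        (fun i _ hi => sub_eq_zero.2 (h3 _ (by simp [star, hi, hj]))) (by simp)] at this
      rw [hi]
      exact sub_eq_zero.1 this
    · exact h3 _ (by simp [star, hi, hj])
  funext ⟨i, j⟩
  by_cases hj : j = I.j0
  · rw [hj]; exact a i (b i)
  · exact b i j hj

theorem comp_eq {x : Fin m × Fin n → ℕ} (hf : I.feas x) (e : Fin m × Fin n) :
    (I.comp x e : ℤ) = I.zc x e := by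
  have a := hf.1 e.1
  have b := hf.2.1 e.2
  have c := hf.2.2
  unfold comp zc star vx
  by_cases hi : e.1 = I.i0 <;> by_cases hj : e.2 = I.j0 <;>
    simp only [hi, hj, if_true, if_false, or_self, or_true, true_or, tz] <;> omega

theorem comp_mem (h : I.Ok) {x : Fin m × Fin n → ℕ} (hx : I.Zs x) (hf : I.feas x) :
    I.comp x ∈ tables I.r I.c := by
  refine mem_tables.2 ⟨fun i => ?_, fun j => ?_⟩
  · zify; simp only [I.comp_eq hf]; exact I.zc_row h hx i
  · zify; simp only [I.comp_eq hf]; exact I.zc_col hx j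

/-- The fine box. -/
def AA (e : Fin m × Fin n) : ℕ := I.dd e * (I.QQ e + 1) - 1

theorem AA_succ (e : Fin m × Fin n) : I.AA e + 1 = I.dd e * (I.QQ e + 1) :=
  Nat.sub_add_cancel (Nat.mul_pos (I.dd_pos e) (Nat.succ_pos _))

theorem star_kk {e : Fin m × Fin n} (he : I.star e) : I.kk e = 0 ∧ I.QQ e = 0 := by
  have : I.uu e = 0 := if_pos he
  simp [kk, QQ, this]

theorem Zs_of_box {x : Fin m × Fin n → ℕ} (hx : x ∈ box I.AA) : I.Zs x := fun e he => by
  have := mem_box.1 hx e
  simpa [AA, dd, (I.star_kk he).1, (I.star_kk he).2] using this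

theorem sum_blk (G : (Fin m × Fin n → ℕ) → ℝ) :
    ∑ x ∈ box I.AA, G x = ∑ q ∈ box I.QQ, ∑ z ∈ I.blk, G (I.sc q + z) :=
  sum_radix I.AA I.QQ I.dd I.dd_pos I.AA_succ G

theorem sum_feas (h : I.Ok) (G : (Fin m × Fin n → ℕ) → ℝ) :
    ∑ x ∈ box I.AA, (if I.feas x then G (I.comp x) else 0) = ∑ X ∈ tables I.r I.c, G X := by
  rw [← Finset.sum_filter]
  have key : ∀ X ∈ tables I.r I.c,
      I.zc (fun e => if I.star e then 0 else X e) = fun e => (X e : ℤ) := by
    intro X hX
    obtain ⟨h1, h2⟩ := mem_tables.1 hX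
    have hz : I.Zs fun e => if I.star e then 0 else X e := fun e he => if_pos he
    refine I.uniq _ _ (fun i => ?_) (fun j => ?_) fun e he => by simp [zc, he]
    · rw [I.zc_row h hz, ← h1]; push_cast; rfl
    · rw [I.zc_col hz, ← h2]; push_cast; rfl
  have key2 : ∀ X ∈ tables I.r I.c, I.feas fun e => if I.star e then 0 else X e := by
    intro X hX
    obtain ⟨h1, h2⟩ := mem_tables.1 hX
    refine ⟨fun i => ?_, fun j => ?_, ?_⟩
    · rw [← h1]; exact Finset.sum_le_sum fun _ _ => by dsimp only; split_ifs <;> omega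
    · rw [← h2]; exact Finset.sum_le_sum fun _ _ => by dsimp only; split_ifs <;> omega
    · have := congrFun (key X hX) (I.i0, I.j0)
      simp only [zc, star, vx, true_or, if_true, tz] at this ⊢
      omega
  refine Finset.sum_nbij' I.comp (fun X e => if I.star e then 0 else X e) ?_ ?_ ?_ ?_
    fun _ _ => rfl
  · intro x hx
    rw [mem_filter] at hx
    exact I.comp_mem h (I.Zs_of_box hx.1) hx.2
  · intro X hX
    refine mem_filter.2 ⟨mem_box.2 fun e => ?_, key2 X hX⟩
    obtain ⟨h1, h2⟩ := mem_tables.1 hX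
    split_ifs with he
    · exact Nat.zero_le _
    · have a := Finset.single_le_sum (f := fun j => X (e.1, j)) (fun _ _ => Nat.zero_le _)
        (mem_univ e.2)
      have b := Finset.single_le_sum (f := fun i => X (i, e.2)) (fun _ _ => Nat.zero_le _)
        (mem_univ e.1)
      have c : I.uu e = min (I.r e.1) (I.c e.2) := if_neg he
      have d : I.uu e < I.dd e * (I.QQ e + 1) := Nat.lt_mul_div_succ _ (I.dd_pos e)
      have := I.AA_succ e
      simp only [h1, h2, Prod.mk.eta] at a b
      omega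
  · intro x hx
    rw [mem_filter] at hx
    funext e
    split_ifs with he
    · exact (I.Zs_of_box hx.1 e he).symm
    · have := I.comp_eq hx.2 e
      simpa [zc, he] using this
  · intro X hX
    funext e
    have := I.comp_eq (key2 X hX) e
    rw [key X hX] at this
    exact Nat.cast_injective (R := ℤ) this

/-- Weight of blocks meeting the feasible set. -/
noncomputable def nu0 : ℝ := ∏ v, (VV (par m n) (I.TT v) 0 : ℝ)⁻¹

theorem nu_feas {q z : Fin m × Fin n → ℕ} (hz : z ∈ I.blk) (hf : I.feas (I.sc q + z)) :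
    I.nu q = I.nu0 := by
  refine Finset.prod_congr rfl fun v _ => ?_
  unfold Vq
  congr 3
  rcases v with _ | i | j
  · have a := hf.2.2
    have b : ∑ e, z e ≤ I.del := Finset.sum_le_sum fun e _ => mem_box.1 hz e
    simp only [Pi.add_apply, Finset.sum_add_distrib] at a
    simp only [viol]; omega
  · have a := hf.1 i
    simp only [rowS, Pi.add_apply, Finset.sum_add_distrib] at a
    simp only [viol, rowS]; omega
  · have a := hf.2.1 j
    simp only [colS, Pi.add_apply, Finset.sum_add_distrib] at a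
    simp only [viol, colS]; omega

theorem cst_nu0 : I.cst * I.nu0 = ∏ _v : Vx m n, ((par m n : ℝ) + 1)⁻¹ := by
  unfold cst nu0
  rw [← Finset.prod_mul_distrib]
  refine Finset.prod_congr rfl fun v _ => ?_
  have hb : (0 : ℝ) < bb (par m n) (I.TT v) := by exact_mod_cast bb_pos I.four_le
  rw [VV_real I.four_le (Nat.zero_le _), mul_inv, ← mul_assoc,
    mul_inv_cancel₀ (pow_pos hb _).ne']
  simp

theorem vx_inj : Set.InjOn I.vx (univ.filter I.star : Finset _) := by
  rintro ⟨i, j⟩ h ⟨i', j'⟩ h' e
  simp only [coe_filter, mem_univ, true_and, Set.mem_setOf_eq, star] at h h'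
  simp only [vx] at e
  split_ifs at e <;> simp_all

theorem ph_le {x : Fin m × Fin n → ℕ} : I.ph x ≤ 3 * (I.cst * I.nu0)
    * ∏ e, om (par m n) (fun e => I.sg (I.vx e)) (univ.filter I.star) e (I.zc x e) := by
  have hP := I.four_le
  have hP' : (4 : ℝ) ≤ par m n := by exact_mod_cast hP
  set g : Vx m n → ℝ := fun v => par m n * ((par m n : ℝ) + Real.exp (I.sg v * I.tz x v))⁻¹
  have g0 : ∀ v, 0 ≤ g v := fun v => by positivity
  have g1 : ∀ v, g v ≤ 1 := fun v => by
    have := Real.exp_pos (I.sg v * I.tz x v)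
    exact mul_inv_le_one_of_le₀ (by linarith) (by linarith)
  have a : I.ph x = (1 + 1 / (par m n : ℝ)) ^ Fintype.card (Vx m n) * (I.cst * I.nu0)
      * ∏ v, g v := by
    rw [ph_eq, cst_nu0, ← card_univ, ← Finset.prod_const, ← Finset.prod_mul_distrib,
      ← Finset.prod_mul_distrib]
    refine Finset.prod_congr rfl fun v _ => ?_
    simp only [g]
    field_simp
  have b : ∏ v, g v ≤ ∏ e ∈ univ.filter I.star, g (I.vx e) := by
    rw [← Finset.prod_image I.vx_inj]
    exact Finset.prod_le_prod_of_subset_of_le_one (subset_univ _) (fun v _ => g0 v)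
      fun v _ _ => g1 v
  have c : ∏ e ∈ univ.filter I.star, g (I.vx e)
      ≤ ∏ e, om (par m n) (fun e => I.sg (I.vx e)) (univ.filter I.star) e (I.zc x e) := by
    rw [Finset.prod_filter]
    refine Finset.prod_le_prod (fun e _ => by split_ifs; exacts [g0 _, zero_le_one]) fun e _ => ?_
    by_cases he : I.star e
    · simp only [he, if_true, om, zc, mem_filter, mem_univ, and_self]
      split_ifs
      · exact g1 _
      · refine le_min (g1 _) (mul_le_mul_of_nonneg_left ?_ (by positivity))
        rw [Int.cast_neg, mul_neg, Real.exp_neg]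
        exact inv_anti₀ (Real.exp_pos _) (by linarith)
    · simp [he, om, zc]
  have p : 0 ≤ I.cst * I.nu0 := by
    rw [cst_nu0]; positivity
  rw [a]
  exact mul_le_mul (mul_le_mul_of_nonneg_right (one_add_pow_le (by omega) card_Vx) p) (b.trans c)
    (Finset.prod_nonneg fun v _ => g0 v) (by positivity)

theorem sum_om (h : I.Ok) : ∑ x ∈ box I.AA,
    ∏ e, om (par m n) (fun e => I.sg (I.vx e)) (univ.filter I.star) e (I.zc x e)
      ≤ 3 * (tables I.r I.c).card := by
  have hP := I.four_le
  have hP' : (4 : ℝ) ≤ par m n := by exact_mod_cast hP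
  set B := (box I.AA).sup fun x => univ.sup fun e => (I.zc x e).natAbs
  have hT : ∀ e, I.star e → I.TT (I.vx e) - 1 = min (I.r e.1 / n) (I.c e.2 / m) := by
    intro e he
    unfold star at he
    unfold vx
    by_cases hi : e.1 = I.i0 <;> by_cases hj : e.2 = I.j0 <;> simp_all [TT]
  have h1 := soft_count I.r I.c B (K := par m n) (M := par m n) (by linarith) (by linarith)
    (fun e => I.sg (I.vx e)) (fun _ => sig_nonneg hP) (fun e => I.TT (I.vx e))
    (univ.filter I.star)
    (fun e he => by
      rw [hT e (mem_filter.1 he).2]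
      exact (Nat.mul_le_mul_left _ (min_le_left _ _)).trans (Nat.mul_div_le _ _))
    (fun e he => by
      rw [hT e (mem_filter.1 he).2]
      exact (Nat.mul_le_mul_left _ (min_le_right _ _)).trans (Nat.mul_div_le _ _))
    (fun e _ => by
      refine le_trans ?_ (sig_count hP (I.TT_pos _))
      have a : (m : ℝ) * n ≤ (par m n : ℝ) ^ 2 := by exact_mod_cast mn_le
      calc _ ≤ (par m n : ℝ) ^ 2 * (par m n * (par m n * par m n)) := by
            gcongr; nlinarith
        _ = _ := by ring)
  have h2 : (univ.filter I.star).card ≤ par m n :=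
    (Finset.card_le_card_of_injOn I.vx (fun _ _ => mem_univ _) I.vx_inj).trans card_Vx
  refine le_trans ?_ (h1.trans (mul_le_mul_of_nonneg_right (one_add_pow_le (by omega) h2)
    (Nat.cast_nonneg _)))
  have inj : Set.InjOn I.zc (box I.AA : Finset _) := by
    intro x hx x' hx' e
    funext c
    by_cases hc : I.star c
    · rw [I.Zs_of_box hx c hc, I.Zs_of_box hx' c hc]
    · simpa [zc, hc] using congrFun e c
  rw [← Finset.sum_image (f := fun Y : Fin m × Fin n → ℤ =>
    ∏ e, om (par m n) (fun e => I.sg (I.vx e)) (univ.filter I.star) e (Y e)) inj]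
  refine Finset.sum_le_sum_of_subset_of_nonneg ?_ fun Y _ _ =>
    Finset.prod_nonneg fun e _ => om_nonneg (by linarith) _ _ _ _
  intro Y hY
  obtain ⟨x, hx, rfl⟩ := mem_image.1 hY
  refine mem_ztabs.2 ⟨fun e => ?_, I.zc_row h (I.Zs_of_box hx), I.zc_col (I.Zs_of_box hx)⟩
  have : (I.zc x e).natAbs ≤ B :=
    (Finset.le_sup (f := fun e => (I.zc x e).natAbs) (mem_univ e)).trans
      (Finset.le_sup (f := fun x => univ.sup fun e => (I.zc x e).natAbs) hx)
  omega

theorem accept (h : I.Ok) :
    (∑ q ∈ box I.QQ, I.nu q) * I.blk.card ≤ 243 * (I.nu0 * (tables I.r I.c).card) := by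
  have hP' : (4 : ℝ) ≤ par m n := by exact_mod_cast I.four_le
  have p := I.cst_pos
  have p' : 0 ≤ I.cst * I.nu0 := by
    rw [cst_nu0]; positivity
  refine le_of_mul_le_mul_left ?_ p
  have a : I.cst * ((∑ q ∈ box I.QQ, I.nu q) * I.blk.card) ≤ 27 * ∑ x ∈ box I.AA, I.ph x := by
    rw [sum_blk, Finset.sum_mul, Finset.mul_sum, Finset.mul_sum]
    refine Finset.sum_le_sum fun q hq => ?_
    rw [← mul_assoc, mul_comm, ← nsmul_eq_mul, Finset.mul_sum]
    refine Finset.card_nsmul_le_sum _ _ _ fun z hz => ?_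
    have b := (Phi_round (K := par m n) (by linarith) (fun v c => I.sg v * inc v c)
      (fun v => I.sg v * I.tz 0 v) I.dd (I.sc q) z _ _ _ (by positivity) card_cell_le
      (by exact_mod_cast card_Vx) (I.sg_dd h) (mem_box.1 hz) I.small).2
    have c := (I.nu_cmp h hq).1
    unfold ph at *
    linarith
  have b := (Finset.sum_le_sum fun x (_ : x ∈ box I.AA) => I.ph_le (x := x))
  rw [← Finset.mul_sum] at b
  have c := mul_le_mul_of_nonneg_left (I.sum_om h) p'
  linarith

end Inst

end Vale.Agent.P328b
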