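import Vale.Agent.P317.Forms

/-! Local hyperbolicity for laminar log-concave weights with factorial cell factors. -/

namespace Vale.Agent.P328b

open Finset Vale.Agent.P317

variable {G : Type} [DecidableEq G] {K : Type} [Fintype K] [DecidableEq K]

def cnt (π : G → Option K) (S : Finset G) (k : K) : ℕ := (S.filter fun y => π y = some k).card

omit [Fintype K] in
theorem cnt_erase (π : G → Option K) (T : Finset G) (y : G) (hy : y ∈ T) (k : K) :
    cnt π (T.erase y) k = cnt π T k - if π y = some k then 1 else 0 := by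
  unfold cnt
  rw [Finset.filter_erase]
  split_ifs with h
  · rw [Finset.card_erase_of_mem (mem_filter.2 ⟨hy, h⟩)]
  · rw [Finset.erase_eq_of_notMem (by simp [h])]; rfl

omit [Fintype K] in
theorem cnt_insert (π : G → Option K) (T : Finset G) (y : G) (hy : y ∉ T) (k : K) :
    cnt π (insert y T) k = cnt π T k + if π y = some k then 1 else 0 := by
  unfold cnt
  rw [Finset.filter_insert]
  split_ifs with h
  · rw [Finset.card_insert_of_notMem fun h' => hy (mem_filter.1 h').1]
  · rfl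

omit [Fintype K] in
theorem two_le_cnt (π : G → Option K) (T : Finset G) {y y' : G} (hy : y ∈ T) (hy' : y' ∈ T)
    (hne : y ≠ y') {k : K} (h : π y = some k) (h' : π y' = some k) : 2 ≤ cnt π T k :=
  Finset.one_lt_card.2 ⟨y, mem_filter.2 ⟨hy, h⟩, y', mem_filter.2 ⟨hy', h'⟩, hne⟩

/-- One level of the weight. -/
noncomputable def lv (π : G → Option K) (φ : K → ℕ → ℝ) (S : Finset G) : ℝ :=
  ∏ k, φ k (cnt π S k)

noncomputable def rr (π : G → Option K) (φ : K → ℕ → ℝ) (T : Finset G) (y : G) : ℝ :=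
  (π y).elim 1 fun k => φ k (cnt π T k - 1) / φ k (cnt π T k)

noncomputable def mk2 (π : G → Option K) (φ : K → ℕ → ℝ) (T : Finset G) (k : K) : ℝ :=
  if 2 ≤ cnt π T k then φ k (cnt π T k - 2) * φ k (cnt π T k) / φ k (cnt π T k - 1) ^ 2 else 1

/-- Block coefficient. -/
noncomputable def blk (π : G → Option K) (m : K → ℝ) (y y' : G) : ℝ :=
  if π y = π y' then (π y).elim 1 m else 1

theorem lv_pos (π : G → Option K) (φ : K → ℕ → ℝ) (hφ : ∀ k t, 0 < φ k t) (S : Finset G) :
    0 < lv π φ S := Finset.prod_pos fun k _ => hφ k _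

theorem lv_erase (π : G → Option K) (φ : K → ℕ → ℝ) (hφ : ∀ k t, 0 < φ k t) (T : Finset G)
    (y : G) (hy : y ∈ T) : lv π φ (T.erase y) = lv π φ T * rr π φ T y := by
  unfold lv rr
  simp only [cnt_erase π T y hy]
  cases h : π y with
  | none => simp
  | some k =>
    simp only [Option.elim, Option.some.injEq]
    rw [← Finset.mul_prod_erase univ _ (mem_univ k),
      ← Finset.mul_prod_erase univ (fun k => φ k (cnt π T k)) (mem_univ k), if_pos rfl,
      Finset.prod_congr rfl fun k' hk' => by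
        rw [if_neg (Finset.ne_of_mem_erase hk').symm, Nat.sub_zero]]
    have := (hφ k (cnt π T k)).ne'
    field_simp

theorem lv_erase2 (π : G → Option K) (φ : K → ℕ → ℝ) (hφ : ∀ k t, 0 < φ k t) (T : Finset G)
    (y y' : G) (hy : y ∈ T) (hy' : y' ∈ T) (hne : y ≠ y') :
    lv π φ ((T.erase y).erase y')
      = lv π φ T * rr π φ T y * rr π φ T y' * blk π (mk2 π φ T) y y' := by
  rw [lv_erase π φ hφ _ y' (mem_erase.2 ⟨hne.symm, hy'⟩), lv_erase π φ hφ T y hy, mul_assoc _ (rr π φ T y')]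
  congr 1
  unfold rr blk
  simp only [cnt_erase π T y hy]
  cases h' : π y' with
  | none => cases h : π y <;> simp
  | some k =>
    by_cases h : π y = some k
    · have h2 := two_le_cnt π T hy hy' hne h h'
      simp only [h, Option.elim, if_true, mk2, if_pos h2]
      have := (hφ k (cnt π T k)).ne'
      have := (hφ k (cnt π T k - 1)).ne'
      rw [Nat.sub_sub]
      field_simp
    · simp [h]

/-- The quadratic form is dominated by the square of the sum. -/
def Dom (T : Finset G) (M : G → G → ℝ) : Prop :=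
  ∀ z : G → ℝ, ∑ y ∈ T, ∑ y' ∈ T, z y * M y y' * z y' ≤ (∑ y ∈ T, z y) ^ 2

def Blk (π : G → Option K) (T : Finset G) (M : G → G → ℝ) : Prop :=
  ∀ y ∈ T, ∀ y' ∈ T, y ≠ y' → (π y = none ∨ π y ≠ π y') → M y y' = 1

omit [DecidableEq G] in
theorem blk_eq (π : G → Option K) (m : K → ℝ) (y y' : G) :
    blk π m y y' = 1 - ∑ k, (1 - m k) * ((if π y = some k then 1 else 0)
      * (if π y' = some k then 1 else 0)) := by
  unfold blk
  cases h : π y with
  | none => simp
  | some k =>
    rw [Finset.sum_eq_single k (fun b _ hb => by simp [Ne.symm hb]) (by simp)]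
    by_cases h' : π y' = some k
    · simp [h']
    · simp [h', Ne.symm h']

omit [DecidableEq G] in
theorem sum_blk (π : G → Option K) (m : K → ℝ) (T : Finset G) (z : G → ℝ) :
    ∑ y ∈ T, ∑ y' ∈ T, z y * blk π m y y' * z y' = (∑ y ∈ T, z y) ^ 2
      - ∑ k, (1 - m k) * (∑ y ∈ T, if π y = some k then z y else 0) ^ 2 := by
  simp only [blk_eq, mul_sub, sub_mul, Finset.sum_sub_distrib, mul_one, sq, Finset.sum_mul_sum]
  congr 1
  simp only [← Finset.sum_sub_distrib, Finset.mul_sum, Finset.sum_mul]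
  rw [Finset.sum_congr rfl fun y _ => Finset.sum_comm, Finset.sum_comm]
  refine Finset.sum_congr rfl fun k _ => Finset.sum_congr rfl fun y _ =>
    Finset.sum_congr rfl fun y' _ => ?_
  split_ifs <;> ring

theorem Dom.step (π : G → Option K) (m : K → ℝ) (hm0 : ∀ k, 0 ≤ m k) (hm1 : ∀ k, m k ≤ 1)
    {T : Finset G} {M : G → G → ℝ} (hM : Dom T M) (hB : Blk π T M) :
    Dom T fun y y' => M y y' * blk π m y y' := by
  intro z
  set ρ : G → ℝ := fun y => Real.sqrt ((π y).elim 1 m) with hρ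
  have hρ2 : ∀ y y', π y = π y' → ρ y * ρ y' = (π y).elim 1 m := by
    intro y y' h
    simp only [hρ, ← h]
    refine Real.mul_self_sqrt ?_
    cases π y with
    | none => exact zero_le_one
    | some k => exact hm0 k
  have h1 := hM fun y => ρ y * z y
  have h2 := sum_blk π m T z
  have h3 : 0 ≤ ∑ k, (1 - m k) * (∑ y ∈ T, if π y = some k then z y else 0) ^ 2 :=
    Finset.sum_nonneg fun k _ => mul_nonneg (sub_nonneg.2 (hm1 k)) (sq_nonneg _)
  have h4 : ∑ y ∈ T, ∑ y' ∈ T, z y * (M y y' * blk π m y y') * z y'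
      = ∑ y ∈ T, ∑ y' ∈ T, z y * blk π m y y' * z y'
        + ∑ y ∈ T, ∑ y' ∈ T, ρ y * z y * M y y' * (ρ y' * z y') - (∑ y ∈ T, ρ y * z y) ^ 2 := by
    rw [sq, Finset.sum_mul_sum]
    simp only [← Finset.sum_add_distrib, ← Finset.sum_sub_distrib]
    refine Finset.sum_congr rfl fun y hy => Finset.sum_congr rfl fun y' hy' => ?_
    by_cases h : π y = π y'
    · have e : blk π m y y' = ρ y * ρ y' := by rw [hρ2 y y' h, blk, if_pos h]
      rw [e]; ring
    · have hne : y ≠ y' := fun e => h (by rw [e])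
      rw [hB y hy y' hy' hne (Or.inr h)]; ring
  rw [h4, h2]
  linarith

omit [Fintype K] in
theorem Blk.step {K' : Type} [DecidableEq K'] (π : G → Option K) (p : K → K') (m : K → ℝ)
    {T : Finset G} {M : G → G → ℝ} (hB : Blk π T M) :
    Blk (fun y => (π y).map p) T fun y y' => M y y' * blk π m y y' := by
  intro y hy y' hy' hne h
  have h1 : π y = none ∨ π y ≠ π y' := by
    rcases h with h | h
    · left; simpa using h
    · right; exact fun e => h (by simp only [e])
  simp only [hB y hy y' hy' hne h1, one_mul, blk]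
  rcases h1 with h1 | h1
  · split_ifs
    · simp [h1]
    · rfl
  · rw [if_neg h1]

theorem Dom.base (π : G → Option K) (m : K → ℝ) (T : Finset G)
    (hm : ∀ k, 2 ≤ cnt π T k → m k = (cnt π T k : ℝ) / ((cnt π T k : ℝ) - 1))
    (hm' : ∀ k, ¬ 2 ≤ cnt π T k → m k = 1) :
    Dom T fun y y' => if y = y' then 0 else blk π m y y' := by
  intro z
  have h1 := sum_blk π m T z
  have h2 : ∑ y ∈ T, ∑ y' ∈ T, z y * (if y = y' then 0 else blk π m y y') * z y'
      = ∑ y ∈ T, ∑ y' ∈ T, z y * blk π m y y' * z y' - ∑ y ∈ T, blk π m y y * z y ^ 2 := by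
    rw [← Finset.sum_sub_distrib]
    refine Finset.sum_congr rfl fun y hy => ?_
    have : ∀ y', z y * (if y = y' then 0 else blk π m y y') * z y'
        = z y * blk π m y y' * z y' - if y = y' then blk π m y y * z y ^ 2 else 0 := by
      intro y'
      split_ifs with h
      · subst h; ring
      · ring
    simp only [this, Finset.sum_sub_distrib, Finset.sum_ite_eq, hy, if_true]
  have h3 : ∑ k, m k * ∑ y ∈ T, (if π y = some k then z y ^ 2 else 0)
      ≤ ∑ y ∈ T, blk π m y y * z y ^ 2 := by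
    simp only [Finset.mul_sum]
    rw [Finset.sum_comm]
    refine Finset.sum_le_sum fun y _ => ?_
    unfold blk
    cases h : π y with
    | none => simp [sq_nonneg]
    | some k => simp
  have h4 : ∀ k, -((1 - m k) * (∑ y ∈ T, if π y = some k then z y else 0) ^ 2)
      ≤ m k * ∑ y ∈ T, (if π y = some k then z y ^ 2 else 0) := by
    intro k
    rw [← Finset.sum_filter, ← Finset.sum_filter]
    have hs : 0 ≤ ∑ y ∈ T with π y = some k, z y ^ 2 := Finset.sum_nonneg fun _ _ => sq_nonneg _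
    by_cases hk : 2 ≤ cnt π T k
    · have hc := sq_sum_le_card_mul_sum_sq (s := T.filter fun y => π y = some k) (f := z)
      have ht : (2 : ℝ) ≤ cnt π T k := by exact_mod_cast hk
      rw [hm k hk]
      change _ ≤ (cnt π T k : ℝ) * _ at hc
      have hp : (0 : ℝ) < (cnt π T k : ℝ) - 1 := by linarith
      have e : -((1 - (cnt π T k : ℝ) / ((cnt π T k : ℝ) - 1))
          * (∑ y ∈ T with π y = some k, z y) ^ 2)
          = (∑ y ∈ T with π y = some k, z y) ^ 2 / ((cnt π T k : ℝ) - 1) := by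
        field_simp; ring
      rw [e, div_mul_eq_mul_div]
      exact div_le_div_of_nonneg_right hc hp.le
    · rw [hm' k hk]; simpa using hs
  have h5 := Finset.sum_le_sum fun k (_ : k ∈ univ) => h4 k
  rw [Finset.sum_neg_distrib] at h5
  rw [h2, h1]
  linarith

omit [Fintype K] in
theorem mk2_bounds (π : G → Option K) (φ : K → ℕ → ℝ) (hφ : ∀ k t, 0 < φ k t)
    (hlc : ∀ k t, φ k t * φ k (t + 2) ≤ φ k (t + 1) ^ 2) (T : Finset G) (k : K) :
    0 ≤ mk2 π φ T k ∧ mk2 π φ T k ≤ 1 := by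
  unfold mk2
  split_ifs with h
  · obtain ⟨t, ht⟩ := Nat.exists_eq_add_of_le' h
    rw [ht]
    have := hφ k t
    have := hφ k (t + 2)
    have h1 := hφ k (t + 1)
    refine ⟨by positivity, ?_⟩
    rw [div_le_one (pow_pos (hφ _ _) 2)]
    exact hlc k t
  · exact ⟨zero_le_one, le_rfl⟩

theorem laminar_hyp {K1 K2 : Type} [Fintype K1] [DecidableEq K1] [Fintype K2] [DecidableEq K2]
    (π : G → Option K) (p1 : K → K1) (p2 : K1 → K2) (w : K → ℝ) (hw : ∀ k, 0 < w k)
    (φ1 : K1 → ℕ → ℝ) (h1 : ∀ k t, 0 < φ1 k t)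
    (hl1 : ∀ k t, φ1 k t * φ1 k (t + 2) ≤ φ1 k (t + 1) ^ 2)
    (φ2 : K2 → ℕ → ℝ) (h2 : ∀ k t, 0 < φ2 k t)
    (hl2 : ∀ k t, φ2 k t * φ2 k (t + 2) ≤ φ2 k (t + 1) ^ 2) (T : Finset G) :
    Hyp T (mat (fun S => lv π (fun k t => (t.factorial : ℝ) * w k ^ t) S
      * lv (fun y => (π y).map p1) φ1 S * lv (fun y => ((π y).map p1).map p2) φ2 S) T) := by
  set φ0 : K → ℕ → ℝ := fun k t => (t.factorial : ℝ) * w k ^ t with hφ0
  have h0 : ∀ k t, 0 < φ0 k t := fun k t => mul_pos (by exact_mod_cast t.factorial_pos)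
    (pow_pos (hw k) t)
  have d0 := Dom.base π (mk2 π φ0 T) T ?_ fun k hk => if_neg hk
  swap
  · intro k hk
    rw [mk2, if_pos hk]
    obtain ⟨t, ht⟩ := Nat.exists_eq_add_of_le' hk
    rw [ht]
    simp only [hφ0, Nat.add_sub_cancel, show t + 2 - 1 = t + 1 by omega, Nat.factorial_succ]
    have := (hw k).ne'
    have : (t.factorial : ℝ) ≠ 0 := by exact_mod_cast t.factorial_ne_zero
    push_cast
    have : (t : ℝ) + 2 - 1 ≠ 0 := by
      have : (0 : ℝ) ≤ t := Nat.cast_nonneg t
      linarith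
    field_simp
    ring
  have b0 : Blk (fun y => (π y).map p1) T
      fun y y' => if y = y' then 0 else blk π (mk2 π φ0 T) y y' := by
    have := Blk.step π p1 (mk2 π φ0 T) (T := T) (M := fun _ _ => 1) fun _ _ _ _ _ _ => rfl
    intro y hy y' hy' hne h
    simpa [hne] using this y hy y' hy' hne h
  have d1 := d0.step _ (mk2 (fun y => (π y).map p1) φ1 T)
    (fun k => (mk2_bounds _ φ1 h1 hl1 T k).1) (fun k => (mk2_bounds _ φ1 h1 hl1 T k).2) b0
  have b1 := b0.step _ p2 (mk2 (fun y => (π y).map p1) φ1 T)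
  have d2 := d1.step _ (mk2 (fun y => ((π y).map p1).map p2) φ2 T)
    (fun k => (mk2_bounds _ φ2 h2 hl2 T k).1) (fun k => (mk2_bounds _ φ2 h2 hl2 T k).2) b1
  refine hyp_of_nsd T _ (mat_symm _ T) (fun y => rr π φ0 T y * rr (fun y => (π y).map p1) φ1 T y
    * rr (fun y => ((π y).map p1).map p2) φ2 T y) fun z hz => ?_
  have h3 := d2 fun y => (rr π φ0 T y * rr (fun y => (π y).map p1) φ1 T y
    * rr (fun y => ((π y).map p1).map p2) φ2 T y) * z y
  rw [hz] at h3
  have hW : 0 < lv π φ0 T * lv (fun y => (π y).map p1) φ1 T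
      * lv (fun y => ((π y).map p1).map p2) φ2 T :=
    mul_pos (mul_pos (lv_pos _ _ h0 T) (lv_pos _ _ h1 T)) (lv_pos _ _ h2 T)
  have h4 := mul_le_mul_of_nonneg_left h3 hW.le
  refine le_trans (le_of_eq ?_) (h4.trans (by simp))
  unfold bf
  simp only [Finset.mul_sum]
  refine Finset.sum_congr rfl fun y hy => Finset.sum_congr rfl fun y' hy' => ?_
  unfold mat
  by_cases h : y = y'
  · simp [h]
  · simp only [if_neg h, lv_erase2 _ _ h0 T y y' hy hy' h, lv_erase2 _ _ h1 T y y' hy hy' h,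
      lv_erase2 _ _ h2 T y y' hy hy' h]
    ring

end Vale.Agent.P328b
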