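import Vale.Agent.P328b.Model
import Vale.Agent.P317.RefFeas

/-! Cost-free semantics, proof rules and the generic running-time bound. -/

namespace Vale.Agent.P328b

open Vale.Agent.P317

/-- Execution without the step counter. -/
def run : Prog → Mem → P317.Rand Mem
  | .store a i e, m => .ret (m.set a (i.eval m) (e.eval m))
  | .seq c d, m => (run c m).bind (run d)
  | .ifz e c d, m => if e.eval m = 0 then run c m else run d m
  | .loop e c, m => iter (run c) (e.eval m) m
  | .coin a, m => .flip (.ret (m.set a 0 0)) (.ret (m.set a 0 1))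

theorem exec_sim_run (c : Prog) (m : Mem) (t : ℕ) :
    Sim (fun s m' => s.1 = m') (exec c (m, t)) (run c m) := by
  induction c generalizing m t with
  | store a i e => exact rfl
  | seq c d ihc ihd =>
    refine (ihc m t).bind ?_
    rintro ⟨m', t'⟩ b rfl
    exact ihd m' t'
  | ifz e c d ihc ihd =>
    simp only [exec, run]
    split_ifs
    · exact ihc _ _
    · exact ihd _ _
  | loop e c ih =>
    simp only [exec, run]
    refine Sim.iter _ rfl ?_
    rintro ⟨m', t'⟩ b rfl
    exact ih _ _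
  | coin a => exact ⟨rfl, rfl⟩

def Prog.writes : Prog → List ℕ
  | .store a _ _ => [a]
  | .seq c d => c.writes ++ d.writes
  | .ifz _ c d => c.writes ++ d.writes
  | .loop _ c => c.writes
  | .coin a => [a]

theorem run_frame (c : Prog) (W : List ℕ) (hW : ∀ a ∈ c.writes, a ∈ W) (m : Mem) :
    (run c m).All (Fr W m) := by
  induction c generalizing m with
  | store a i e => exact Fr.set m (hW a (by simp [Prog.writes])) _ _
  | seq c d ihc ihd =>
    refine P317.Rand.All_bind (ihc (fun a ha => hW a (by simp [Prog.writes, ha])) m)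
      fun m' hm' => ?_
    exact P317.Rand.All_mono (fun m'' h => hm'.trans h)
      (ihd (fun a ha => hW a (by simp [Prog.writes, ha])) m')
  | ifz e c d ihc ihd =>
    simp only [run]
    split_ifs
    · exact ihc (fun a ha => hW a (by simp [Prog.writes, ha])) m
    · exact ihd (fun a ha => hW a (by simp [Prog.writes, ha])) m
  | loop e c ih =>
    simp only [run]
    exact All_iter _ (Fr.refl W m) fun m' hm' =>
      P317.Rand.All_mono (fun m'' h => hm'.trans h) (ih hW m')
  | coin a =>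
    exact ⟨Fr.set m (hW a (by simp [Prog.writes])) _ _, Fr.set m (hW a (by simp [Prog.writes])) _ _⟩

/-- Simulation triple. -/
def Ref {β : Type} (c : Prog) (m : Mem) (t : P317.Rand β) (R : Mem → β → Prop) : Prop :=
  Sim R (run c m) t

/-- Deterministic triple. -/
def Det (c : Prog) (m : Mem) (p : Mem → Prop) : Prop :=
  Ref c m (.ret ()) fun m' _ => p m'

def asg (a : ℕ) (e : Expr) : Prog := .store a (.const 0) e

def skip : Prog := .loop (.const 0) (asg 27 (.const 0))

section rules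

variable {β γ : Type} {c d : Prog} {m : Mem} {p q : Mem → Prop} {R R' : Mem → β → Prop}
  {t : P317.Rand β} {a : ℕ} {i e : Expr}

theorem Ref.mono (h : Ref c m t R) (h' : ∀ m' b, R m' b → R' m' b) : Ref c m t R' :=
  Sim.mono h' h

theorem Ref.frame (h : Ref c m t R) (W : List ℕ) (hW : ∀ a ∈ c.writes, a ∈ W) :
    Ref c m t fun m' b => R m' b ∧ Fr W m m' :=
  Sim.and_All h (run_frame c W hW m)

theorem Ref.seq {g : β → P317.Rand γ} {Q : Mem → γ → Prop} (h : Ref c m t R)
    (h' : ∀ m' b, R m' b → Ref d m' (g b) Q) : Ref (.seq c d) m (t.bind g) Q :=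
  Sim.bind h h'

theorem Ref.seq_det (h : Ref c m t R) (h' : ∀ m' b, R m' b → Det d m' fun m'' => R' m'' b) :
    Ref (.seq c d) m t R' := by
  refine Sim.bind_left h fun m' b hb => ?_
  have := h' m' b hb
  unfold Det Ref at this
  revert this
  cases run d m' with
  | ret a => exact id
  | flip _ _ => exact id

theorem Det.mono (h : Det c m p) (hpq : ∀ m', p m' → q m') : Det c m q :=
  Ref.mono h fun a _ ha => hpq a ha

theorem Det.frame (h : Det c m p) (W : List ℕ) (hW : ∀ a ∈ c.writes, a ∈ W) :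
    Det c m fun m' => p m' ∧ Fr W m m' :=
  Ref.frame h W hW

theorem Det.seq (h : Det c m p) (h' : ∀ m', p m' → Ref d m' t R) : Ref (.seq c d) m t R :=
  Sim.det_bind h h'

theorem Det.to_ref {b : β} (h : Det c m fun m' => R m' b) : Ref c m (.ret b) R := by
  unfold Det Ref at *
  revert h
  cases run c m with
  | ret a => exact id
  | flip _ _ => exact id

theorem Det.store (h : p (m.set a (i.eval m) (e.eval m))) : Det (.store a i e) m p := h

theorem Det.asg (h : p (m.set a 0 (e.eval m))) : Det (asg a e) m p := h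

theorem Det.skip (h : p m) : Det skip m p := h

theorem Ref.skip {b : β} (h : R m b) : Ref skip m (.ret b) R := h

theorem Ref.store_seq (h : Ref d (m.set a (i.eval m) (e.eval m)) t R) :
    Ref (.seq (.store a i e) d) m t R := h

theorem Ref.asg_seq (h : Ref d (m.set a 0 (e.eval m)) t R) :
    Ref (.seq (P328b.asg a e) d) m t R := h

theorem Ref.ifz_zero (he : e.eval m = 0) (h : Ref c m t R) : Ref (.ifz e c d) m t R := by
  unfold Ref; simp only [run, he, if_true]; exact h

theorem Ref.ifz_ne (he : e.eval m ≠ 0) (h : Ref d m t R) : Ref (.ifz e c d) m t R := by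
  unfold Ref; simp only [run, he, if_false]; exact h

theorem Ref.loop {k : ℕ} (hk : e.eval m = k) {g : β → P317.Rand β} {b : β} (h0 : R m b)
    (hstep : ∀ m' b', R m' b' → Ref c m' (g b') R) : Ref (.loop e c) m (iter g k b) R := by
  unfold Ref
  simp only [run, hk]
  exact Sim.iter k h0 hstep

theorem Det.loop {k : ℕ} (hk : e.eval m = k) (p : ℕ → Mem → Prop)
    (h0 : p 0 m) (hstep : ∀ i, i < k → ∀ m', p i m' → Det c m' (p (i + 1))) :
    Det (.loop e c) m (p k) := by
  unfold Det Ref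
  simp only [run, hk]
  exact Sim.iter_det k h0 hstep

end rules

/-- `for v in 0 .. bound-1 do body`. -/
def forI (v : ℕ) (bound : Expr) (body : Prog) : Prog :=
  .seq (asg v (.const 0)) (.loop bound (.seq body (asg v (.add (var v) (.const 1)))))

theorem ref_forI {β : Type} (v : ℕ) (bound : Expr) (body : Prog) (m : Mem) (k : ℕ)
    (hk : bound.eval (m.set v 0 0) = k) (hI : v ∉ body.writes) (g : ℕ → β → P317.Rand β) (b : β)
    (R : ℕ → Mem → β → Prop) (hp : ∀ i m' x b, R i m' b → R i (m'.set v 0 x) b) (h0 : R 0 m b)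
    (hstep : ∀ i, i < k → ∀ m' b', m' v 0 = i → R i m' b' → Ref body m' (g i b') (R (i + 1))) :
    Ref (forI v bound body) m (iterIdx g k b) (R k) := by
  unfold forI
  refine Ref.asg_seq ?_
  unfold Ref
  simp only [run, eval_const, hk]
  refine (Sim.iterIdx (R := fun i m' b => m' v 0 = i ∧ R i m' b) k ⟨by simp, hp _ _ _ _ h0⟩
    ?_).mono fun _ _ h => h.2
  rintro i hi m' b' ⟨h1, h2⟩
  refine ((hstep i hi m' b' h1 h2).frame body.writes fun _ h => h).seq_det ?_
  rintro m'' b'' ⟨h3, h4⟩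
  refine Det.asg ⟨?_, hp _ _ _ _ h3⟩
  simp [h4 v hI, h1]

theorem det_forI (v : ℕ) (bound : Expr) (body : Prog) (m : Mem) (k : ℕ)
    (hk : bound.eval (m.set v 0 0) = k) (hI : v ∉ body.writes) (p : ℕ → Mem → Prop)
    (hp : ∀ i m' x, p i m' → p i (m'.set v 0 x)) (h0 : p 0 m)
    (hstep : ∀ i, i < k → ∀ m', m' v 0 = i → p i m' → Det body m' (p (i + 1))) :
    Det (forI v bound body) m (p k) := by
  have h := ref_forI v bound body m k hk hI (fun _ _ => .ret ()) () (fun i m' _ => p i m')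
    (fun i m' x _ => hp i m' x) h0 fun i hi m' _ => hstep i hi m'
  have e : ∀ k, iterIdx (fun _ (_ : Unit) => P317.Rand.ret ()) k () = .ret () := by
    intro k
    induction k with
    | zero => rfl
    | succ k ih => rw [iterIdx, ih]; rfl
  rw [e] at h
  exact h

/-- Cell 0 of array 25 receives a uniform number with `e` bits. -/
def bitsC (e : Expr) : Prog :=
  .seq (asg 25 (.const 0))
    (.loop e (.seq (.coin 26) (asg 25 (.add (.add (var 25) (var 25)) (var 26)))))

theorem bitsC_ref (e : Expr) (m : Mem) (k : ℕ) (hk : e.eval (m.set 25 0 0) = k) :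
    Ref (bitsC e) m (bits k) fun m' r => m' 25 0 = r ∧ Fr [25, 26] m m' := by
  refine Ref.frame ?_ _ (by simp [bitsC, asg, Prog.writes])
  unfold bitsC bits
  refine Ref.asg_seq (Ref.loop hk (by simp) ?_)
  intro m' r h
  simp [Ref, coinR, run, asg, h]

/-- Loop bounds that are visibly at most a parameter or a constant. -/
def okB (Ps : List (ℕ × ℕ)) : Expr → Bool
  | .const c => decide (c ≤ 601)
  | .load a (.const k) => decide ((a, k) ∈ Ps)
  | .sub e _ => okB Ps e
  | _ => false

def Prog.ok (Ps : List (ℕ × ℕ)) : Prog → Bool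
  | .store a _ _ => Ps.all fun p => p.1 != a
  | .seq c d => c.ok Ps && d.ok Ps
  | .ifz _ c d => c.ok Ps && d.ok Ps
  | .loop e c => okB Ps e && c.ok Ps
  | .coin a => Ps.all fun p => p.1 != a

def Prog.cb (B : ℕ) : Prog → ℕ
  | .store _ i e => i.cost + e.cost + 1
  | .seq c d => c.cb B + d.cb B
  | .ifz e c d => e.cost + 1 + c.cb B + d.cb B
  | .loop e c => e.cost + 1 + B * (c.cb B + 1)
  | .coin _ => 1

theorem eval_le_of_ok (Ps : List (ℕ × ℕ)) (B : ℕ) (hB : 601 ≤ B) (m : Mem)
    (hm : ∀ p ∈ Ps, m p.1 p.2 ≤ B) (e : Expr) (he : okB Ps e = true) : e.eval m ≤ B := by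
  induction e with
  | const c =>
    simp only [okB, decide_eq_true_eq] at he
    simp only [Expr.eval]; omega
  | load a i _ =>
    cases i with
    | const c =>
      simp only [okB, decide_eq_true_eq] at he
      exact hm _ he
    | _ => simp [okB] at he
  | sub e f ihe _ =>
    simp only [okB] at he
    have := ihe he
    simp only [Expr.eval]; omega
  | _ => simp [okB] at he

theorem exec_cost (c : Prog) (Ps : List (ℕ × ℕ)) (B : ℕ) (hB : 601 ≤ B) (hok : c.ok Ps = true)
    (m : Mem) (t : ℕ) (hm : ∀ p ∈ Ps, m p.1 p.2 ≤ B) :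
    (exec c (m, t)).All fun s => s.2 ≤ t + c.cb B ∧ ∀ p ∈ Ps, s.1 p.1 p.2 ≤ B := by
  have st : ∀ (m : Mem) a i v, (Ps.all fun p => p.1 != a) = true → (∀ p ∈ Ps, m p.1 p.2 ≤ B) →
      ∀ p ∈ Ps, m.set a i v p.1 p.2 ≤ B := by
    intro m a i v h hm p hp
    rw [Mem.set_of_ne m _ _ (by simpa using List.all_eq_true.1 h p hp)]
    exact hm p hp
  induction c generalizing m t with
  | store a i e => exact ⟨by simp only [Prog.cb]; omega, st _ _ _ _ hok hm⟩
  | seq c d ihc ihd =>
    simp only [Prog.ok, Bool.and_eq_true] at hok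
    refine P317.Rand.All_bind (ihc hok.1 m t hm) ?_
    rintro ⟨m', t'⟩ ⟨h1, h2⟩
    refine P317.Rand.All_mono ?_ (ihd hok.2 m' t' h2)
    rintro ⟨m'', t''⟩ ⟨h3, h4⟩
    refine ⟨?_, h4⟩
    simp only [Prog.cb] at *
    omega
  | ifz e c d ihc ihd =>
    simp only [Prog.ok, Bool.and_eq_true] at hok
    simp only [exec]
    split_ifs
    · refine P317.Rand.All_mono ?_ (ihc hok.1 m _ hm)
      rintro ⟨m'', t''⟩ ⟨h3, h4⟩
      refine ⟨?_, h4⟩
      simp only [Prog.cb] at *
      omega
    · refine P317.Rand.All_mono ?_ (ihd hok.2 m _ hm)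
      rintro ⟨m'', t''⟩ ⟨h3, h4⟩
      refine ⟨?_, h4⟩
      simp only [Prog.cb] at *
      omega
  | loop e c ih =>
    simp only [Prog.ok, Bool.and_eq_true] at hok
    have he := eval_le_of_ok Ps B hB m hm e hok.1
    simp only [exec]
    rw [iter_eq_iterIdx]
    have key := All_iterIdx (p := fun i (s : Mem × ℕ) =>
        s.2 ≤ t + e.cost + 1 + i * (c.cb B + 1) ∧ ∀ p ∈ Ps, s.1 p.1 p.2 ≤ B)
      (g := fun _ u => exec c (u.1, u.2 + 1)) (e.eval m) (a := (m, t + e.cost + 1))
      ⟨by simp, hm⟩ (by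
        rintro i _ ⟨m', t'⟩ ⟨h1, h2⟩
        refine P317.Rand.All_mono ?_ (ih hok.2 m' (t' + 1) h2)
        rintro ⟨m'', t''⟩ ⟨h3, h4⟩
        refine ⟨?_, h4⟩
        simp only at *
        rw [Nat.add_mul]
        omega)
    refine P317.Rand.All_mono ?_ key
    rintro ⟨m', t'⟩ ⟨h1, h2⟩
    refine ⟨?_, h2⟩
    have := Nat.mul_le_mul_right (c.cb B + 1) he
    simp only [Prog.cb] at *
    omega
  | coin a => exact ⟨⟨le_rfl, st _ _ _ _ hok hm⟩, ⟨le_rfl, st _ _ _ _ hok hm⟩⟩

theorem cb_poly (c : Prog) : ∃ C d : ℕ, ∀ B : ℕ, c.cb B ≤ C * (B + 1) ^ d := by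
  have hpow : ∀ (B d d' : ℕ), d ≤ d' → (B + 1) ^ d ≤ (B + 1) ^ d' := fun B d d' h =>
    Nat.pow_le_pow_right (Nat.succ_pos B) h
  have hone : ∀ (B d : ℕ), 1 ≤ (B + 1) ^ d := fun B d => Nat.one_le_pow _ _ (Nat.succ_pos B)
  induction c with
  | store a i e => exact ⟨i.cost + e.cost + 1, 0, fun B => by simp [Prog.cb]⟩
  | seq c d ihc ihd =>
    obtain ⟨C1, d1, h1⟩ := ihc
    obtain ⟨C2, d2, h2⟩ := ihd
    refine ⟨C1 + C2, d1 + d2, fun B => ?_⟩
    have a1 := Nat.mul_le_mul_left C1 (hpow B d1 (d1 + d2) (by omega))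
    have a2 := Nat.mul_le_mul_left C2 (hpow B d2 (d1 + d2) (by omega))
    have := h1 B
    have := h2 B
    simp only [Prog.cb]
    rw [Nat.add_mul]
    omega
  | ifz e c d ihc ihd =>
    obtain ⟨C1, d1, h1⟩ := ihc
    obtain ⟨C2, d2, h2⟩ := ihd
    refine ⟨e.cost + 1 + C1 + C2, d1 + d2, fun B => ?_⟩
    have a1 := Nat.mul_le_mul_left C1 (hpow B d1 (d1 + d2) (by omega))
    have a2 := Nat.mul_le_mul_left C2 (hpow B d2 (d1 + d2) (by omega))
    have a3 := Nat.mul_le_mul_left (e.cost + 1) (hone B (d1 + d2))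
    have := h1 B
    have := h2 B
    simp only [Prog.cb]
    rw [Nat.add_mul, Nat.add_mul]
    omega
  | loop e c ih =>
    obtain ⟨C1, d1, h1⟩ := ih
    refine ⟨e.cost + 1 + (C1 + 1), d1 + 1, fun B => ?_⟩
    have a3 := Nat.mul_le_mul_left (e.cost + 1) (hone B (d1 + 1))
    have a4 : c.cb B + 1 ≤ (C1 + 1) * (B + 1) ^ d1 := by
      have := h1 B
      have := hone B d1
      rw [Nat.add_mul]; omega
    have a5 : B * (c.cb B + 1) ≤ (C1 + 1) * (B + 1) ^ (d1 + 1) := by
      calc B * (c.cb B + 1) ≤ (B + 1) * ((C1 + 1) * (B + 1) ^ d1) :=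
            Nat.mul_le_mul (Nat.le_succ B) a4
        _ = _ := by ring
    simp only [Prog.cb]
    rw [Nat.add_mul]
    omega
  | coin a => exact ⟨1, 0, fun B => by simp [Prog.cb]⟩

/-- The run from `m` uses at most `c.cb B` further steps. -/
def Cost (c : Prog) (m : Mem) (B : ℕ) : Prop :=
  ∀ t, (exec c (m, t)).All fun s => s.2 ≤ t + c.cb B

theorem Cost.of_ok {c : Prog} {m : Mem} {B : ℕ} (Ps : List (ℕ × ℕ)) (hB : 601 ≤ B)
    (hok : c.ok Ps = true) (hm : ∀ p ∈ Ps, m p.1 p.2 ≤ B) : Cost c m B := fun t =>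
  P317.Rand.All_mono (fun _ h => h.1) (exec_cost c Ps B hB hok m t hm)

theorem Cost.seq {c d : Prog} {m : Mem} {B : ℕ} {p : Mem → Prop} (h1 : Cost c m B)
    (h2 : Det c m p) (h3 : ∀ m', p m' → Cost d m' B) : Cost (.seq c d) m B := by
  intro t
  have h4 := (exec_sim_run c m t).trans h2
  have h5 := h1 t
  simp only [exec]
  generalize exec c (m, t) = r at h4 h5
  cases r with
  | ret a =>
    obtain ⟨b, rfl, hp⟩ := h4
    refine P317.Rand.All_mono (fun s hs => ?_) (h3 _ hp a.2)
    have : a.2 ≤ t + c.cb B := h5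
    simp only [Prog.cb]
    omega
  | flip _ _ => exact h4.elim

end Vale.Agent.P328b
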