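import Vale.Agent.P328b.SimB

/-! Running time and the final statement. -/

namespace Vale.Agent.P328b

open Finset Vale.Agent.P317

attribute [local irreducible] par

variable {m n : ℕ}

theorem init1_ok : init1.ok [(0, 0), (0, 1), (vP, 0)] = true := by decide

def Ps2 : List (ℕ × ℕ) :=
  [(vD, 0), (vLB, 0), (vSZ, 0), (vS, 0), (vP, 0), (vPW, 4), (vPW, 6), (vPW, 11), (vPW, 14),
    (vPW, 600)]

set_option maxRecDepth 8000 in
theorem main_ok : (Prog.seq init2 mainC).ok Ps2 = true := by decide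

theorem progC_cost (hm : 0 < m) (hn : 0 < n) (r : Fin m → ℕ) (c : Fin n → ℕ)
    (h : ∑ i, r i = ∑ j, c j) (E : ℕ) :
    Cost progC (input r c E) (par m n ^ 600 + (Nat.size E + 1) + Nat.size (∑ i, r i)) := by
  have hP : 4 ≤ par m n := by unfold par; omega
  have hP' : m ≤ par m n ∧ n ≤ par m n := by unfold par; omega
  have pw : ∀ k, k ≤ 600 → par m n ^ k ≤ par m n ^ 600 := fun k hk =>
    Nat.pow_le_pow_right (by omega) hk
  have p1 := pw 1 (by norm_num)
  have p2 := pw 2 (by norm_num)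
  have p5 := (Nat.pow_le_pow_left hP 5).trans (pw 5 (by norm_num))
  have p3 := mn_le (m := m) (n := n)
  have p4 : Nat.size (m * n) ≤ m * n := Nat.size_le.2 Nat.lt_two_pow_self
  rw [pow_one] at p1
  refine Cost.seq (Cost.of_ok [] (by omega) rfl (by simp)) (init0_det r c E) ?_
  rintro _ rfl
  refine Cost.seq (Cost.of_ok _ (by omega) init1_ok ?_) (init1_det hm hn r c h E) ?_
  · simp [input]; omega
  · rintro M ⟨I, rfl, rfl, _, e⟩
    refine Cost.of_ok _ (by omega) main_ok ?_
    have := pw 4 (by norm_num)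
    have := pw 6 (by norm_num)
    have := pw 11 (by norm_num)
    have := pw 14 (by norm_num)
    simp only [Ps2, List.forall_mem_cons, e.hD, e.hLB, e.hSZ, e.hS, e.hP, e.hPW 4 (by norm_num),
      e.hPW 6 (by norm_num), e.hPW 11 (by norm_num), e.hPW 14 (by norm_num), e.hPW 600 le_rfl,
      Inst.tot, List.not_mem_nil, false_imp_iff, implies_true, and_true]
    omega

theorem progC_ref (hm : 0 < m) (hn : 0 < n) (r : Fin m → ℕ) (c : Fin n → ℕ)
    (h : ∑ i, r i = ∑ j, c j) (E : ℕ) : ∃ I : Inst m n, I.r = r ∧ I.c = c ∧ I.Ok ∧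
      Ref progC (input r c E) (I.alg (Nat.size E + 1)) fun M y => output m n M = y := by
  have h1 := init1_det hm hn r c h E
  unfold Det Ref at h1
  generalize hr : run init1 _ = t at h1
  cases t with
  | flip _ _ => exact h1.elim
  | ret M =>
    obtain ⟨I, h2, h3, h4, h5⟩ := h1
    refine ⟨I, h2, h3, h4, (init0_det r c E).seq ?_⟩
    rintro _ rfl
    refine Det.seq (p := fun M' => M' = M) (by unfold Det Ref; rw [hr]; rfl) ?_
    rintro _ rfl
    refine (init2_det h5).seq ?_
    rintro M' ⟨h6, h7⟩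
    exact (mainC_ref h6 h7).mono fun M'' y hy => funext hy.1

theorem Sim_All {α β : Type} {R : α → β → Prop} {p : α → Prop} {q : β → Prop}
    {s : P317.Rand α} {t : P317.Rand β} (hs : Sim R s t) (ht : t.All q)
    (h : ∀ a b, R a b → q b → p a) : s.All p := by
  induction s generalizing t with
  | ret a => cases t with
    | ret b => exact h a b hs ht
    | flip _ _ => exact hs.elim
  | flip l r ihl ihr => cases t with
    | ret b => exact hs.elim
    | flip l' r' => exact ⟨ihl hs.1 ht.1, ihr hs.2 ht.2⟩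

theorem Sim_prob {α β : Type} {R : α → β → Prop} {p : α → Prop} {q : β → Prop}
    {s : P317.Rand α} {t : P317.Rand β} (hs : Sim R s t) (h : ∀ a b, R a b → (p a ↔ q b)) :
    s.prob p = t.prob q := by
  induction s generalizing t with
  | ret a => cases t with
    | ret b => simp only [P317.Rand.prob]; rw [propext (h a b hs)]
    | flip _ _ => exact hs.elim
  | flip l r ihl ihr => cases t with
    | ret b => exact hs.elim
    | flip l' r' => simp only [P317.Rand.prob, ihl hs.1, ihr hs.2]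

theorem size_le_logb {x : ℕ} {y : ℝ} (hy : 1 ≤ y) (h : (x : ℝ) ≤ y) :
    (Nat.size x : ℝ) ≤ 1 + Real.logb 2 y := by
  have h0 := Real.logb_nonneg (b := 2) (by norm_num) hy
  rcases Nat.eq_zero_or_pos (Nat.size x) with h1 | h1
  · rw [h1]; push_cast; linarith
  · have h2 : 2 ^ (Nat.size x - 1) ≤ x := Nat.lt_size.1 (by omega)
    have h3 : (2 : ℝ) ^ (Nat.size x - 1) ≤ y := le_trans (by exact_mod_cast h2) h
    have h4 := Real.logb_le_logb_of_le (b := 2) (by norm_num) (by positivity) h3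
    rw [Real.logb_pow, Nat.cast_sub h1, Real.logb_self_eq_one (by norm_num)] at h4
    push_cast at h4
    linarith

theorem sum_le_prod {k : ℕ} (r : Fin k → ℕ) (s : Finset (Fin k)) :
    ∑ i ∈ s, r i + 1 ≤ ∏ i ∈ s, (r i + 2) := by
  induction s using Finset.induction_on with
  | empty => simp
  | insert a s ha ih =>
    rw [Finset.sum_insert ha, Finset.prod_insert ha]
    refine le_trans ?_ (Nat.mul_le_mul_left (r a + 2) ih)
    generalize ∑ i ∈ s, r i = x
    nlinarith [Nat.zero_le (r a * x)]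

theorem cost_real (P S L t C d : ℕ) (l : ℝ) (h : 2 ≤ l) (hP : P ≤ 2 * l) (hS : S ≤ 2 * l)
    (hL : L ≤ l) (ht : t ≤ C * (P ^ 600 + S + L + 1) ^ d) :
    (t : ℝ) ≤ (C * 2 ^ (601 * d) : ℕ) * l ^ (601 * d) := by
  have b4 : (P : ℝ) ^ 600 ≤ (2 * l) ^ 600 := pow_le_pow_left₀ (Nat.cast_nonneg _) hP _
  have b5 : 2 * l ≤ (2 * l) ^ 600 := le_self_pow₀ (by linarith) (by norm_num)
  have b6 : 4 * (2 * l) ^ 600 ≤ (2 * l) ^ 601 := by
    rw [pow_succ' (2 * l) 600]
    exact mul_le_mul_of_nonneg_right (by linarith) (by linarith)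
  have b7 : ((P ^ 600 + S + L + 1 : ℕ) : ℝ) ≤ (2 * l) ^ 601 := by
    rw [Nat.cast_add, Nat.cast_add, Nat.cast_add, Nat.cast_pow, Nat.cast_one]
    generalize (2 * l) ^ 600 = x at *
    generalize (2 * l) ^ 601 = y at *
    generalize (P : ℝ) ^ 600 = z at *
    linarith
  generalize P ^ 600 + S + L + 1 = B at *
  calc (t : ℝ) ≤ C * (B : ℝ) ^ d := by exact_mod_cast ht
    _ ≤ C * ((2 * l) ^ 601) ^ d := by gcongr
    _ = _ := by rw [← pow_mul, mul_pow, Nat.cast_mul, Nat.cast_pow, Nat.cast_ofNat, mul_assoc]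

theorem main : ∃ (prog : Prog) (C k : ℕ), ∀ (m n : ℕ), 1 ≤ m → 1 ≤ n →
    ∀ (r : Fin m → ℕ) (c : Fin n → ℕ), ∑ i, r i = ∑ j, c j → ∀ ε : ℝ, 0 < ε → ε < 1 →
      (exec prog (input r c ⌈1 / ε⌉₊, 0)).All (fun s => output m n s.1 ∈ tables r c ∧
        (s.2 : ℝ) ≤ C * ((m : ℝ) + n + ∑ i, Real.logb 2 (r i + 2) + ∑ j, Real.logb 2 (c j + 2)
          + Real.log (1 / ε)) ^ k) ∧
      (1 / 2 : ℝ) * ∑ X ∈ tables r c,
        |(exec prog (input r c ⌈1 / ε⌉₊, 0)).prob (fun s => output m n s.1 = X)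
          - 1 / ((tables r c).card : ℝ)| ≤ ε := by
  obtain ⟨C, d, hC⟩ := cb_poly progC
  refine ⟨progC, C * 2 ^ (601 * d), 601 * d, fun m n hm hn r c h ε h0 h1 => ?_⟩
  set E := ⌈1 / ε⌉₊ with hE
  obtain ⟨I, rfl, rfl, hI, hs⟩ := progC_ref hm hn r c h E
  have hs2 := (exec_sim_run progC (input I.r I.c E) 0).trans hs
  constructor
  · refine P317.Rand.All_and (Sim_All hs2 (I.alg_All hI _) ?_)
      (P317.Rand.All_mono (fun s hs => ?_) (progC_cost hm hn I.r I.c h E 0))
    · rintro a b ⟨_, rfl, rfl⟩ hb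
      exact hb
    · have a1 : (1 : ℝ) ≤ 1 / ε := by rw [le_div_iff₀ h0]; linarith
      have a2 : 0 ≤ Real.log (1 / ε) := Real.log_nonneg a1
      have a3 : ∀ x : ℕ, 0 ≤ Real.logb 2 (x + 2) := fun x =>
        Real.logb_nonneg (by norm_num) (by have := Nat.cast_nonneg (α := ℝ) x; linarith)
      have a4 : 0 ≤ ∑ i, Real.logb 2 (I.r i + 2) := Finset.sum_nonneg fun _ _ => a3 _
      have a5 : 0 ≤ ∑ j, Real.logb 2 (I.c j + 2) := Finset.sum_nonneg fun _ _ => a3 _
      have a6 : (1 : ℝ) ≤ m := by exact_mod_cast hm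
      have a7 : (1 : ℝ) ≤ n := by exact_mod_cast hn
      have b1 : (Nat.size E : ℝ) ≤ 2 + 2 * Real.log (1 / ε) := by
        have := size_le_logb (x := E) (y := 2 * (1 / ε)) (by linarith)
          ((Nat.ceil_lt_add_one (by linarith)).le.trans (by linarith))
        rw [Real.logb_mul (by norm_num) (by linarith), Real.logb_self_eq_one (by norm_num),
          Real.logb] at this
        have b : Real.log (1 / ε) / Real.log 2 ≤ 2 * Real.log (1 / ε) := by
          rw [div_le_iff₀ (Real.log_pos (by norm_num))]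
          nlinarith [Real.log_two_gt_d9]
        linarith
      have b2 : (Nat.size (∑ i, I.r i) : ℝ) ≤ 1 + ∑ i, Real.logb 2 (I.r i + 2) := by
        have b := sum_le_prod I.r univ
        have := size_le_logb (x := ∑ i, I.r i) (y := ∏ i, ((I.r i : ℝ) + 2))
          (by exact_mod_cast (Nat.le_add_left _ _).trans b)
          (by exact_mod_cast (Nat.le_succ _).trans b)
        rwa [Real.logb_prod _ _ fun i _ => by positivity] at this
      set l : ℝ := (m : ℝ) + n + ∑ i, Real.logb 2 (I.r i + 2) + ∑ j, Real.logb 2 (I.c j + 2)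
        + Real.log (1 / ε) with hl
      have b3 : (par m n : ℝ) ≤ 2 * l := by unfold par; push_cast; linarith
      rw [zero_add] at hs
      exact cost_real _ _ _ _ C d l (by linarith) b3 (by push_cast; linarith) (by linarith)
        (hs.trans (hC _))
  · have e : ∀ X, (exec progC (input I.r I.c E, 0)).prob (fun s => output m n s.1 = X)
        = (I.alg (Nat.size E + 1)).prob (· = X) := fun X => Sim_prob hs2 (by
      rintro a b ⟨_, rfl, rfl⟩; rfl)
    simp only [e]
    have a := I.alg_tv hI (Nat.size E + 1) (Nat.succ_pos _)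
    have b : Real.exp (-((Nat.size E + 1 : ℕ) : ℝ)) ≤ ε / 2 := by
      have b1 : (2 : ℝ) ^ (Nat.size E + 1) ≤ Real.exp ((Nat.size E + 1 : ℕ) * 1) := by
        rw [Real.exp_nat_mul]
        exact pow_le_pow_left₀ (by norm_num) (by linarith [Real.add_one_le_exp 1]) _
      have b2 : 1 / ε ≤ 2 ^ Nat.size E :=
        (Nat.le_ceil _).trans (by exact_mod_cast (Nat.lt_size_self E).le)
      rw [mul_one, pow_succ] at b1
      rw [Real.exp_neg, inv_le_comm₀ (Real.exp_pos _) (by linarith), inv_div]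
      rw [show 2 / ε = 1 / ε * 2 by ring]
      linarith
    linarith

end Vale.Agent.P328b
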