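import Vale.Agent.P328b.Push

/-! Poincare inequality for the marginal on the small cells. -/

namespace Vale.Agent.P328b

open Finset Vale.Agent.P317

variable {C : Type} [Fintype C] [DecidableEq C]

/-- Local hyperbolicity for every slot system. -/
def LocH (Ψ : (C → ℕ) → (C → ℕ) → ℝ) : Prop :=
  ∀ (I : Type) [DecidableEq I] (sl : I → Option C) (T : Finset (I × Fin 3)),
    Hyp T (mat (Wt sl Ψ) T)

/-- Bounded unit ratios. -/
def Rat (Ψ : (C → ℕ) → (C → ℕ) → ℝ) (Λ : ℝ) : Prop :=
  ∀ x y c, Ψ (up x c) y ≤ Λ * Ψ x y ∧ Ψ x y ≤ Λ * Ψ (up x c) y ∧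
    Ψ x (up y c) ≤ Λ * Ψ x y ∧ Ψ x y ≤ Λ * Ψ x (up y c)

noncomputable def aggP (u : C → ℕ) (Ψ : (C → ℕ) → (C → ℕ) → ℝ) (a b : C → ℕ) : ℝ :=
  ∑ x ∈ box u, Ψ (a + x) (b + (u - x))

theorem aggP_pos (u : C → ℕ) (Ψ : (C → ℕ) → (C → ℕ) → ℝ) (hΨ : ∀ x y, 0 < Ψ x y) (a b : C → ℕ) :
    0 < aggP u Ψ a b :=
  Finset.sum_pos (fun _ _ => hΨ _ _) ⟨0, mem_box.2 fun _ => Nat.zero_le _⟩

omit [Fintype C] in
theorem up_add (a x : C → ℕ) (c : C) : up a c + x = up (a + x) c := by
  funext e
  simp only [Pi.add_apply, up_apply]; omega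

theorem Rat.aggP {Ψ : (C → ℕ) → (C → ℕ) → ℝ} {Λ : ℝ} (h : Rat Ψ Λ) (u : C → ℕ) :
    Rat (aggP u Ψ) Λ := by
  intro a b c
  simp only [Vale.Agent.P328b.aggP, up_add, Finset.mul_sum]
  exact ⟨Finset.sum_le_sum fun x _ => (h _ _ c).1, Finset.sum_le_sum fun x _ => (h _ _ c).2.1,
    Finset.sum_le_sum fun x _ => (h _ _ c).2.2.1, Finset.sum_le_sum fun x _ => (h _ _ c).2.2.2⟩

def embL {I : Type} (n : ℕ) : I × Fin 3 ↪ (I ⊕ Fin n) × Fin 3 :=
  ⟨fun y => (Sum.inl y.1, y.2), fun a b h => by
    obtain ⟨h1, h2⟩ := Prod.ext_iff.1 h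
    exact Prod.ext (Sum.inl_injective h1) h2⟩

theorem embL_apply {I : Type} (n : ℕ) (y : I × Fin 3) : embL n y = (Sum.inl y.1, y.2) := rfl

theorem hyp_aggP {I : Type} [DecidableEq I] (sl : I → Option C) (Ψ : (C → ℕ) → (C → ℕ) → ℝ)
    (hΨ : ∀ x y, 0 < Ψ x y) (hloc : LocH Ψ) (u : C → ℕ) (hd : ∀ i c, sl i = some c → u c = 0)
    (T : Finset (I × Fin 3)) (n : ℕ) (hT : T.card = n + 2) : Hyp T (mat (Wt sl (aggP u Ψ)) T) := by
  obtain ⟨nL, cell, hcell⟩ : ∃ (nL : ℕ) (cell : Fin nL → C),
      ∀ c, (univ.filter fun j => cell j = c).card = u c := ⟨_, exists_cell u⟩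
  let sl' : I ⊕ Fin nL → Option C := Sum.elim sl fun k => some (cell k)
  let L : List (I ⊕ Fin nL) := (List.finRange nL).map Sum.inr
  have hL : L.Nodup := (List.nodup_finRange nL).map Sum.inr_injective
  have hA : AggHyp (n + nL) (Wt sl' Ψ) := aggHyp_of_loc _ _
    (fun S _ => mul_pos (Fw_pos _ _) (hΨ _ _)) fun T _ => hloc _ sl' T
  have hnot : ∀ S : Finset (I × Fin 3), ∀ y ∈ S.map (embL nL), y.1 ∉ L := by
    intro S y hy
    obtain ⟨z, _, rfl⟩ := Finset.mem_map.1 hy
    simp [L, embL_apply]
  have h1 := hA L (T.map (embL nL)) hL (hnot T) (by simp [L, hT]; omega)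
  have hc : ∀ (S : Finset (I × Fin 3)) k, cnt (kind sl') (S.map (embL nL)) k = cnt (kind sl) S k := by
    intro S k
    unfold cnt
    rw [Finset.filter_map, Finset.card_map]
    rfl
  have hagg : ∀ S : Finset (I × Fin 3), agg L (Wt sl' Ψ) (S.map (embL nL))
      = (∏ c, ((u c).factorial : ℝ)) * Wt sl (aggP u Ψ) S := by
    intro S
    have := push sl' (fun a b => Fw a b * Ψ a b) L hL (by simp [L, sl']) u (by
      intro c
      simp only [L, List.countP_map]
      rw [← hcell c, ← countP_finRange]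
      congr 1
      funext k
      simp [sl']) (S.map (embL nL)) (hnot S)
    have e1 : cin sl' (S.map (embL nL)) = cin sl S := funext fun c => hc S _
    have e2 : cout sl' (S.map (embL nL)) = cout sl S := funext fun c => hc S _
    rw [e1, e2] at this
    refine this.trans ?_
    unfold Wt aggP
    rw [Finset.mul_sum, Finset.mul_sum]
    refine Finset.sum_congr rfl fun x hx => ?_
    rw [← mul_assoc, ← mul_assoc, Bn_Fw u x _ _ hx]
    intro c
    by_cases h : u c = 0
    · exact Or.inl h
    · refine Or.inr ⟨?_, ?_⟩ <;>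
      · simp only [cin, cout, cnt, Finset.card_eq_zero, Finset.filter_eq_empty_iff]
        intro y _ hy
        simp only [kind, Option.map_eq_some_iff, Prod.mk.injEq] at hy
        obtain ⟨c', h1, h2, _⟩ := hy
        exact h (hd _ _ (h2 ▸ h1))
  have h2 := Hyp_comap (embL nL) T _
    (fun y y' => (∏ c, ((u c).factorial : ℝ)) * mat (Wt sl (aggP u Ψ)) T y y') h1 (by
      intro y _ y' _
      unfold mat
      simp only [(embL nL).injective.eq_iff, ← Finset.map_erase, hagg]
      split_ifs <;> simp)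
  exact h2.restrict (Finset.Subset.refl _)
    (Finset.prod_pos fun c _ => by exact_mod_cast (u c).factorial_pos) fun _ _ _ _ => rfl

variable {n : ℕ}

omit [Fintype C] in
theorem cnt_gset (cell : Fin n → C) (U : Option (Fin n) → Fin 3) (J : Finset (Option (Fin n)))
    (c : C) (b : Bool) : cnt (kind (Option.map cell)) (gset U J) (c, b)
      = (univ.filter fun j => some j ∈ J ∧ cell j = c ∧ decide (U (some j) = 1) = b).card := by
  unfold cnt
  symm
  refine Finset.card_bij (fun j _ => (some j, U (some j))) ?_ ?_ ?_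
  · intro j hj
    simp only [mem_filter, mem_univ, true_and] at hj
    simp [mem_gset, kind, hj]
  · intro j _ j' _ h
    simpa using (Prod.ext_iff.1 h).1
  · rintro ⟨a, x⟩ hy
    simp only [mem_filter, mem_gset] at hy
    cases a with
    | none => simp [kind] at hy
    | some j =>
      obtain ⟨⟨h1, h2⟩, h3⟩ := hy
      change x = U (some j) at h2
      subst h2
      refine ⟨j, ?_, rfl⟩
      simp only [kind, Option.map_some, Option.some.injEq, Prod.mk.injEq] at h3
      simp only [mem_filter, mem_univ, true_and]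
      exact ⟨h1, h3⟩

theorem sum_trw (cell : Fin n → C) (Q : C → ℕ)
    (hcell : ∀ c, (univ.filter fun j => cell j = c).card = Q c) (Ψ : (C → ℕ) → (C → ℕ) → ℝ)
    (g : (C → ℕ) → ℝ) :
    ∑ U, trw (Wt (Option.map cell) Ψ) U
        * g (cin (Option.map cell) (gset (extO 0 U) (univ.erase none)))
      = (∏ c, ((Q c).factorial : ℝ)) * ∑ s ∈ box Q, Ψ s (Q - s) * g s := by
  let L : List (Option (Fin n)) := (List.finRange n).map some
  have hL : L.Nodup := (List.nodup_finRange n).map (Option.some_injective _)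
  have hLs : L.toFinset = univ.erase none := by
    ext a; cases a <;> simp [L]
  have h1 := push (Option.map cell) (fun a b => Fw a b * Ψ a b * g a) L hL (by simp [L]) Q (by
      intro c
      simp only [L, List.countP_map]
      rw [← hcell c, ← countP_finRange]
      congr 1
      funext k
      simp) ∅ (by simp)
  rw [← sumOn_agg L hL, hLs] at h1
  have h2 := clsSum_eq_sumOn (fun S => Fw (cin (Option.map cell) S) (cout (Option.map cell) S)
    * Ψ (cin (Option.map cell) S) (cout (Option.map cell) S) * g (cin (Option.map cell) S)) none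
    fun _ => 1
  rw [clsSum_none] at h2
  simp only [mul_one, Finset.empty_union] at h1 h2
  rw [← h2] at h1
  refine Eq.trans h1 ?_
  rw [Finset.mul_sum]
  refine Finset.sum_congr rfl fun x hx => ?_
  have e1 : cin (Option.map cell) (∅ : Finset (Option (Fin n) × Fin 3)) = 0 := by
    funext c; simp [cin, cnt]
  have e2 : cout (Option.map cell) (∅ : Finset (Option (Fin n) × Fin 3)) = 0 := by
    funext c; simp [cout, cnt]
  have := Bn_Fw Q x 0 0 hx fun _ => Or.inr ⟨rfl, rfl⟩
  rw [e1, e2, ← mul_assoc, ← mul_assoc, this]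
  simp [Fw, mul_assoc]

theorem Fw_up_left (x y : C → ℕ) (c : C) : Fw (up x c) y = ((x c : ℝ) + 1) * Fw x y := by
  unfold Fw
  rw [← Finset.mul_prod_erase univ _ (mem_univ c), ← Finset.mul_prod_erase univ
    (fun c => ((x c).factorial : ℝ) * ((y c).factorial * (1 / 2) ^ y c)) (mem_univ c),
    Finset.prod_congr rfl fun e he => by rw [up_ne x (Finset.ne_of_mem_erase he)],
    up_self, Nat.factorial_succ]
  push_cast; ring

theorem Fw_up_right (x y : C → ℕ) (c : C) : Fw x (up y c) = ((y c : ℝ) + 1) / 2 * Fw x y := by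
  unfold Fw
  rw [← Finset.mul_prod_erase univ _ (mem_univ c), ← Finset.mul_prod_erase univ
    (fun c => ((x c).factorial : ℝ) * ((y c).factorial * (1 / 2) ^ y c)) (mem_univ c),
    Finset.prod_congr rfl fun e he => by rw [up_ne y (Finset.ne_of_mem_erase he)],
    up_self, Nat.factorial_succ]
  push_cast; ring

theorem ratio_Wt (cell : Fin n → C) (Q : C → ℕ)
    (hcell : ∀ c, (univ.filter fun j => cell j = c).card = Q c) (Ψ : (C → ℕ) → (C → ℕ) → ℝ)
    (hΨ : ∀ x y, 0 < Ψ x y) (Λ Qb : ℝ) (hΛ : 1 ≤ Λ) (hrat : Rat Ψ Λ) (hQ : ∀ c, (Q c : ℝ) ≤ Qb)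
    (hQb : 1 ≤ Qb) (U : Option (Fin n) → Fin 3) (j : Fin n) :
    cw (Wt (Option.map cell) Ψ) (some j) U ≤ 2 * Qb * Λ * cw (Wt (Option.map cell) Ψ) none U ∧
      cw (Wt (Option.map cell) Ψ) none U ≤ 2 * Qb * Λ * cw (Wt (Option.map cell) Ψ) (some j) U := by
  set S := (gset U (univ.erase none)).erase (some j, U (some j)) with hS
  have hmem : (some j, U (some j)) ∈ gset U (univ.erase none) := by simp [mem_gset]
  have e0 : gset U (univ.erase none) = insert (some j, U (some j)) S :=
    (Finset.insert_erase hmem).symm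
  have hn1 : (some j, U (some j)) ∉ S := Finset.notMem_erase _ _
  have hn2 : (none, U none) ∉ S := fun h => by
    simpa [mem_gset] using Finset.mem_of_mem_erase h
  have e1 : gset U (univ.erase (some j)) = insert (none, U none) S := by
    ext ⟨a, x⟩
    cases a with
    | none => simp [hS, mem_gset]
    | some k =>
      simp only [hS, mem_gset, mem_erase, mem_insert, mem_univ, Prod.mk.injEq, ne_eq,
        Option.some.injEq, reduceCtorEq, false_and, false_or, and_true, not_false_eq_true,
        true_and]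
      constructor
      · rintro ⟨h1, h2⟩; exact ⟨fun h => h1 h.1, h2⟩
      · rintro ⟨h1, h2⟩; exact ⟨fun h => h1 ⟨h, by rw [h2, h]⟩, h2⟩
  have c1 : cin (Option.map cell) (insert (none, U none) S) = cin (Option.map cell) S := by
    funext c; simp [cin, cnt_insert _ _ _ hn2, kind]
  have c2 : cout (Option.map cell) (insert (none, U none) S) = cout (Option.map cell) S := by
    funext c; simp [cout, cnt_insert _ _ _ hn2, kind]
  have c3 := cin_insert (Option.map cell) S (some j) (U (some j)) (cell j) rfl hn1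
  have c4 := cout_insert (Option.map cell) S (some j) (U (some j)) (cell j) rfl hn1
  have b : ∀ b, cnt (kind (Option.map cell)) (gset U (univ.erase none)) (cell j, b) ≤ Q (cell j) := by
    intro b
    rw [cnt_gset, ← hcell]
    exact Finset.card_le_card fun k hk => by
      simp only [mem_filter, mem_univ, true_and] at hk ⊢
      exact hk.2.1
  have b1 : cin (Option.map cell) (gset U (univ.erase none)) (cell j) ≤ Q (cell j) := b true
  have b2 : cout (Option.map cell) (gset U (univ.erase none)) (cell j) ≤ Q (cell j) := b false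
  unfold cw Wt
  rw [e0] at b1 b2
  rw [e1, e0, c1, c2]
  rw [c3] at b1 ⊢
  rw [c4] at b2 ⊢
  generalize cin (Option.map cell) S = x at *
  generalize cout (Option.map cell) S = y at *
  have hF := Fw_pos x y
  have hr := hrat x y (cell j)
  have p0 := hΨ x y
  have hq := hQ (cell j)
  split_ifs at b1 b2 ⊢
  · rw [Fw_up_left]
    rw [up_self] at b1
    have b3 : (x (cell j) : ℝ) + 1 ≤ Qb := le_trans (by exact_mod_cast b1) hq
    have p1 := hΨ (up x (cell j)) y
    have x0 : (0 : ℝ) ≤ x (cell j) := Nat.cast_nonneg _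
    constructor
    · calc _ ≤ Fw x y * (Λ * Ψ (up x (cell j)) y) := mul_le_mul_of_nonneg_left hr.2.1 hF.le
        _ = 1 * (Λ * Fw x y * Ψ (up x (cell j)) y) := by ring
        _ ≤ (2 * Qb * ((x (cell j) : ℝ) + 1)) * (Λ * Fw x y * Ψ (up x (cell j)) y) :=
            mul_le_mul_of_nonneg_right (by nlinarith) (by positivity)
        _ = _ := by ring
    · calc _ ≤ ((x (cell j) : ℝ) + 1) * Fw x y * (Λ * Ψ x y) :=
            mul_le_mul_of_nonneg_left hr.1 (by positivity)
        _ = ((x (cell j) : ℝ) + 1) * (Λ * Fw x y * Ψ x y) := by ring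
        _ ≤ (2 * Qb) * (Λ * Fw x y * Ψ x y) :=
            mul_le_mul_of_nonneg_right (by linarith) (by positivity)
        _ = _ := by ring
  · rw [Fw_up_right]
    rw [up_self] at b2
    have b3 : (y (cell j) : ℝ) + 1 ≤ Qb := le_trans (by exact_mod_cast b2) hq
    have p1 := hΨ x (up y (cell j))
    have x0 : (0 : ℝ) ≤ y (cell j) := Nat.cast_nonneg _
    constructor
    · calc _ ≤ Fw x y * (Λ * Ψ x (up y (cell j))) := mul_le_mul_of_nonneg_left hr.2.2.2 hF.le
        _ = 1 * (Λ * Fw x y * Ψ x (up y (cell j))) := by ring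
        _ ≤ (2 * Qb * (((y (cell j) : ℝ) + 1) / 2)) * (Λ * Fw x y * Ψ x (up y (cell j))) :=
            mul_le_mul_of_nonneg_right (by nlinarith) (by positivity)
        _ = _ := by ring
    · calc _ ≤ ((y (cell j) : ℝ) + 1) / 2 * Fw x y * (Λ * Ψ x y) :=
            mul_le_mul_of_nonneg_left hr.2.2.1 (by positivity)
        _ = ((y (cell j) : ℝ) + 1) / 2 * (Λ * Fw x y * Ψ x y) := by ring
        _ ≤ (2 * Qb) * (Λ * Fw x y * Ψ x y) :=
            mul_le_mul_of_nonneg_right (by linarith) (by positivity)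
        _ = _ := by ring

omit [Fintype C] in
theorem cin_extO (cell : Fin n → C) (U : Fin n → Fin 3) (c : C) :
    cin (Option.map cell) (gset (extO 0 U) (univ.erase none)) c
      = (univ.filter fun j => cell j = c ∧ U j = 1).card := by
  unfold cin
  rw [cnt_gset]
  congr 1
  ext j
  simp only [mem_filter, mem_univ, true_and, mem_erase, ne_eq, reduceCtorEq, not_false_eq_true]
  exact and_congr_right fun _ => decide_eq_true_iff

theorem sum_slot_diff (cell : Fin n → C) (U : Fin n → Fin 3) (f : (C → ℕ) → ℝ) :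
    ∑ j, (f (cin (Option.map cell) (gset (extO 0 (Function.update U j 0)) (univ.erase none)))
        - f (cin (Option.map cell) (gset (extO 0 U) (univ.erase none)))) ^ 2
      = ∑ c, (cin (Option.map cell) (gset (extO 0 U) (univ.erase none)) c : ℝ)
        * (f (dn (cin (Option.map cell) (gset (extO 0 U) (univ.erase none))) c)
          - f (cin (Option.map cell) (gset (extO 0 U) (univ.erase none)))) ^ 2 := by
  set a := cin (Option.map cell) (gset (extO 0 U) (univ.erase none)) with ha
  have h1 : ∀ j, cin (Option.map cell) (gset (extO 0 (Function.update U j 0)) (univ.erase none))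
      = if U j = 1 then dn a (cell j) else a := by
    intro j
    funext c
    have e : (univ.filter fun k => cell k = c ∧ Function.update U j 0 k = 1)
        = (univ.filter fun k => cell k = c ∧ U k = 1).erase j := by
      ext k
      by_cases hk : k = j
      · subst hk; simp
      · simp [hk]
    rw [cin_extO, e]
    split_ifs with h
    · by_cases hc : c = cell j
      · subst hc
        rw [dn_self, ha, cin_extO, Finset.card_erase_of_mem (by simp [h])]
      · rw [dn_ne _ hc, ha, cin_extO, Finset.erase_eq_of_notMem (by simp [Ne.symm hc])]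
    · rw [ha, cin_extO, Finset.erase_eq_of_notMem (by simp [h])]
  simp only [h1]
  rw [← Finset.sum_fiberwise (s := univ) (g := cell)]
  refine Finset.sum_congr rfl fun c _ => ?_
  rw [ha, cin_extO, ← ha, ← nsmul_eq_mul, ← Finset.sum_const, Finset.sum_filter, Finset.sum_filter]
  refine Finset.sum_congr rfl fun j _ => ?_
  by_cases h2 : cell j = c
  · subst h2
    by_cases h3 : U j = 1 <;> simp [h3]
  · simp [h2]

theorem marg_PI (Ψ : (C → ℕ) → (C → ℕ) → ℝ) (hΨ : ∀ x y, 0 < Ψ x y) (hloc : LocH Ψ) (Λ Qb : ℝ)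
    (hΛ : 1 ≤ Λ) (hrat : Rat Ψ Λ) (Q u : C → ℕ) (hd : ∀ c, Q c = 0 ∨ u c = 0)
    (hQ : ∀ c, (Q c : ℝ) ≤ Qb) (hQb : 1 ≤ Qb) :
    PI Q (fun s => aggP u Ψ s (Q - s))
      (324 * (2 * Qb * Λ) ^ 6 * (((∑ c, Q c : ℕ) : ℝ) + 1) ^ 3 * (Qb * Λ ^ 2)) := by
  intro f
  obtain ⟨cell, hcell⟩ := exists_cell Q
  have hp := aggP_pos u Ψ hΨ
  have hr := hrat.aggP u
  obtain ⟨m, hm⟩ := slot_PI (2 * Qb * Λ) (by nlinarith) _ (Wt (Option.map cell) (aggP u Ψ))
    (fun S _ => mul_pos (Fw_pos _ _) (hp _ _))
    (fun T hT => hyp_aggP _ Ψ hΨ hloc u (by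
      intro i c h
      refine (hd c).resolve_left fun h0 => ?_
      obtain ⟨j, _, hj⟩ := Option.map_eq_some_iff.1 h
      have := hcell c
      rw [h0, Finset.card_eq_zero, Finset.filter_eq_empty_iff] at this
      exact this (mem_univ j) hj) T _ hT)
    (ratio_Wt cell Q hcell _ hp Λ Qb hΛ hr hQ hQb)
    fun U => f (cin (Option.map cell) (gset (extO 0 U) (univ.erase none)))
  refine ⟨m, ?_⟩
  unfold sen at hm
  simp only [sum_slot_diff] at hm
  rw [sum_trw cell Q hcell _ fun s => (f s - m) ^ 2,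
    sum_trw cell Q hcell _ fun s => ∑ c, (s c : ℝ) * (f (dn s c) - f s) ^ 2] at hm
  have hc : 0 < ∏ c, ((Q c).factorial : ℝ) :=
    Finset.prod_pos fun c _ => by exact_mod_cast (Q c).factorial_pos
  have h1 : ∑ s ∈ box Q, aggP u Ψ s (Q - s) * ∑ c, (s c : ℝ) * (f (dn s c) - f s) ^ 2
      ≤ Qb * Λ ^ 2 * en Q (fun s => aggP u Ψ s (Q - s)) f := by
    unfold en
    simp only [Finset.mul_sum]
    rw [Finset.sum_comm, Finset.sum_comm (s := box Q)]
    refine Finset.sum_le_sum fun c _ => ?_
    have h2 := sum_shift Q c fun s => aggP u Ψ s (Q - s) * (Qb * (f (dn s c) - f s) ^ 2)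
    calc _ ≤ ∑ s ∈ box Q, (if 0 < s c then
          aggP u Ψ s (Q - s) * (Qb * (f (dn s c) - f s) ^ 2) else 0) := by
          refine Finset.sum_le_sum fun s hs => ?_
          split_ifs with h
          · refine mul_le_mul_of_nonneg_left (mul_le_mul_of_nonneg_right ?_ (sq_nonneg _))
              (hp _ _).le
            exact le_trans (by exact_mod_cast mem_box.1 hs c) (hQ c)
          · have : s c = 0 := by omega
            simp [this]
      _ = _ := h2
      _ ≤ _ := by
          refine Finset.sum_le_sum fun z _ => ?_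
          unfold gr
          split_ifs with h
          · have e : Q - z = up (Q - up z c) c := by
              funext e
              simp only [Pi.sub_apply, up_apply]
              split_ifs with he
              · subst he; omega
              · omega
            have a1 := (hr z (Q - up z c) c).1
            have a2 := (hr z (Q - up z c) c).2.2.2
            rw [← e] at a2
            have a3 : aggP u Ψ (up z c) (Q - up z c) ≤ Λ ^ 2 * aggP u Ψ z (Q - z) := by
              nlinarith
            rw [dn_up]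
            calc _ ≤ Λ ^ 2 * aggP u Ψ z (Q - z) * (Qb * (f z - f (up z c)) ^ 2) :=
                  mul_le_mul_of_nonneg_right a3 (by positivity)
              _ = _ := by ring
          · simp
  refine le_of_mul_le_mul_left (hm.trans ?_) hc
  have h3 := mul_le_mul_of_nonneg_left h1 (show 0 ≤ 324 * (2 * Qb * Λ) ^ 6
    * (((∑ c, Q c : ℕ) : ℝ) + 1) ^ 3 * ∏ c, ((Q c).factorial : ℝ) by positivity)
  calc _ = _ := by ring
    _ ≤ _ := h3
    _ = _ := by ring

end Vale.Agent.P328b
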