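import Vale.Agent.P328b.Spec

/-! Arithmetic of the parameters. -/

namespace Vale.Agent.P328b

open Finset

section scalar

variable {P T : ℕ}

theorem ww_pos (hP : 4 ≤ P) : 0 < ww P T := by
  unfold ww
  split_ifs with h
  · exact one_pos
  · exact Nat.div_pos (by omega) (by positivity)

theorem ww_ge (hP : 4 ≤ P) (h : 2 * P ^ 6 ≤ T) : T ≤ 4 * P ^ 6 * ww P T := by
  have h1 := ww_pos (T := T) hP
  unfold ww at *
  rw [if_neg (by omega)] at *
  have h2 : T < 2 * P ^ 6 * (T / (2 * P ^ 6) + 1) := Nat.lt_mul_div_succ _ (by positivity)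
  nlinarith

theorem ww_le (h : 2 * P ^ 6 ≤ T) : 2 * P ^ 6 * ww P T ≤ T := by
  unfold ww
  rw [if_neg (by omega)]
  exact Nat.mul_div_le _ _

theorem div_ww_le (hP : 4 ≤ P) {s : ℕ} (hs : s ≤ P ^ 3 * T) : s / ww P T ≤ P ^ 11 := by
  refine Nat.div_le_of_le_mul ?_
  have e : P ^ 11 = P ^ 3 * (P ^ 2 * P ^ 6) := by ring
  have h2 : 16 ≤ P ^ 2 := by nlinarith
  by_cases h : T < 2 * P ^ 6
  · have : ww P T = 1 := if_pos h
    rw [this, one_mul, e]
    refine hs.trans (Nat.mul_le_mul_left _ (h.le.trans (Nat.mul_le_mul_right _ (by omega))))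
  · have h3 := ww_ge hP (not_lt.1 h)
    rw [e, mul_left_comm]
    refine hs.trans (Nat.mul_le_mul_left _ (h3.trans ?_))
    rw [mul_comm]
    exact Nat.mul_le_mul_left _ (Nat.mul_le_mul_right _ (by omega))

theorem bb_pos (hP : 4 ≤ P) : 0 < bb P T := by
  unfold bb; split_ifs <;> omega

theorem bb_le_aa : bb P T ≤ aa P T := by
  unfold bb aa; split_ifs <;> omega

theorem aa_le (hP : 4 ≤ P) : aa P T ≤ P ^ 5 + 1 := by
  have : P ≤ P ^ 5 := Nat.le_self_pow (by norm_num) P
  unfold aa; split_ifs <;> omega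

theorem pw_pos {a b J j : ℕ} (hb : 0 < b) (hab : b ≤ a) : 0 < pw a b J j := by
  have : 0 < a := by omega
  unfold pw; positivity

theorem pw_succ_le {a b J j : ℕ} (hb : 0 < b) (hab : b ≤ a) :
    pw a b J (j + 1) ≤ a * pw a b J j := by
  unfold pw
  rw [← mul_assoc, ← pow_succ']
  exact Nat.mul_le_mul (Nat.pow_le_pow_right (by omega) (by omega))
    (Nat.pow_le_pow_right hb (by omega))

theorem pw_le_succ {a b J j : ℕ} (hab : b ≤ a) : pw a b J j ≤ pw a b J (j + 1) := by
  unfold pw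
  by_cases h : j < J
  · rw [min_eq_left h.le, min_eq_left (by omega : j + 1 ≤ J),
      show J - j = (J - (j + 1)) + 1 by omega, pow_succ, pow_succ, mul_assoc, mul_comm a]
    exact Nat.mul_le_mul_left _ (Nat.mul_le_mul_left _ hab)
  · rw [min_eq_right (by omega), min_eq_right (by omega), show J - j = J - (j + 1) by omega]

theorem pw_mono {a b J : ℕ} (hab : b ≤ a) : Monotone (pw a b J) :=
  monotone_nat_of_le_succ fun _ => pw_le_succ hab

theorem pw_le {a b J j : ℕ} (hab : b ≤ a) : pw a b J j ≤ a ^ J := by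
  have := pw_mono (J := J) hab (le_max_left j J)
  refine this.trans (le_of_eq ?_)
  unfold pw
  rw [min_eq_right (le_max_right _ _), Nat.sub_eq_zero_of_le (le_max_right _ _), pow_zero, mul_one]

theorem VV_pos (hP : 4 ≤ P) (s : ℕ) : 0 < VV P T s :=
  Nat.add_pos_right _ (pw_pos (bb_pos hP) bb_le_aa)

theorem VV_le (hP : 4 ≤ P) {s s' : ℕ} (h : s' ≤ s + ww P T) :
    VV P T s' ≤ (P ^ 5 + 1) * VV P T s := by
  have h1 : s' / ww P T ≤ s / ww P T + 1 := by
    rw [← Nat.add_div_right _ (ww_pos hP)]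
    exact Nat.div_le_div_right h
  have h2 := (pw_mono (J := P ^ 11) (bb_le_aa (P := P) (T := T)) h1).trans
    (pw_succ_le (bb_pos hP) bb_le_aa)
  have h3 := Nat.mul_le_mul_right (pw (aa P T) (bb P T) (P ^ 11) (s / ww P T)) (aa_le (T := T) hP)
  unfold VV
  rw [mul_add]
  exact Nat.add_le_add (Nat.le_mul_of_pos_left _ (Nat.succ_pos _)) (h2.trans h3)

theorem VV_lt (hP : 4 ≤ P) (s s' : ℕ) : VV P T s + VV P T s' < 2 ^ P ^ 14 := by
  have h1 : P + 1 ≤ 2 ^ P := Nat.lt_two_pow_self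
  have h2 : aa P T ≤ 2 ^ (P * 5) := by
    refine (aa_le hP).trans ?_
    rw [pow_mul]
    exact (Nat.pow_lt_pow_left Nat.lt_two_pow_self (by norm_num))
  have h3 : aa P T ^ P ^ 11 ≤ 2 ^ (P * 5 * P ^ 11) := by
    rw [pow_mul 2 (P * 5)]
    exact Nat.pow_le_pow_left h2 _
  have h4 : ∀ s, VV P T s ≤ 2 ^ P * 2 ^ (P * 5 * P ^ 11) := fun s => by
    have a := (pw_le (J := P ^ 11) (j := 0) (bb_le_aa (P := P) (T := T))).trans h3
    have b := (pw_le (J := P ^ 11) (j := s / ww P T) (bb_le_aa (P := P) (T := T))).trans h3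
    unfold VV
    calc _ ≤ P * 2 ^ (P * 5 * P ^ 11) + 2 ^ (P * 5 * P ^ 11) :=
          Nat.add_le_add (Nat.mul_le_mul_left _ a) b
      _ = (P + 1) * 2 ^ (P * 5 * P ^ 11) := by ring
      _ ≤ _ := Nat.mul_le_mul_right _ h1
  have h5 : P + P * 5 * P ^ 11 + 1 < P ^ 14 := by
    have a : P ≤ P ^ 12 := Nat.le_self_pow (by norm_num) P
    have b : 16 ≤ P ^ 2 := by nlinarith
    have c : 16 * P ^ 12 ≤ P ^ 2 * P ^ 12 := Nat.mul_le_mul_right _ b
    have d : P * 5 * P ^ 11 = 5 * P ^ 12 := by ring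
    have e : P ^ 14 = P ^ 2 * P ^ 12 := by ring
    omega
  have := h4 s
  have := h4 s'
  calc _ ≤ 2 ^ (P + P * 5 * P ^ 11 + 1) := by rw [pow_succ, pow_add]; omega
    _ < _ := Nat.pow_lt_pow_right (by norm_num) h5

/-- Slope of the penalty. -/
noncomputable def sig (P T : ℕ) : ℝ := Real.log (aa P T / bb P T) / ww P T

theorem one_le_ratio (hP : 4 ≤ P) : (1 : ℝ) ≤ aa P T / bb P T := by
  rw [one_le_div (by exact_mod_cast bb_pos hP)]
  exact_mod_cast bb_le_aa

theorem sig_nonneg (hP : 4 ≤ P) : 0 ≤ sig P T :=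
  div_nonneg (Real.log_nonneg (one_le_ratio hP)) (Nat.cast_nonneg _)

theorem sig_mul (hP : 4 ≤ P) : sig P T * ww P T = Real.log (aa P T / bb P T) :=
  div_mul_cancel₀ _ (by exact_mod_cast (ww_pos hP).ne')

theorem exp_sig_le (hP : 4 ≤ P) : Real.exp (sig P T) ≤ (P : ℝ) ^ 6 := by
  have h1 : (1 : ℝ) ≤ ww P T := by exact_mod_cast ww_pos hP
  have h2 : sig P T ≤ Real.log (aa P T / bb P T) := by
    rw [← sig_mul hP]; exact le_mul_of_one_le_right (sig_nonneg hP) h1
  have h3 := one_le_ratio (T := T) hP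
  refine (Real.exp_le_exp.2 h2).trans ?_
  rw [Real.exp_log (by linarith)]
  refine (div_le_self (Nat.cast_nonneg _) (by exact_mod_cast bb_pos hP)).trans ?_
  have h4 : aa P T ≤ P ^ 6 := by
    have := aa_le (T := T) hP
    have a : 1 ≤ P ^ 5 := Nat.one_le_pow _ _ (by omega)
    have b : 4 * P ^ 5 ≤ P * P ^ 5 := Nat.mul_le_mul_right _ hP
    rw [pow_succ']
    omega
  exact_mod_cast h4

theorem log_big (hP : 4 ≤ P) (h : 2 * P ^ 6 ≤ T) :
    sig P T * ww P T ≤ 1 / P ∧ 1 / (2 * P) ≤ sig P T * ww P T := by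
  have hP' : (4 : ℝ) ≤ P := by exact_mod_cast hP
  rw [sig_mul hP]
  unfold aa bb
  rw [if_neg (by omega), if_neg (by omega)]
  push_cast
  have p : (0 : ℝ) < (P + 1) / P := by positivity
  constructor
  · refine (Real.log_le_sub_one_of_pos p).trans (le_of_eq ?_)
    field_simp; ring
  · refine le_trans ?_ (Real.one_sub_inv_le_log_of_pos p)
    rw [inv_div, one_sub_div (by positivity), div_le_div_iff₀ (by positivity) (by positivity)]
    nlinarith

theorem sig_ww (hP : 4 ≤ P) : sig P T * (ww P T - 1) ≤ 1 / P := by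
  by_cases h : T < 2 * P ^ 6
  · have : ww P T = 1 := if_pos h
    rw [this]; simp
  · have := (log_big hP (not_lt.1 h)).1
    have := sig_nonneg (T := T) hP
    linarith

theorem sig_big (hP : 4 ≤ P) (h : 2 * P ^ 6 ≤ T) : sig P T * T ≤ 4 * (P : ℝ) ^ 5 := by
  have hP' : (4 : ℝ) ≤ P := by exact_mod_cast hP
  have h1 : (T : ℝ) ≤ 4 * P ^ 6 * ww P T := by exact_mod_cast ww_ge hP h
  have h2 := (log_big hP h).1
  calc _ ≤ sig P T * (4 * P ^ 6 * ww P T) := mul_le_mul_of_nonneg_left h1 (sig_nonneg hP)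
    _ = 4 * P ^ 6 * (sig P T * ww P T) := by ring
    _ ≤ 4 * P ^ 6 * (1 / P) := mul_le_mul_of_nonneg_left h2 (by positivity)
    _ = _ := by field_simp

theorem sig_count (hP : 4 ≤ P) (hT : 1 ≤ T) : (P : ℝ) ^ 5 ≤ T * (Real.exp (sig P T) - 1) := by
  have hP' : (4 : ℝ) ≤ P := by exact_mod_cast hP
  have hT' : (1 : ℝ) ≤ T := by exact_mod_cast hT
  by_cases h : T < 2 * P ^ 6
  · have : Real.exp (sig P T) - 1 = P ^ 5 := by
      unfold sig ww aa bb
      simp only [h, if_true]
      push_cast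
      rw [div_one, div_one, Real.exp_log (by positivity)]
      ring
    rw [this]
    exact le_mul_of_one_le_left (by positivity) hT'
  · have h1 : (2 : ℝ) * P ^ 6 * ww P T ≤ T := by exact_mod_cast ww_le (not_lt.1 h)
    have h2 := (log_big hP (not_lt.1 h)).2
    have h3 := Real.add_one_le_exp (sig P T)
    calc (P : ℝ) ^ 5 = 2 * P ^ 6 * (1 / (2 * P)) := by field_simp
      _ ≤ 2 * P ^ 6 * (sig P T * ww P T) := mul_le_mul_of_nonneg_left h2 (by positivity)
      _ = 2 * P ^ 6 * ww P T * sig P T := by ring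
      _ ≤ T * sig P T := mul_le_mul_of_nonneg_right h1 (sig_nonneg hP)
      _ ≤ _ := mul_le_mul_of_nonneg_left (by linarith) (by positivity)

theorem VV_real (hP : 4 ≤ P) {s : ℕ} (hs : s ≤ P ^ 3 * T) :
    (VV P T s : ℝ) = (bb P T : ℝ) ^ P ^ 11
      * (P + Real.exp (sig P T * (ww P T * (s / ww P T : ℕ)))) := by
  have h := div_ww_le hP hs
  have hb : (0 : ℝ) < bb P T := by exact_mod_cast bb_pos hP
  have h3 := one_le_ratio (T := T) hP
  rw [← mul_assoc, sig_mul hP, mul_comm (Real.log _), Real.exp_nat_mul,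
    Real.exp_log (by linarith)]
  unfold VV pw
  generalize s / ww P T = j at *
  obtain ⟨k, hk⟩ := Nat.exists_eq_add_of_le h
  rw [min_eq_left h, hk]
  simp only [Nat.zero_min, pow_zero, one_mul, Nat.sub_zero, Nat.add_sub_cancel_left]
  push_cast
  rw [div_pow]
  field_simp
  ring

/-- One factor of the comparison between the integer penalty and the smooth one. -/
theorem factor_cmp (hP : 4 ≤ P) {s : ℕ} (hs : s ≤ P ^ 3 * T) (t : ℤ) (D : ℕ) (e : ℝ)
    (he : sig P T * D ≤ e) (h1 : t ≤ s + D) (h2 : 0 < s → s ≤ t) :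
    (bb P T : ℝ) ^ P ^ 11 * (VV P T s : ℝ)⁻¹
        ≤ Real.exp (1 / P + e) * (P + Real.exp (sig P T * t))⁻¹ ∧
      (P + Real.exp (sig P T * t))⁻¹
        ≤ Real.exp (1 / P + e) * ((bb P T : ℝ) ^ P ^ 11 * (VV P T s : ℝ)⁻¹) := by
  have hP' : (4 : ℝ) ≤ P := by exact_mod_cast hP
  have hb : (0 : ℝ) < bb P T := by exact_mod_cast bb_pos hP
  have hσ := sig_nonneg (T := T) hP
  have he0 : 0 ≤ e := le_trans (by positivity) he
  rw [VV_real hP hs, mul_inv, ← mul_assoc ((bb P T : ℝ) ^ P ^ 11),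
    mul_inv_cancel₀ (by positivity), one_mul]
  by_cases ht : 0 ≤ t
  · have a1 : ww P T * (s / ww P T) ≤ s := Nat.mul_div_le _ _
    have a2 : s < ww P T * (s / ww P T) + ww P T := by
      rw [← Nat.mul_succ]; exact Nat.lt_mul_div_succ _ (ww_pos hP)
    have a3 : ((ww P T * (s / ww P T) : ℕ) : ℤ) ≤ t := by omega
    have a4 : t - (ww P T * (s / ww P T) : ℕ) ≤ (ww P T - 1 : ℤ) + D := by omega
    have a5 : |sig P T * (ww P T * (s / ww P T : ℕ)) - sig P T * t| ≤ 1 / P + e := by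
      have b3 := (Int.cast_le (R := ℝ)).2 a3
      have b4 := (Int.cast_le (R := ℝ)).2 a4
      simp only [Int.cast_natCast, Int.cast_sub, Int.cast_add, Int.cast_one] at b3 b4
      rw [Nat.cast_mul] at b3 b4
      have b5 := mul_le_mul_of_nonneg_left b4 hσ
      have b6 := mul_le_mul_of_nonneg_left b3 hσ
      have := sig_ww (T := T) hP
      rw [abs_sub_comm, abs_of_nonneg (by linarith)]
      linarith
    exact ⟨inv_add_exp_le (by linarith) _ _ _ a5,
      inv_add_exp_le (by linarith) _ _ _ (by rwa [abs_sub_comm])⟩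
  · have hs0 : s = 0 := by omega
    subst hs0
    have a1 : Real.exp (sig P T * t) ≤ 1 := Real.exp_le_one_iff.2
      (mul_nonpos_of_nonneg_of_nonpos hσ (by exact_mod_cast (not_le.1 ht).le))
    have a2 := Real.exp_pos (sig P T * t)
    have a3 := Real.add_one_le_exp (1 / P + e)
    have a4 : (0 : ℝ) < 1 / P := by positivity
    simp only [Nat.zero_div, Nat.cast_zero, mul_zero, Real.exp_zero]
    constructor
    · refine le_trans (inv_anti₀ (by positivity) (by linarith))
        (le_mul_of_one_le_left (by positivity) (by linarith))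
    · have b1 : (P + Real.exp (sig P T * t))⁻¹ ≤ (P : ℝ)⁻¹ :=
        inv_anti₀ (by positivity) (by linarith)
      have b2 : (1 / P + 1 : ℝ) * ((P : ℝ) + 1)⁻¹ ≤ Real.exp (1 / P + e) * ((P : ℝ) + 1)⁻¹ :=
        mul_le_mul_of_nonneg_right (by linarith) (by positivity)
      refine b1.trans (le_trans (le_of_eq ?_) b2)
      field_simp
      ring

end scalar

variable {m n : ℕ}

theorem mn_le : m * n ≤ par m n ^ 2 := by unfold par; nlinarith

theorem card_cell : Fintype.card (Fin m × Fin n) = m * n := by simp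

theorem card_Vx : Fintype.card (Vx m n) ≤ par m n := by simp [par]

/-- The constraint `v` involves the cell `e`. -/
def inci (v : Vx m n) (e : Fin m × Fin n) : Prop :=
  v = none ∨ v = some (.inl e.1) ∨ v = some (.inr e.2)

theorem inc_eq_zero {v : Vx m n} {e : Fin m × Fin n} (h : ¬ inci v e) : inc v e = 0 := by
  unfold inci at h
  rcases v with _ | i | j
  · simp at h
  · exact if_neg fun h' => h (by simp [h'])
  · exact if_neg fun h' => h (by simp [h'])

theorem abs_inc_le (v : Vx m n) (e : Fin m × Fin n) : |inc v e| ≤ 1 := by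
  rcases v with _ | i | j <;> simp only [inc]
  · simp
  · split_ifs <;> simp
  · split_ifs <;> simp

theorem min_lt_aux {m n : ℕ} (hm : 0 < m) (hn : 0 < n) (a b : ℕ) :
    min (m * a) (n * b) < m * n * (min (a / n) (b / m) + 1) := by
  have h1 : a < n * (a / n + 1) := Nat.lt_mul_div_succ _ hn
  have h2 : b < m * (b / m + 1) := Nat.lt_mul_div_succ _ hm
  rcases le_total (a / n) (b / m) with h | h
  · rw [min_eq_left h, mul_assoc]
    exact (min_le_left _ _).trans_lt (Nat.mul_lt_mul_of_pos_left h1 hm)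
  · rw [min_eq_right h, mul_comm m n, mul_assoc]
    exact (min_le_right _ _).trans_lt (Nat.mul_lt_mul_of_pos_left h2 hn)

namespace Inst

variable (I : Inst m n)

include I in
theorem four_le : 4 ≤ par m n := by
  have := I.i0.pos
  have := I.j0.pos
  unfold par; omega

theorem TT_pos (v : Vx m n) : 1 ≤ I.TT v := by
  rcases v with _ | i | j <;> exact Nat.succ_pos _

theorem dd_pos (e : Fin m × Fin n) : 0 < I.dd e := Nat.two_pow_pos _

theorem uu_lt (h : I.Ok) {v : Vx m n} {e : Fin m × Fin n} (hv : inci v e) :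
    I.uu e < par m n ^ 2 * I.TT v := by
  have hm := I.i0.pos
  have hn := I.j0.pos
  have a1 := h.r_le e.1
  have a2 := h.c_le e.2
  have key : ∀ a b, I.r e.1 ≤ a → I.c e.2 ≤ b →
      I.uu e < par m n ^ 2 * (min (a / n) (b / m) + 1) := by
    intro a b ha hb
    have b1 := min_lt_aux hm hn a b
    have b2 : a ≤ m * a := Nat.le_mul_of_pos_left _ hm
    have b3 : b ≤ n * b := Nat.le_mul_of_pos_left _ hn
    have b4 := Nat.mul_le_mul_right (min (a / n) (b / m) + 1) (mn_le (m := m) (n := n))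
    have b5 : I.uu e ≤ min (I.r e.1) (I.c e.2) := by unfold uu; split_ifs <;> omega
    omega
  rcases hv with rfl | rfl | rfl
  · exact key _ _ a1 a2
  · exact key _ _ le_rfl a2
  · exact key _ _ a1 le_rfl

theorem dd_le {e : Fin m × Fin n} (he : I.dd e ≠ 1) : par m n ^ 25 * I.dd e ≤ 2 * I.uu e := by
  unfold dd kk at *
  have h1 : 0 < Nat.size (I.uu e / par m n ^ 25) := by
    by_contra h
    exact he (by rw [show Nat.size (I.uu e / par m n ^ 25) = 0 by omega]; rfl)
  have h2 : 2 ^ (Nat.size (I.uu e / par m n ^ 25) - 1) ≤ I.uu e / par m n ^ 25 :=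
    Nat.lt_size.1 (by omega)
  have h3 : par m n ^ 25 * (I.uu e / par m n ^ 25) ≤ I.uu e := Nat.mul_div_le _ _
  have h4 := Nat.mul_le_mul_left (par m n ^ 25) h2
  rw [show Nat.size (I.uu e / par m n ^ 25) = Nat.size (I.uu e / par m n ^ 25) - 1 + 1 by omega,
    pow_succ 2, ← mul_assoc]
  omega

theorem QQ_le (e : Fin m × Fin n) : I.QQ e ≤ par m n ^ 25 := by
  have h1 : I.uu e / par m n ^ 25 < I.dd e := Nat.lt_size_self _
  have hP := I.four_le
  rw [Nat.div_lt_iff_lt_mul (by positivity)] at h1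
  exact Nat.div_le_of_le_mul h1.le

theorem dd_big (h : I.Ok) {v : Vx m n} {e : Fin m × Fin n} (hv : inci v e) (he : I.dd e ≠ 1) :
    par m n ^ 23 * I.dd e ≤ 2 * I.TT v ∧ 2 * par m n ^ 6 ≤ I.TT v := by
  have hP := I.four_le
  have h1 := I.dd_le he
  have h2 := I.uu_lt h hv
  have h3 : par m n ^ 23 * I.dd e ≤ 2 * I.TT v := by
    refine Nat.le_of_mul_le_mul_left (c := par m n ^ 2) ?_ (by positivity)
    calc _ = par m n ^ 25 * I.dd e := by ring
      _ ≤ 2 * (par m n ^ 2 * I.TT v) := by omega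
      _ = _ := by ring
  refine ⟨h3, ?_⟩
  have h4 := I.dd_pos e
  have h5 : par m n ^ 23 * 2 ≤ par m n ^ 23 * I.dd e := Nat.mul_le_mul_left _ (by omega)
  have h6 : par m n ^ 7 ≤ par m n ^ 23 := Nat.pow_le_pow_right (by omega) (by norm_num)
  have h7 : 4 * par m n ^ 6 ≤ par m n * par m n ^ 6 := Nat.mul_le_mul_right _ hP
  rw [show par m n * par m n ^ 6 = par m n ^ 7 by ring] at h7
  omega

theorem dd_le_ww (h : I.Ok) {v : Vx m n} {e : Fin m × Fin n} (hv : inci v e) :
    I.dd e ≤ ww (par m n) (I.TT v) := by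
  have hP := I.four_le
  by_cases he : I.dd e = 1
  · rw [he]; exact ww_pos hP
  · obtain ⟨h1, h2⟩ := I.dd_big h hv he
    have h3 := ww_ge hP h2
    refine Nat.le_of_mul_le_mul_left (c := par m n ^ 23) ?_ (by positivity)
    have h4 : 8 * par m n ^ 6 ≤ par m n ^ 23 := by
      have a : 8 ≤ par m n ^ 2 := by nlinarith
      calc _ ≤ par m n ^ 2 * par m n ^ 6 := Nat.mul_le_mul_right _ a
        _ = par m n ^ 8 := by ring
        _ ≤ _ := Nat.pow_le_pow_right (by omega) (by norm_num)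
    have h5 := Nat.mul_le_mul_right (ww (par m n) (I.TT v)) h4
    rw [mul_assoc] at h3 h5
    omega

/-- Slopes. -/
noncomputable def sg (v : Vx m n) : ℝ := sig (par m n) (I.TT v)

theorem sg_dd (h : I.Ok) (v : Vx m n) (e : Fin m × Fin n) (he : I.dd e ≠ 1) :
    |I.sg v * inc v e| * I.dd e ≤ 1 / (par m n : ℝ) ^ 16 := by
  have hP := I.four_le
  have hP' : (4 : ℝ) ≤ par m n := by exact_mod_cast hP
  by_cases hv : inci v e
  · obtain ⟨h1, h2⟩ := I.dd_big h hv he
    have h3 := sig_big hP h2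
    have h4 : (par m n : ℝ) ^ 23 * I.dd e ≤ 2 * I.TT v := by exact_mod_cast h1
    have h5 : 0 ≤ I.sg v := sig_nonneg hP
    have h6 : |I.sg v * inc v e| ≤ I.sg v := by
      rw [abs_mul, abs_of_nonneg h5]; exact mul_le_of_le_one_right h5 (abs_inc_le v e)
    refine (mul_le_mul_of_nonneg_right h6 (Nat.cast_nonneg _)).trans ?_
    rw [le_div_iff₀ (by positivity)]
    refine le_of_mul_le_mul_right (a := (par m n : ℝ) ^ 7) ?_ (by positivity)
    calc _ = I.sg v * ((par m n : ℝ) ^ 23 * I.dd e) := by ring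
      _ ≤ I.sg v * (2 * I.TT v) := mul_le_mul_of_nonneg_left h4 h5
      _ ≤ 8 * (par m n : ℝ) ^ 5 := by unfold sg; linarith
      _ ≤ (par m n : ℝ) ^ 2 * (par m n : ℝ) ^ 5 :=
          mul_le_mul_of_nonneg_right (by nlinarith) (by positivity)
      _ = _ := by ring
  · rw [inc_eq_zero hv]; simp

theorem sc_le {q : Fin m × Fin n → ℕ} (hq : q ∈ box I.QQ) (e : Fin m × Fin n) :
    I.sc q e ≤ I.uu e :=
  (Nat.mul_le_mul_left _ (mem_box.1 hq e)).trans (Nat.mul_div_le _ _)

theorem tot_lt (h : I.Ok) : I.tot < par m n ^ 2 * I.TT none := by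
  have b1 := min_lt_aux I.i0.pos I.j0.pos (I.r I.i0) (I.c I.j0)
  have b2 : I.tot ≤ m * I.r I.i0 := by
    have := Finset.sum_le_card_nsmul univ I.r _ fun i _ => h.r_le i
    simpa [tot] using this
  have b3 : I.tot ≤ n * I.c I.j0 := by
    have := Finset.sum_le_card_nsmul univ I.c _ fun i _ => h.c_le i
    unfold tot
    rw [h.sum_eq]
    simpa using this
  have b4 := Nat.mul_le_mul_right (I.TT none) (mn_le (m := m) (n := n))
  have e : I.TT none = min (I.r I.i0 / n) (I.c I.j0 / m) + 1 := rfl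
  rw [e] at b4 ⊢
  omega

theorem viol_le (h : I.Ok) {q : Fin m × Fin n → ℕ} (hq : q ∈ box I.QQ) (v : Vx m n) :
    I.viol (I.sc q) v ≤ par m n ^ 3 * I.TT v := by
  have hP := I.four_le
  have e : par m n ^ 3 * I.TT v = par m n * (par m n ^ 2 * I.TT v) := by ring
  rw [e]
  rcases v with _ | i | j
  · have := I.tot_lt h
    have h2 : par m n ^ 2 * I.TT none ≤ par m n * (par m n ^ 2 * I.TT none) :=
      Nat.le_mul_of_pos_left _ (by omega)
    simp only [viol]
    omega
  · have := Finset.sum_le_card_nsmul univ (fun j => I.sc q (i, j)) _ fun j _ =>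
      (I.sc_le hq (i, j)).trans (I.uu_lt h (v := some (.inl i)) (Or.inr (Or.inl rfl))).le
    simp only [card_univ, Fintype.card_fin, smul_eq_mul] at this
    exact (Nat.sub_le _ _).trans (this.trans (Nat.mul_le_mul_right _ (by unfold par; omega)))
  · have := Finset.sum_le_card_nsmul univ (fun i => I.sc q (i, j)) _ fun i _ =>
      (I.sc_le hq (i, j)).trans (I.uu_lt h (v := some (.inr j)) (Or.inr (Or.inr rfl))).le
    simp only [card_univ, Fintype.card_fin, smul_eq_mul] at this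
    exact (Nat.sub_le _ _).trans (this.trans (Nat.mul_le_mul_right _ (by unfold par; omega)))

end Inst

end Vale.Agent.P328b
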