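import Vale.Agent.P328b.Fill

/-! Correctness of the functional sampler. -/

namespace Vale.Agent.P328b

open Finset Vale.Agent.P317

attribute [local irreducible] par

theorem abs_E_le {α : Type} (t : P317.Rand α) {f : α → ℝ} {c : ℝ} (h : ∀ a, |f a| ≤ c) :
    |t.E f| ≤ c := by
  refine abs_le.2 ⟨?_, t.E_le_const fun a => (abs_le.1 (h a)).2⟩
  have := t.E_mono (f := fun _ => -c) (g := f) fun a => (abs_le.1 (h a)).1
  rwa [P317.Rand.E_const] at this

theorem E_eq_sum_prob {α : Type} (t : P317.Rand α) (S : Finset α) (ht : t.All (· ∈ S))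
    (σ : α → ℝ) : t.E σ = ∑ X ∈ S, σ X * t.prob (· = X) := by
  classical
  simp only [P317.Rand.prob_eq_E, ← P317.Rand.E_const_mul, ← P317.Rand.E_sum]
  refine le_antisymm (P317.Rand.E_mono_All ht fun a ha => le_of_eq ?_)
    (P317.Rand.E_mono_All ht fun a ha => le_of_eq ?_) <;> simp [ha]

theorem All_any {α β : Type} {q : β → Prop} {t : P317.Rand α} {g : α → P317.Rand β}
    (hg : ∀ a, (g a).All q) : (t.bind g).All q :=
  P317.Rand.All_bind (P317.Rand.All_of_forall (p := fun _ => True) (fun _ => trivial) t)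
    fun a _ => hg a

variable {m n : ℕ}

namespace Inst

variable (I : Inst m n)

theorem step_All {q : Fin m × Fin n → ℕ} (hq : q ∈ box I.QQ) : (I.step q).All (· ∈ box I.QQ) := by
  have t : ∀ q' e, q' ∈ box I.QQ → (I.tryMove q q' e).All (· ∈ box I.QQ) := fun q' e hq' => by
    unfold tryMove
    refine All_any fun _ => All_any fun _ => All_any fun _ => ?_
    show ite _ q' q ∈ _
    split_ifs <;> assumption
  unfold step
  refine All_any fun k => All_any fun s => ?_
  unfold move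
  split_ifs with h1 h2 h3 h4 h5
  · exact t _ _ (up_mem_box hq h3)
  · exact hq
  · exact t _ _ (dn_mem_box hq _)
  · exact hq
  · exact hq
  · exact hq

theorem walk_All (S : ℕ) : (I.walk S).All (· ∈ box I.QQ) := by
  unfold walk
  exact All_iter _ (mem_box.2 fun _ => Nat.zero_le _) fun _ hq =>
    All_iter _ hq fun _ => I.step_All

theorem fill_All {x : Fin m × Fin n → ℕ} (hx : I.Zs x) : (I.fill x).All I.Zs := by
  refine All_iterIdx (p := fun _ => I.Zs) _ hx fun k hk y hy => ?_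
  unfold fillAt
  rw [dif_pos hk]
  refine P317.Rand.All_bind (All_bits _) fun R hR e he => ?_
  by_cases h : e = cellOf k hk
  · rw [← h, (I.star_kk he).1] at hR
    rw [← h, Function.update_self, hy e he]
    simpa using hR
  · rw [Function.update_of_ne h, hy e he]

theorem round_All (h : I.Ok) (S : ℕ) {Y : Fin m × Fin n → ℕ} (hY : Y ∈ tables I.r I.c) :
    (I.round S Y).All (· ∈ tables I.r I.c) := by
  unfold round
  refine P317.Rand.All_bind (I.walk_All S) fun q hq => P317.Rand.All_bind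
    (I.fill_All fun e he => ?_) fun x hx => ?_
  · have := mem_box.1 hq e
    rw [(I.star_kk he).2] at this
    simp [sc, Nat.le_zero.1 this]
  · show ite _ _ _ ∈ _
    split_ifs with hf
    · exact I.comp_mem h hx hf
    · exact hY

theorem alg_All (h : I.Ok) (S : ℕ) : (I.alg S).All (· ∈ tables I.r I.c) := by
  unfold alg
  exact All_iter _ (nw_mem _ _ h.sum_eq) fun _ hY => All_iter _ hY fun _ => I.round_All h S

/-- Uniform average over the tables. -/
noncomputable def avg (σ : (Fin m × Fin n → ℕ) → ℝ) : ℝ :=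
  (∑ X ∈ tables I.r I.c, σ X) / (tables I.r I.c).card

theorem round_mean (h : I.Ok) (S : ℕ) (hS : 1 ≤ S) : ∃ ρ : ℝ, 1 / 243 ≤ ρ ∧ ρ ≤ 1 ∧
    ∀ σ : (Fin m × Fin n → ℕ) → ℝ, (∀ X, |σ X| ≤ 1) → ∀ Y,
      |(I.round S Y).E σ - (ρ * I.avg σ + (1 - ρ) * σ Y)| ≤ Real.exp (-(S + 6)) := by
  set Z := ∑ q ∈ box I.QQ, I.nu q with hZ
  set D : ℝ := (I.blk.card : ℝ) with hD
  set N : ℝ := ((tables I.r I.c).card : ℝ) with hN
  set R := ∑ q ∈ box I.QQ, ∑ z ∈ I.blk, if I.feas (I.sc q + z) then 0 else I.nu q with hR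
  have Z0 : 0 < Z := Finset.sum_pos (fun q _ => I.nu_pos q) ⟨0, mem_box.2 fun _ => Nat.zero_le _⟩
  have D0 : 0 < D := Nat.cast_pos.2 (card_pos.2 ⟨0, mem_box.2 fun _ => Nat.zero_le _⟩)
  have N0 : 0 < N := Nat.cast_pos.2 (card_pos.2 ⟨_, nw_mem _ _ h.sum_eq⟩)
  have R0 : 0 ≤ R := Finset.sum_nonneg fun q _ => Finset.sum_nonneg fun z _ => by
    split_ifs; exacts [le_rfl, (I.nu_pos q).le]
  have key : ∀ (σ : (Fin m × Fin n → ℕ) → ℝ) Y,
      (∑ q ∈ box I.QQ, I.nu q * (I.fill (I.sc q)).E fun x => σ (if I.feas x then I.comp x else Y))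
        * D = I.nu0 * ∑ X ∈ tables I.r I.c, σ X + R * σ Y := by
    intro σ Y
    rw [← I.sum_feas h, sum_blk, hR, Finset.sum_mul, Finset.sum_mul, Finset.mul_sum,
      ← Finset.sum_add_distrib]
    refine Finset.sum_congr rfl fun q _ => ?_
    rw [mul_assoc, hD, E_fill, Finset.mul_sum, Finset.mul_sum, Finset.sum_mul,
      ← Finset.sum_add_distrib]
    refine Finset.sum_congr rfl fun z hz => ?_
    split_ifs with hf
    · rw [I.nu_feas hz hf]; ring
    · ring
  have k1 : Z * D = I.nu0 * N + R := by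
    simpa [P317.Rand.E_const] using key (fun _ => 1) 0
  have ha := I.accept h
  refine ⟨I.nu0 * N / (Z * D), ?_, ?_, fun σ hσ Y => ?_⟩
  · rw [div_le_div_iff₀ (by norm_num) (by positivity)]; linarith
  · rw [div_le_one (by positivity)]; linarith
  · have h1 := I.walk_conv h S hS
      (fun q => (I.fill (I.sc q)).E fun x => σ (if I.feas x then I.comp x else Y))
      fun q => abs_E_le _ fun x => hσ _
    have e : (∑ q ∈ box I.QQ, I.nu q * (I.fill (I.sc q)).E
        fun x => σ (if I.feas x then I.comp x else Y)) / Z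
        = I.nu0 * N / (Z * D) * I.avg σ + (1 - I.nu0 * N / (Z * D)) * σ Y := by
      rw [eq_div_of_mul_eq D0.ne' (key σ Y), show R = Z * D - I.nu0 * N by linarith]
      unfold avg
      rw [← hN]
      field_simp
    rw [e] at h1
    simpa only [round, P317.Rand.E_bind, P317.Rand.E_ret] using h1

theorem alg_mean (h : I.Ok) (S : ℕ) (hS : 1 ≤ S) (σ : (Fin m × Fin n → ℕ) → ℝ)
    (hσ : ∀ X, |σ X| ≤ 1) : |(I.alg S).E σ - I.avg σ| ≤ 3 * Real.exp (-S) := by
  obtain ⟨ρ, h1, h2, h3⟩ := I.round_mean h S hS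
  have hη := Real.exp_pos (-(S + 6 : ℝ))
  have ha : |I.avg σ| ≤ 1 := by
    unfold avg
    rw [abs_div, Nat.abs_cast]
    refine div_le_one_of_le₀ ((Finset.abs_sum_le_sum_abs _ _).trans ?_) (Nat.cast_nonneg _)
    simpa using Finset.sum_le_card_nsmul _ _ 1 fun X (_ : X ∈ tables I.r I.c) => hσ X
  have key : ∀ k Y, |(iter (I.round S) k Y).E σ - I.avg σ|
      ≤ 243 * Real.exp (-(S + 6)) + 2 * (1 - ρ) ^ k := by
    intro k Y
    induction k with
    | zero =>
      have := abs_sub (σ Y) (I.avg σ)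
      have := hσ Y
      simp only [iter, P317.Rand.E_ret, pow_zero]
      linarith
    | succ k ih =>
      have a := abs_E_le (iter (I.round S) k Y) (h3 σ hσ)
      rw [P317.Rand.E_sub, P317.Rand.E_add, P317.Rand.E_const, P317.Rand.E_const_mul] at a
      rw [iter_succ', P317.Rand.E_bind]
      have b := mul_le_mul_of_nonneg_left ih (sub_nonneg.2 h2)
      rw [← abs_of_nonneg (sub_nonneg.2 h2), ← abs_mul, abs_of_nonneg (sub_nonneg.2 h2)] at b
      have c := (abs_add_le _ _).trans (add_le_add a b)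
      refine le_trans (le_of_eq (by congr 1; ring)) (c.trans ?_)
      rw [pow_succ]
      nlinarith
  unfold alg
  rw [iter_iter]
  refine (key _ _).trans ?_
  have a : 243 * Real.exp (-(S + 6 : ℝ)) ≤ Real.exp (-S) := by
    have b : (243 : ℝ) ≤ Real.exp ((6 : ℕ) * 1) := by
      rw [Real.exp_nat_mul]
      exact le_trans (by norm_num) (pow_le_pow_left₀ (by norm_num) Real.exp_one_gt_d9.le 6)
    refine (mul_le_mul_of_nonneg_right b hη.le).trans (le_of_eq ?_)
    rw [← Real.exp_add]; congr 1; push_cast; ring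
  have b : (1 - ρ) ^ (par m n ^ 4 * S) ≤ Real.exp (-S) := by
    refine (pow_le_pow_left₀ (sub_nonneg.2 h2) (b := Real.exp (-ρ))
      (by linarith [Real.add_one_le_exp (-ρ)]) _).trans ?_
    rw [← Real.exp_nat_mul]
    refine Real.exp_le_exp.2 ?_
    have c : (4 : ℝ) ^ 4 ≤ (par m n : ℝ) ^ 4 :=
      pow_le_pow_left₀ (by norm_num) (by exact_mod_cast I.four_le) 4
    have d : 1 ≤ (par m n : ℝ) ^ 4 * ρ := by nlinarith
    push_cast
    nlinarith [mul_le_mul_of_nonneg_right d (Nat.cast_nonneg (α := ℝ) S)]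
  linarith

theorem alg_tv (h : I.Ok) (S : ℕ) (hS : 1 ≤ S) :
    ∑ X ∈ tables I.r I.c, |(I.alg S).prob (· = X) - 1 / (tables I.r I.c).card|
      ≤ 3 * Real.exp (-S) := by
  have h1 := I.alg_mean h S hS
    (fun X => if 0 ≤ (I.alg S).prob (· = X) - 1 / (tables I.r I.c).card then 1 else -1)
    fun X => by split_ifs <;> simp
  refine le_trans (le_of_eq ?_) ((le_abs_self _).trans h1)
  rw [E_eq_sum_prob _ _ (I.alg_All h S), avg, Finset.sum_div, ← Finset.sum_sub_distrib]
  refine Finset.sum_congr rfl fun X _ => ?_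
  split_ifs with h
  · rw [abs_of_nonneg h]; ring
  · rw [abs_of_neg (not_le.1 h)]; ring

end Inst

end Vale.Agent.P328b
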