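import Vale.Agent.P328b.Lang
import Vale.Agent.P328b.Round

/-! The program text and the arithmetic subroutines. -/

namespace Vale.Agent.P328b

open Finset Vale.Agent.P317

attribute [local irreducible] par

abbrev vP : ℕ := 4
abbrev vD : ℕ := 5
abbrev vSZ : ℕ := 6
abbrev vS : ℕ := 7
abbrev vLB : ℕ := 8
abbrev vTOT : ℕ := 9
abbrev vI0 : ℕ := 10
abbrev vJ0 : ℕ := 11
abbrev vDEL : ℕ := 12
abbrev vPW : ℕ := 13
abbrev vKK : ℕ := 14
abbrev vDL : ℕ := 15
abbrev vU : ℕ := 16
abbrev vPR : ℕ := 17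
abbrev vPC : ℕ := 18
abbrev vX : ℕ := 20
abbrev vK : ℕ := 22
abbrev vL : ℕ := 23
abbrev vIX : ℕ := 24
abbrev vAC : ℕ := 28
abbrev vV : ℕ := 29
abbrev vA : ℕ := 31
abbrev vB : ℕ := 32
abbrev vW : ℕ := 33
abbrev vJ : ℕ := 34
abbrev vV0 : ℕ := 35
abbrev vV2 : ℕ := 36
abbrev vT : ℕ := 37
abbrev vS1 : ℕ := 38
abbrev vSV : ℕ := 40
abbrev vACC : ℕ := 41
abbrev vSR : ℕ := 44
abbrev vSC : ℕ := 45
abbrev vST : ℕ := 46
abbrev vO1 : ℕ := 47
abbrev vO2 : ℕ := 48
abbrev vO3 : ℕ := 49
abbrev vOLD : ℕ := 50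
abbrev vNV : ℕ := 51
abbrev vBAD : ℕ := 52
abbrev vDIR : ℕ := 53

def eN : Expr := .load 0 (.const 1)
def ePW (k : ℕ) : Expr := .load vPW (.const k)
def minX (a b : Expr) : Expr := .sub a (.sub a b)
def neqX (a b : Expr) : Expr := .add (.sub a b) (.sub b a)
def atK (a : ℕ) : Expr := .load a (var vK)
def eI : Expr := .div (var vK) eN
def eJ : Expr := .mod (var vK) eN
def eR0 : Expr := .load 1 (var vI0)
def eC0 : Expr := .load 2 (var vJ0)
def eT (a b : Expr) : Expr := .add (minX (.div a eN) (.div b (var 0))) (.const 1)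
def eV0 (a : ℕ) : Expr := .sub (var vTOT) (.add (.add eR0 eC0) (.add (var a) (var vDEL)))
def incr (a : ℕ) (e : Expr) : Prog := asg a (.add (var a) e)

def mulC (e : Expr) : Prog :=
  .seq (asg vAC (.const 0)) (.seq (.loop e (incr vAC (var vV))) (asg vV (var vAC)))

def pwC : Prog :=
  .seq (asg vV (.const 1)) (forI vIX (ePW 11) (.ifz (.sub (var vJ) (var vIX))
    (mulC (minX (ePW 6) (var vB))) (mulC (minX (ePW 6) (var vA)))))

def abwC : Prog :=
  .ifz (.sub (.add (ePW 6) (ePW 6)) (var vT))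
    (.seq (asg vW (.div (var vT) (.add (ePW 6) (ePW 6))))
      (.seq (asg vA (.add (var vP) (.const 1))) (asg vB (var vP))))
    (.seq (asg vW (.const 1)) (.seq (asg vA (.add (ePW 5) (.const 1))) (asg vB (.const 1))))

def vvC : Prog :=
  .seq abwC (.seq (asg vJ (.const 0)) (.seq pwC (.seq (mulC (var vP)) (.seq (asg vV0 (var vV))
    (.seq (asg vJ (.div (var vSV) (var vW))) (.seq pwC (incr vV (var vV0))))))))

def testC : Prog :=
  .seq vvC (.seq (asg vV2 (var vV)) (.seq (asg vSV (var vS1)) (.seq vvC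
    (.seq (bitsC (minX (ePW 14) (.len (.add (var vV) (var vV2)))))
      (.ifz (.sub (var vV) (var 25)) skip (incr vACC (.const 1)))))))

def test3 (a b c : Expr) : Prog := .seq (asg vT a) (.seq (asg vS1 b) (.seq (asg vSV c) testC))

def sumsC : Prog :=
  .seq (asg vSR (.const 0)) (.seq (asg vSC (.const 0)) (.seq (asg vST (.const 0))
    (forI vL (var vD)
      (.seq (.ifz (neqX (.div (var vL) eN) eI) (incr vSR (.load vX (var vL))) skip)
      (.seq (.ifz (neqX (.mod (var vL) eN) eJ) (incr vSC (.load vX (var vL))) skip)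
        (incr vST (.load vX (var vL))))))))

def tryC : Prog :=
  .seq sumsC (.seq (asg vO1 (var vSR)) (.seq (asg vO2 (var vSC)) (.seq (asg vO3 (var vST))
  (.seq (asg vOLD (atK vX)) (.seq (.store vX (var vK) (var vNV)) (.seq sumsC
  (.seq (asg vACC (.const 0))
  (.seq (test3 (eT eR0 eC0) (eV0 vO3) (eV0 vST))
  (.seq (test3 (eT (.load 1 eI) eC0) (.sub (var vO1) (.load 1 eI)) (.sub (var vSR) (.load 1 eI)))
  (.seq (test3 (eT eR0 (.load 2 eJ)) (.sub (var vO2) (.load 2 eJ)) (.sub (var vSC) (.load 2 eJ)))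
    (.ifz (neqX (var vACC) (.const 3)) skip (.store vX (var vK) (var vOLD)))))))))))))

def moveC : Prog :=
  .ifz (var vDIR)
    (.ifz (.sub (.div (atK vU) (atK vDL)) (.div (atK vX) (atK vDL))) skip
      (.seq (asg vNV (.add (atK vX) (atK vDL))) tryC))
    (.ifz (.sub (var vDIR) (.const 1))
      (.ifz (atK vX) skip (.seq (asg vNV (.sub (atK vX) (atK vDL))) tryC)) skip)

def stepC : Prog :=
  .seq (.seq (bitsC (var vSZ)) (asg vK (var 25))) (.seq (.seq (bitsC (.const 2)) (asg vDIR (var 25)))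
    (.ifz (.sub (var vD) (var vK)) skip moveC))

def walkC : Prog :=
  .seq (forI vK (var vD) (.store vX (var vK) (.const 0))) (.loop (var vS) (.loop (ePW 600) stepC))

def fillC : Prog :=
  forI vK (var vD) (.seq (bitsC (minX (var vLB) (atK vKK)))
    (.store vX (var vK) (.add (atK vX) (var 25))))

def checkC : Prog :=
  .seq (asg vBAD (.const 0)) (forI vK (var vD) (.seq sumsC (incr vBAD
    (.add (.add (.sub (var vSR) (.load 1 eI)) (.sub (var vSC) (.load 2 eJ)))
      (.sub (var vTOT) (.add (.add eR0 eC0) (var vST)))))))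

def compC : Prog :=
  forI vK (var vD) (.seq sumsC (.ifz (neqX eI (var vI0))
    (.ifz (neqX eJ (var vJ0))
      (.store 3 (var vK) (.sub (.add (.add eR0 eC0) (var vST)) (var vTOT)))
      (.store 3 (var vK) (.sub (.load 2 eJ) (var vSC))))
    (.ifz (neqX eJ (var vJ0))
      (.store 3 (var vK) (.sub (.load 1 eI) (var vSR)))
      (.store 3 (var vK) (atK vX)))))

def roundC : Prog := .seq walkC (.seq fillC (.seq checkC (.ifz (var vBAD) compC skip)))

def mainC : Prog := .loop (var vS) (.loop (ePW 4) roundC)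

def init0 : Prog :=
  .seq (asg vP (.add (.add (var 0) eN) (.const 2)))
    (asg vS (.add (.len (.load 0 (.const 2))) (.const 1)))

def powC : Prog :=
  .seq (asg vV (.const 1)) (forI vK (.const 601) (.seq (.store vPW (var vK) (var vV))
    (mulC (var vP))))

def preC (dst src : ℕ) (bd : Expr) : Prog :=
  forI vK bd (.store dst (.add (var vK) (.const 1)) (.add (atK dst) (atK src)))

def argC (dst src : ℕ) (bd : Expr) : Prog :=
  .seq (asg dst (.const 0)) (forI vK bd
    (.ifz (.sub (atK src) (.load src (var dst))) skip (asg dst (var vK))))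

def init1 : Prog :=
  .seq powC (.seq (preC vPR 1 (var 0)) (.seq (preC vPC 2 eN) (.seq (argC vI0 1 (var 0))
  (.seq (argC vJ0 2 eN) (.seq (asg vV (var 0)) (.seq (mulC eN) (.seq (asg vD (var vV))
  (.seq (asg vSZ (.len (var vV))) (.seq (asg vTOT (.load vPR (var 0)))
    (asg vLB (.len (var vTOT))))))))))))

def uuC : Prog :=
  .ifz (neqX eI (var vI0)) (.store vU (var vK) (.const 0))
    (.ifz (neqX eJ (var vJ0)) (.store vU (var vK) (.const 0))
      (.store vU (var vK) (minX (.load 1 eI) (.load 2 eJ))))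

def init2 : Prog :=
  .seq (asg vDEL (.const 0)) (forI vK (var vD) (.seq uuC
    (.seq (.store vKK (var vK) (.len (.div (atK vU) (ePW 25))))
    (.seq (asg vV (.const 1)) (.seq (.loop (minX (var vLB) (atK vKK)) (incr vV (var vV)))
    (.seq (.store vDL (var vK) (var vV)) (.seq (incr vDEL (.sub (var vV) (.const 1)))
      (.store 3 (var vK)
        (.sub (minX (.load vPR (.add eI (.const 1))) (.load vPC (.add eJ (.const 1))))
          (.add (.load vPR eI) (.sub (.load vPC eJ) (.load vPR eI))))))))))))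

def progC : Prog := .seq init0 (.seq init1 (.seq init2 mainC))

@[simp] theorem eval_eN (M : Mem) : eN.eval M = M 0 1 := rfl
@[simp] theorem eval_ePW (M : Mem) (k : ℕ) : (ePW k).eval M = M vPW k := rfl
@[simp] theorem eval_atK (M : Mem) (a : ℕ) : (atK a).eval M = M a (M vK 0) := rfl
@[simp] theorem eval_eI (M : Mem) : eI.eval M = M vK 0 / M 0 1 := rfl
@[simp] theorem eval_eJ (M : Mem) : eJ.eval M = M vK 0 % M 0 1 := rfl
@[simp] theorem eval_eR0 (M : Mem) : eR0.eval M = M 1 (M vI0 0) := rfl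
@[simp] theorem eval_eC0 (M : Mem) : eC0.eval M = M 2 (M vJ0 0) := rfl

@[simp] theorem eval_minX (M : Mem) (a b : Expr) :
    (minX a b).eval M = min (a.eval M) (b.eval M) := by
  simp only [minX, eval_sub]; omega

theorem eval_neqX (M : Mem) (a b : Expr) : (neqX a b).eval M = 0 ↔ a.eval M = b.eval M := by
  simp only [neqX, eval_sub, eval_add]; omega

theorem Det.incr {M : Mem} {p : Mem → Prop} {a : ℕ} {e : Expr}
    (h : p (M.set a 0 (M a 0 + e.eval M))) : Det (incr a e) M p := h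

theorem set_arr (M : Mem) (a i v : ℕ) : M.set a i v a = Function.update (M a) i v := by
  simp [Mem.set]

theorem mulC_det (e : Expr) (M : Mem) (k : ℕ) (hk : e.eval (M.set vAC 0 0) = k) :
    Det (mulC e) M fun M' => M' vV 0 = M vV 0 * k ∧ Fr [vV, vAC] M M' := by
  refine Det.frame ?_ _ (by simp [mulC, incr, asg, Prog.writes])
  refine Ref.asg_seq ((Det.loop hk (fun i M' => M' vAC 0 = M vV 0 * i ∧ M' vV 0 = M vV 0)
    (by simp) ?_).seq ?_)
  · rintro i _ M' ⟨h1, h2⟩
    exact Det.incr (by simp [h1, h2, Nat.mul_succ])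
  · rintro M' ⟨h1, _⟩
    exact Det.asg (by simp [h1])

/-- The table of powers. -/
def HasPW (P : ℕ) (M : Mem) : Prop := M vP 0 = P ∧ ∀ k, k ≤ 600 → M vPW k = P ^ k

theorem HasPW.fr {P : ℕ} {M M' : Mem} {W : List ℕ} (h : HasPW P M) (f : Fr W M M')
    (hW : vP ∉ W ∧ vPW ∉ W) : HasPW P M' := by
  unfold HasPW
  rw [f _ hW.1, f _ hW.2]
  exact h

theorem pwC_det {P : ℕ} {M : Mem} (h : HasPW P M) (ha : M vA 0 ≤ P ^ 6) (hb : M vB 0 ≤ P ^ 6) :
    Det pwC M fun M' => M' vV 0 = pw (M vA 0) (M vB 0) (P ^ 11) (M vJ 0)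
      ∧ Fr [vV, vAC, vIX] M M' := by
  refine Ref.asg_seq (det_forI _ _ _ _ (P ^ 11) (by simp [h.2]) (by decide)
    (fun i M' => M' vV 0 = pw (M vA 0) (M vB 0) i (M vJ 0) ∧ Fr [vV, vAC, vIX] M M') ?_
    ⟨by simp [pw], Fr.set _ (by decide) _ _⟩ ?_)
  · rintro i M' x ⟨h1, h2⟩
    exact ⟨by simpa using h1, h2.set_right (by decide) _ _⟩
  · rintro i _ M' hi ⟨h1, h2⟩
    have e6 : M' vPW 6 = P ^ 6 := by rw [h2 _ (by decide), h.2 6 (by norm_num)]
    have eJ := h2 vJ (by decide)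
    by_cases hj : M vJ 0 ≤ i
    · refine Ref.ifz_zero (by simp [eJ, hi, hj]) ((mulC_det _ _ (M vB 0)
        (by simp [e6, h2 vB (by decide), hb])).mono ?_)
      rintro M'' ⟨h3, h4⟩
      refine ⟨?_, h2.trans (h4.mono (by decide))⟩
      rw [h3, h1, pw, pw, min_eq_left hj, min_eq_left (by omega), Nat.succ_sub hj, pow_succ,
        mul_assoc]
    · refine Ref.ifz_ne (by simp [eJ, hi]; omega) ((mulC_det _ _ (M vA 0)
        (by simp [e6, h2 vA (by decide), ha])).mono ?_)
      rintro M'' ⟨h3, h4⟩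
      refine ⟨?_, h2.trans (h4.mono (by decide))⟩
      rw [h3, h1, pw, pw, min_eq_right (by omega), min_eq_right (by omega),
        Nat.sub_eq_zero_of_le (by omega), Nat.sub_eq_zero_of_le (by omega), pow_succ]
      ring

theorem abwC_det {P : ℕ} {M : Mem} (h : HasPW P M) :
    Det abwC M fun M' => (M' vW 0 = ww P (M vT 0) ∧ M' vA 0 = aa P (M vT 0)
      ∧ M' vB 0 = bb P (M vT 0)) ∧ Fr [vW, vA, vB] M M' := by
  refine Det.frame ?_ _ (by decide)
  by_cases hT : M vT 0 < 2 * P ^ 6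
  · refine Ref.ifz_ne (by simp [h.2]; omega) (Ref.asg_seq (Ref.asg_seq (Det.asg ?_)))
    simp [ww, aa, bb, hT, h.2]
  · refine Ref.ifz_zero (by simp [h.2]; omega) (Ref.asg_seq (Ref.asg_seq (Det.asg ?_)))
    simp [ww, aa, bb, hT, h.2, h.1, ← two_mul]

def wVV : List ℕ := [vW, vA, vB, vV, vAC, vIX, vJ, vV0]

theorem vvC_det {P : ℕ} (hP : 4 ≤ P) {M : Mem} (h : HasPW P M) :
    Det vvC M fun M' => M' vV 0 = VV P (M vT 0) (M vSV 0) ∧ Fr wVV M M' := by
  refine Det.frame ?_ _ (by decide)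
  have a6 : aa P (M vT 0) ≤ P ^ 6 := by
    have := aa_le (T := M vT 0) hP
    have a : 1 ≤ P ^ 5 := Nat.one_le_pow _ _ (by omega)
    have b : 4 * P ^ 5 ≤ P * P ^ 5 := Nat.mul_le_mul_right _ hP
    rw [pow_succ']
    omega
  have b6 := (bb_le_aa (T := M vT 0)).trans a6
  refine (abwC_det h).seq ?_
  rintro M1 ⟨⟨hw, ha, hb⟩, f1⟩
  have p1 := h.fr f1 (by decide)
  refine Ref.asg_seq ((pwC_det (p1.fr (Fr.set (W := [vJ]) _ (by decide) _ _) (by decide))
    (by simpa [ha] using a6) (by simpa [hb] using b6)).seq ?_)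
  rintro M2 ⟨h2, f2⟩
  refine (mulC_det _ _ P (by simp [f2 vP (by decide), p1.1])).seq ?_
  rintro M3 ⟨h3, f3⟩
  have f4 : Fr [vJ, vV, vAC, vIX] M1 M3 :=
    ((Fr.set _ (by decide) _ _).trans (f2.mono (by decide))).trans (f3.mono (by decide))
  refine Ref.asg_seq (Ref.asg_seq ((pwC_det ((p1.fr f4 (by decide)).fr
    ((Fr.set (W := [vJ, vV0]) _ (by decide) _ _).set_right (by decide) _ _) (by decide))
    (by simpa [f4 vA (by decide), ha] using a6) (by simpa [f4 vB (by decide), hb] using b6)).seq ?_))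
  rintro M5 ⟨h5, f5⟩
  refine Det.incr ?_
  simp [h5, f5 vV0 (by decide), h3, h2, f4 vA (by decide), f4 vB (by decide), f4 vW (by decide),
    f4 vSV (by decide), f1 vSV (by decide), ha, hb, hw, VV, add_comm, mul_comm]

def wTest : List ℕ := [vW, vA, vB, vV, vAC, vIX, vJ, vV0, vV2, vSV, vS1, vT, 25, 26, 27, vACC]

theorem testC_ref {P : ℕ} (hP : 4 ≤ P) {M : Mem} (h : HasPW P M) :
    Ref testC M (test P (M vT 0) (M vS1 0) (M vSV 0)) fun M' a => M' vACC 0 = M vACC 0 + a := by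
  refine (vvC_det hP h).seq ?_
  rintro M1 ⟨h1, f1⟩
  refine Ref.asg_seq (Ref.asg_seq ((vvC_det hP ((h.fr f1 (by decide)).fr
    ((Fr.set (W := [vV2, vSV]) _ (by decide) _ _).set_right (by decide) _ _) (by decide))).seq ?_))
  rintro M2 ⟨h2, f2⟩
  replace h2 : M2 vV 0 = VV P (M vT 0) (M vS1 0) := by
    simpa [f1 vT (by decide), f1 vS1 (by decide)] using h2
  unfold test
  refine (bitsC_ref _ _ _ ?_).seq ?_
  · simp [h2, f2 vV2 (by decide), h1, f2 vPW (by decide), f1 vPW (by decide), h.2]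
  · rintro M3 R ⟨h3, f3⟩
    have e : M3 vACC 0 = M vACC 0 := by
      simp [f3 vACC (by decide), f2 vACC (by decide), f1 vACC (by decide)]
    split_ifs with hR
    · refine Ref.ifz_ne (by simp [f3 vV (by decide), h2, h3]; omega) (Det.to_ref (Det.incr ?_))
      simp [e]
    · exact Ref.ifz_zero (by simp [f3 vV (by decide), h2, h3]; omega) (Ref.skip e)

theorem test3_ref {P : ℕ} (hP : 4 ≤ P) {M : Mem} (h : HasPW P M) (a b c : Expr) (T s s' : ℕ)
    (ha : a.eval M = T) (hb : ∀ x, b.eval (M.set vT 0 x) = s)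
    (hc : ∀ x y, c.eval ((M.set vT 0 x).set vS1 0 y) = s') :
    Ref (test3 a b c) M (test P T s s') fun M' a => M' vACC 0 = M vACC 0 + a ∧ Fr wTest M M' := by
  have hw : ∀ x ∈ testC.writes, x ∈ wTest := by decide
  refine Ref.frame ?_ _ (by
    simp only [test3, asg, Prog.writes, List.mem_append, List.mem_singleton]
    rintro x (rfl | rfl | rfl | hx)
    exacts [by decide, by decide, by decide, hw x hx])
  refine Ref.asg_seq (Ref.asg_seq (Ref.asg_seq ?_))
  rw [hb, hc, ha]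
  have := testC_ref hP (h.fr (((Fr.set (W := [vT, vS1, vSV]) M (a := vT) (by decide) 0 T).set_right
    (a := vS1) (by decide) 0 s).set_right (a := vSV) (by decide) 0 s') (by decide))
  simpa using this

end Vale.Agent.P328b
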