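import Vale.Agent.P317.Flow

/-! Poincare inequality for slot systems with bounded ratios. -/

namespace Vale.Agent.P328b

open Finset Vale.Agent.P317

theorem Hyp_comap {G G' : Type} [DecidableEq G] [DecidableEq G'] (e : G' ↪ G) (T : Finset G')
    (A : G → G → ℝ) (B : G' → G' → ℝ) (h : Hyp (T.map e) A)
    (hB : ∀ y ∈ T, ∀ y' ∈ T, B y y' = A (e y) (e y')) : Hyp T B := by
  have key : ∀ u v : G' → ℝ, bf (T.map e) A (Function.extend e u 0) (Function.extend e v 0)
      = bf T B u v := by
    intro u v
    unfold bf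
    rw [Finset.sum_map]
    refine Finset.sum_congr rfl fun y hy => ?_
    rw [Finset.sum_map]
    refine Finset.sum_congr rfl fun y' hy' => ?_
    rw [e.injective.extend_apply, e.injective.extend_apply, hB y hy y' hy']
  intro a z ha
  have := h (Function.extend e a 0) (Function.extend e z 0) (by rwa [key])
  rwa [key, key, key] at this

variable {n : ℕ}

/-- Extension by a value at the dummy slot. -/
def extO (o : Fin 3) (U : Fin n → Fin 3) : Option (Fin n) → Fin 3 := fun a => a.elim o U

theorem sum_opt (G : (Option (Fin n) → Fin 3) → ℝ) :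
    ∑ U, G U = ∑ o, ∑ U, G (extO o U) := by
  rw [← Fintype.sum_prod_type']
  refine Fintype.sum_equiv (Equiv.piOptionEquivProd (β := fun _ => Fin 3)) _ _ fun U => ?_
  congr 1
  funext a
  cases a <;> rfl

theorem cw_update {I : Type} [DecidableEq I] [Fintype I] (W : Finset (I × Fin 3) → ℝ) (j : I)
    (U : I → Fin 3) (x : Fin 3) : cw W j (Function.update U j x) = cw W j U := by
  unfold cw gset
  congr 1
  refine Finset.image_congr fun i hi => ?_
  have : i ≠ j := Finset.ne_of_mem_erase hi
  simp [this]

theorem sum_cw {I : Type} [DecidableEq I] [Fintype I] (W : Finset (I × Fin 3) → ℝ) (j : I) :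
    ∑ U, cw W j U = 3 * clsSum (cw W) j fun _ => 1 := by
  rw [sum_update j]
  simp [cw_update, clsSum]

/-- Weight of a transversal. -/
def trw (W : Finset (Option (Fin n) × Fin 3) → ℝ) (U : Fin n → Fin 3) : ℝ := cw W none (extO 0 U)

theorem cw_none (W : Finset (Option (Fin n) × Fin 3) → ℝ) (o : Fin 3) (U : Fin n → Fin 3) :
    cw W none (extO o U) = trw W U := by
  unfold trw
  rw [← cw_update W none (extO o U) 0]
  congr 1
  funext a
  cases a <;> simp [extO]

theorem clsSum_none (W : Finset (Option (Fin n) × Fin 3) → ℝ)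
    (g : (Option (Fin n) → Fin 3) → ℝ) :
    clsSum (cw W) none g = ∑ U, trw W U * g (extO 0 U) := by
  unfold clsSum
  rw [sum_opt, Fin.sum_univ_three]
  simp [extO, trw]

theorem cw_pos (W : Finset (Option (Fin n) × Fin 3) → ℝ)
    (hpos : ∀ S : Finset (Option (Fin n) × Fin 3), S.card = n → 0 < W S) (j : Option (Fin n))
    (U : Option (Fin n) → Fin 3) : 0 < cw W j U := by
  refine hpos _ ?_
  unfold gset
  rw [Finset.card_image_of_injective _ fun a b h => (Prod.ext_iff.1 h).1]
  simp

/-- Energy on transversals. -/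
def sen (p f : (Fin n → Fin 3) → ℝ) : ℝ :=
  ∑ U, p U * ∑ j, (f (Function.update U j 0) - f U) ^ 2

theorem slot_cov (W : Finset (Option (Fin n) × Fin 3) → ℝ)
    (hpos : ∀ S : Finset (Option (Fin n) × Fin 3), S.card = n → 0 < W S)
    (hloc : ∀ T : Finset (Option (Fin n) × Fin 3), T.card = n + 2 → Hyp T (mat W T))
    (R : ℝ) (hR : 1 ≤ R)
    (hr : ∀ U j, cw W (some j) U ≤ R * cw W none U ∧ cw W none U ≤ R * cw W (some j) U)
    (e : Fin n) (φ : Fin 3 → ℝ) (C : ℝ) (hφ : ∀ x, |φ x| ≤ C)
    (h0 : ∑ U, trw W U * φ (U e) = 0) (f : (Fin n → Fin 3) → ℝ) :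
    (∑ U, trw W U * (φ (U e) * f U)) ^ 2
      ≤ 36 * C ^ 2 * R ^ 2 * ((n : ℝ) + 1) ^ 2 * (∑ U, trw W U) * sen (trw W) f := by
  have hT := transport_pos n (by simp) W hpos (aggHyp_of_loc n W hpos hloc) (fun _ => 1)
    (fun _ => one_pos) none (some e) (by simp) φ C hφ (fun _ U => f fun k => U (some k))
  have hp : ∀ U, 0 < trw W U := fun U => cw_pos W hpos _ _
  set N := ∑ U, trw W U with hN
  have hN0 : 0 < N := Finset.sum_pos (fun U _ => hp U) univ_nonempty
  have e1 : clsSum (cw W) none (fun _ => 1) = N := by simp [clsSum_none, hN]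
  have e2 : clsSum (cw W) none (fun U => φ (U (some e))) = 0 := by
    rw [clsSum_none]; exact h0
  have e3 : clsSum (cw W) none (fun U => φ (U (some e)) * f fun k => U (some k))
      = ∑ U, trw W U * (φ (U e) * f U) := by
    rw [clsSum_none]; rfl
  have hNj : ∀ j, N ≤ R * clsSum (cw W) j fun _ => 1 := by
    intro j
    cases j with
    | none => rw [e1]; nlinarith
    | some j =>
      have h1 := sum_cw W none
      have h2 := sum_cw W (some j)
      have h3 : ∑ U, cw W none U ≤ R * ∑ U, cw W (some j) U := by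
        rw [Finset.mul_sum]; exact Finset.sum_le_sum fun U _ => (hr U j).2
      rw [h1, h2, e1] at h3
      linarith
  have hA : ∑ j, 1 / (1 * clsSum (cw W) j fun _ => 1) ≤ ((n : ℝ) + 1) * (R / N) := by
    calc _ ≤ ∑ _j : Option (Fin n), R / N := Finset.sum_le_sum fun j _ => by
          have h1 := hNj j
          have h2 : 0 < clsSum (cw W) j fun _ => 1 := by
            by_contra hn
            nlinarith
          rw [one_mul, div_le_div_iff₀ h2 hN0]; linarith
      _ = _ := by simp
  have hB : dirMin (cw W) (fun _ => 1) (fun _ U => f fun k => U (some k))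
      ≤ 6 * R * ((n : ℝ) + 1) * sen (trw W) f := by
    unfold dirMin sen
    rw [sum_opt]
    have h1 : ∀ (o : Fin 3) (U : Fin n → Fin 3), ∑ j : Option (Fin n), ∑ j' : Option (Fin n),
        min (1 * cw W j (extO o U)) (1 * cw W j' (extO o U)) *
          ((f fun k => Function.update (extO o U) j 0 (some k))
            - f fun k => Function.update (extO o U) j' 0 (some k)) ^ 2
        ≤ 4 * R * ((n : ℝ) + 1) * (trw W U * ∑ j, (f (Function.update U j 0) - f U) ^ 2) := by
      intro o U
      set g : Option (Fin n) → ℝ := fun j =>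
        (f fun k => Function.update (extO o U) j 0 (some k)) - f U with hg
      have hw : ∀ j, cw W j (extO o U) ≤ R * trw W U := by
        intro j
        cases j with
        | none => rw [cw_none]; nlinarith [hp U]
        | some j => rw [← cw_none W o]; exact (hr _ j).1
      have hs : ∑ j, g j ^ 2 = ∑ j, (f (Function.update U j 0) - f U) ^ 2 := by
        rw [Fintype.sum_option]
        have a1 : g none = 0 := by
          simp only [hg]
          rw [sub_eq_zero]
          congr 1
        rw [a1]
        simp only [ne_eq, OfNat.ofNat_ne_zero, not_false_eq_true, zero_pow, zero_add]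
        refine Finset.sum_congr rfl fun j _ => ?_
        simp only [hg]
        congr 3
        funext k
        by_cases hk : k = j
        · subst hk; simp
        · simp [hk, extO]
      calc _ ≤ ∑ j : Option (Fin n), ∑ j' : Option (Fin n),
            R * trw W U * (2 * g j ^ 2 + 2 * g j' ^ 2) := by
            refine Finset.sum_le_sum fun j _ => Finset.sum_le_sum fun j' _ => ?_
            refine mul_le_mul ((min_le_left _ _).trans (by rw [one_mul]; exact hw j)) ?_
              (sq_nonneg _) (by have := hp U; positivity)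
            simp only [hg]
            nlinarith [sq_nonneg (g j + g j')]
        _ = _ := by
            simp only [← Finset.mul_sum, Finset.sum_add_distrib, Finset.sum_const, card_univ,
              nsmul_eq_mul, hs, Fintype.card_option, Fintype.card_fin]
            push_cast
            ring
    have h2 := Finset.sum_le_sum fun (o : Fin 3) (_ : o ∈ univ) =>
      Finset.sum_le_sum fun (U : Fin n → Fin 3) (_ : U ∈ univ) => h1 o U
    simp only [← Finset.mul_sum, Finset.sum_const, card_univ, Fintype.card_fin,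
      nsmul_eq_mul] at h2
    push_cast at h2
    linarith
  simp only [e1, e2, e3, zero_div, zero_mul, sub_zero] at hT
  have hq := discrim_le_zero (a := 6 * C ^ 2 * N * R * ((n : ℝ) + 1))
    (b := -2 * ∑ U, trw W U * (φ (U e) * f U)) (c := 6 * R * ((n : ℝ) + 1) * sen (trw W) f) ?_
  · unfold discrim at hq
    nlinarith
  · intro lam
    have h1 := hT lam
    have h2 : lam ^ 2 * (6 * C ^ 2 * N ^ 2 * ∑ j, 1 / (1 * clsSum (cw W) j fun _ => 1))
        ≤ lam ^ 2 * (6 * C ^ 2 * N ^ 2 * (((n : ℝ) + 1) * (R / N))) :=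
      mul_le_mul_of_nonneg_left (mul_le_mul_of_nonneg_left hA (by positivity)) (sq_nonneg _)
    have h3 : lam ^ 2 * (6 * C ^ 2 * N ^ 2 * (((n : ℝ) + 1) * (R / N)))
        = 6 * C ^ 2 * N * R * ((n : ℝ) + 1) * (lam * lam) := by
      field_simp
    linarith

theorem mean_split {ι : Type} [Fintype ι] (p f : ι → ℝ) (hP : 0 < ∑ i, p i) (m' c : ℝ) :
    ∑ i, p i * (f i - c) ^ 2
      ≤ ∑ i, p i * (f i - m') ^ 2 + (∑ i, p i) * ((∑ i, p i * f i) / (∑ i, p i) - c) ^ 2 := by
  have e : ∀ t, ∑ i, p i * (f i - t) ^ 2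
      = ∑ i, p i * f i ^ 2 - 2 * t * ∑ i, p i * f i + t ^ 2 * ∑ i, p i := by
    intro t
    rw [Finset.mul_sum, Finset.mul_sum, ← Finset.sum_sub_distrib, ← Finset.sum_add_distrib]
    exact Finset.sum_congr rfl fun i _ => by ring
  rw [e, e]
  obtain ⟨m, hm⟩ : ∃ m, ∑ i, p i * f i = m * ∑ i, p i :=
    ⟨(∑ i, p i * f i) / ∑ i, p i, by field_simp⟩
  rw [hm, mul_div_assoc, div_self hP.ne', mul_one]
  nlinarith [mul_nonneg hP.le (sq_nonneg (m - m'))]

/-- Embedding after pinning slot 0. -/
def embS : Option (Fin n) × Fin 3 ↪ Option (Fin (n + 1)) × Fin 3 :=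
  ⟨fun y => (y.1.map Fin.succ, y.2), fun a b h => by
    obtain ⟨h1, h2⟩ := Prod.ext_iff.1 h
    exact Prod.ext (Option.map_injective (Fin.succ_injective n) h1) h2⟩

theorem embS_apply (y : Option (Fin n) × Fin 3) : embS y = (y.1.map Fin.succ, y.2) := rfl

theorem pin_notMem (o : Fin 3) (S : Finset (Option (Fin n) × Fin 3)) :
    ((some 0, o) : Option (Fin (n + 1)) × Fin 3) ∉ S.map embS := by
  simp only [Finset.mem_map, not_exists, not_and]
  rintro ⟨a, x⟩ _ h
  have := (Prod.ext_iff.1 h).1
  cases a with
  | none => simp [embS_apply] at this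
  | some k => simp [embS_apply, Fin.succ_ne_zero] at this

def pinW (W : Finset (Option (Fin (n + 1)) × Fin 3) → ℝ) (o : Fin 3)
    (S : Finset (Option (Fin n) × Fin 3)) : ℝ := W (insert (some 0, o) (S.map embS))

def pinU (o : Fin 3) (U : Option (Fin n) → Fin 3) : Option (Fin (n + 1)) → Fin 3 :=
  extO (U none) (Fin.cons o fun k => U (some k))

theorem cw_pinW (W : Finset (Option (Fin (n + 1)) × Fin 3) → ℝ) (o : Fin 3) (j : Option (Fin n))
    (U : Option (Fin n) → Fin 3) : cw (pinW W o) j U = cw W (j.map Fin.succ) (pinU o U) := by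
  unfold cw pinW
  congr 1
  ext ⟨a, x⟩
  simp only [Finset.mem_insert, Finset.mem_map, mem_gset, Finset.mem_erase, mem_univ, and_true,
    Prod.exists, embS_apply, Prod.mk.injEq]
  cases a with
  | none =>
    cases j <;> simp [pinU, extO, Option.exists, eq_comm]
  | some k =>
    refine Fin.cases ?_ (fun k => ?_) k
    · cases j <;> simp [pinU, extO, (Fin.succ_ne_zero _).symm, Fin.succ_ne_zero, Option.exists]
    · cases j <;> simp [pinU, extO, Fin.succ_ne_zero, Option.exists, eq_comm]

theorem trw_pinW (W : Finset (Option (Fin (n + 1)) × Fin 3) → ℝ) (o : Fin 3) (U : Fin n → Fin 3) :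
    trw (pinW W o) U = trw W (Fin.cons o U) := by
  unfold trw
  rw [cw_pinW]
  rfl

theorem sum_cons (G : (Fin (n + 1) → Fin 3) → ℝ) :
    ∑ U, G U = ∑ o, ∑ U : Fin n → Fin 3, G (Fin.cons o U) := by
  rw [← Fintype.sum_prod_type']
  exact (Fintype.sum_equiv (Fin.consEquiv fun _ => Fin 3) _ _ fun _ => rfl).symm

theorem slot_PI (R : ℝ) (hR : 1 ≤ R) (n : ℕ) (W : Finset (Option (Fin n) × Fin 3) → ℝ)
    (hpos : ∀ S : Finset (Option (Fin n) × Fin 3), S.card = n → 0 < W S)
    (hloc : ∀ T : Finset (Option (Fin n) × Fin 3), T.card = n + 2 → Hyp T (mat W T))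
    (hr : ∀ U j, cw W (some j) U ≤ R * cw W none U ∧ cw W none U ≤ R * cw W (some j) U)
    (f : (Fin n → Fin 3) → ℝ) :
    ∃ m, ∑ U, trw W U * (f U - m) ^ 2 ≤ 324 * R ^ 6 * ((n : ℝ) + 1) ^ 3 * sen (trw W) f := by
  induction n with
  | zero =>
    refine ⟨f fun _ => 0, ?_⟩
    have : ∀ U : Fin 0 → Fin 3, f U = f fun _ => 0 := fun U => congrArg f (Subsingleton.elim _ _)
    simp [sen, this]
  | succ n ih =>
    have hp : ∀ U, 0 < trw W U := fun U => cw_pos W hpos _ _
    have hpin : ∀ o, ∃ m, ∑ U : Fin n → Fin 3, trw W (Fin.cons o U) * (f (Fin.cons o U) - m) ^ 2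
        ≤ 324 * R ^ 6 * ((n : ℝ) + 1) ^ 3
          * sen (fun U => trw W (Fin.cons o U)) fun U => f (Fin.cons o U) := by
      intro o
      have := ih (pinW W o) ?_ ?_ ?_ fun U => f (Fin.cons o U)
      · simpa only [trw_pinW, show trw (pinW W o) = fun U => trw W (Fin.cons o U) from
          funext (trw_pinW W o)] using this
      · intro S hS
        refine hpos _ ?_
        rw [Finset.card_insert_of_notMem (pin_notMem o S), Finset.card_map, hS]
      · intro T hT
        have h1 := hloc (insert (some 0, o) (T.map embS)) (by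
          rw [Finset.card_insert_of_notMem (pin_notMem o T), Finset.card_map, hT])
        refine Hyp_comap embS T _ _
          (h1.restrict (Finset.subset_insert _ _) one_pos fun _ _ _ _ => (one_mul _).symm) ?_
        intro y hy y' hy'
        unfold mat pinW
        have n1 : ∀ z ∈ T, ((some 0, o) : Option (Fin (n + 1)) × Fin 3) ≠ embS z := fun z hz h =>
          pin_notMem o T (h ▸ Finset.mem_map_of_mem _ hz)
        simp only [embS.injective.eq_iff, Finset.map_erase, Finset.erase_insert_of_ne (n1 y hy),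
          Finset.erase_insert_of_ne (n1 y' hy')]
      · intro U j
        rw [cw_pinW, cw_pinW]
        exact hr _ _
    choose m' hm' using hpin
    set P : Fin 3 → ℝ := fun o => ∑ U : Fin n → Fin 3, trw W (Fin.cons o U) with hPdef
    have hP : ∀ o, 0 < P o := fun o => Finset.sum_pos (fun U _ => hp _) univ_nonempty
    set m : Fin 3 → ℝ := fun o =>
      (∑ U : Fin n → Fin 3, trw W (Fin.cons o U) * f (Fin.cons o U)) / P o with hm
    set N := ∑ U, trw W U with hN
    have hNP : N = ∑ o, P o := sum_cons _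
    have hN0 : 0 < N := Finset.sum_pos (fun U _ => hp U) univ_nonempty
    have hPN : ∀ o, N ≤ 3 * R ^ 2 * P o := by
      intro o
      have : ∀ x, P x ≤ R ^ 2 * P o := by
        intro x
        simp only [hPdef, Finset.mul_sum]
        refine Finset.sum_le_sum fun U _ => ?_
        have h1 := (hr (extO 0 (Fin.cons x U)) 0).2
        have h2 := (hr (extO 0 (Fin.cons o U)) 0).1
        have h3 : cw W (some 0) (extO 0 (Fin.cons x U)) = cw W (some 0) (extO 0 (Fin.cons o U)) := by
          rw [← cw_update W (some 0) _ o]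
          congr 1
          funext a
          cases a with
          | none => simp [extO]
          | some k => refine Fin.cases ?_ (fun k => ?_) k <;> simp [extO, Fin.succ_ne_zero]
        rw [cw_none] at h1 h2
        rw [h3] at h1
        nlinarith
      rw [hNP, Fin.sum_univ_three]
      linarith [this 0, this 1, this 2]
    have hsen : 0 ≤ sen (trw W) f := Finset.sum_nonneg fun U _ =>
      mul_nonneg (hp U).le (Finset.sum_nonneg fun _ _ => sq_nonneg _)
    have hdiff : ∀ o, N * (m o - m 0) ^ 2
        ≤ 324 * R ^ 6 * (((n + 1 : ℕ) : ℝ) + 1) ^ 2 * sen (trw W) f := by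
      intro o
      have hb : ∀ o, 1 / P o ≤ 3 * R ^ 2 / N := fun o => by
        rw [div_le_div_iff₀ (hP o) hN0]; linarith [hPN o]
      have h := slot_cov W hpos hloc R hR hr 0
        (fun x => (if x = o then 1 / P o else 0) - if x = 0 then 1 / P 0 else 0) (3 * R ^ 2 / N)
        ?_ ?_ f
      · have e : ∑ U, trw W U * (((if U 0 = o then 1 / P o else 0)
            - if U 0 = 0 then 1 / P 0 else 0) * f U) = m o - m 0 := by
          rw [sum_cons]
          simp only [Fin.cons_zero, sub_mul, mul_sub, Finset.sum_sub_distrib, ite_mul, zero_mul,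
            mul_ite, mul_zero, Finset.sum_ite_irrel, Finset.sum_const_zero, Finset.sum_ite_eq',
            mem_univ, if_true, hm, Finset.sum_div]
          congr 1 <;> exact Finset.sum_congr rfl fun U _ => by ring
        rw [e] at h
        have h2 := mul_le_mul_of_nonneg_left h hN0.le
        refine h2.trans (le_of_eq ?_)
        rw [← hN]
        field_simp
        ring
      · intro x
        have a := hb o
        have b := hb 0
        have a0 : 0 < 1 / P o := by have := hP o; positivity
        have b0 : 0 < 1 / P 0 := by have := hP 0; positivity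
        rw [abs_le]
        constructor <;> split_ifs <;> linarith
      · rw [sum_cons]
        simp only [Fin.cons_zero, mul_sub, Finset.sum_sub_distrib,
          mul_ite, mul_zero, Finset.sum_ite_irrel, Finset.sum_const_zero, Finset.sum_ite_eq',
          mem_univ, if_true, ← Finset.sum_mul]
        have := (hP o).ne'
        have := (hP 0).ne'
        change P o * (1 / P o) - P 0 * (1 / P 0) = 0
        field_simp
        ring
    refine ⟨m 0, ?_⟩
    have h1 : ∑ U, trw W U * (f U - m 0) ^ 2 ≤ ∑ o, (324 * R ^ 6 * ((n : ℝ) + 1) ^ 3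
        * sen (fun U => trw W (Fin.cons o U)) (fun U => f (Fin.cons o U))
        + P o * (m o - m 0) ^ 2) := by
      rw [sum_cons]
      refine Finset.sum_le_sum fun o _ => ?_
      exact (mean_split _ _ (hP o) (m' o) (m 0)).trans (add_le_add_left (hm' o) _)
    have h2 : ∑ o, sen (fun U : Fin n → Fin 3 => trw W (Fin.cons o U)) (fun U => f (Fin.cons o U))
        ≤ sen (trw W) f := by
      unfold sen
      rw [sum_cons (n := n)]
      refine Finset.sum_le_sum fun o _ => Finset.sum_le_sum fun U _ => ?_
      refine mul_le_mul_of_nonneg_left ?_ (hp _).le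
      rw [Fin.sum_univ_succ]
      simp only [Fin.cons_update]
      exact le_add_of_nonneg_left (sq_nonneg _)
    have h3 : ∑ o, P o * (m o - m 0) ^ 2
        ≤ 324 * R ^ 6 * (((n + 1 : ℕ) : ℝ) + 1) ^ 2 * sen (trw W) f := by
      refine le_of_mul_le_mul_left ?_ hN0
      calc _ = ∑ o, P o * (N * (m o - m 0) ^ 2) := by
            rw [Finset.mul_sum]; exact Finset.sum_congr rfl fun o _ => by ring
        _ ≤ ∑ o, P o * (324 * R ^ 6 * (((n + 1 : ℕ) : ℝ) + 1) ^ 2 * sen (trw W) f) :=
            Finset.sum_le_sum fun o _ => mul_le_mul_of_nonneg_left (hdiff o) (hP o).le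
        _ = _ := by rw [← Finset.sum_mul, ← hNP]
    rw [Finset.sum_add_distrib, ← Finset.mul_sum] at h1
    have hn : (0 : ℝ) ≤ n := Nat.cast_nonneg n
    have h4 := mul_le_mul_of_nonneg_left h2
      (show 0 ≤ 324 * R ^ 6 * ((n : ℝ) + 1) ^ 3 by positivity)
    have h5 : ((n : ℝ) + 1) ^ 3 + ((n : ℝ) + 1 + 1) ^ 2 ≤ ((n : ℝ) + 1 + 1) ^ 3 := by nlinarith
    have h6 := mul_le_mul_of_nonneg_left h5 (show 0 ≤ 324 * R ^ 6 * sen (trw W) f by positivity)
    push_cast at h3 ⊢
    nlinarith

end Vale.Agent.P328b
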