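import Vale.Agent.P328b.Box
import Vale.Agent.P328b.Slot
import Vale.Agent.P328b.Lamin

/-! Summing over slot choices with given counts. -/

namespace Vale.Agent.P328b

open Finset Vale.Agent.P317

variable {C : Type} [Fintype C] [DecidableEq C] {I : Type} [DecidableEq I]

/-- Kind of an element: its cell and whether it is an `in` element. -/
def kind (sl : I → Option C) (y : I × Fin 3) : Option (C × Bool) :=
  (sl y.1).map fun c => (c, decide (y.2 = 1))

def cin (sl : I → Option C) (S : Finset (I × Fin 3)) (c : C) : ℕ := cnt (kind sl) S (c, true)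

def cout (sl : I → Option C) (S : Finset (I × Fin 3)) (c : C) : ℕ := cnt (kind sl) S (c, false)

noncomputable def Bn (u x : C → ℕ) : ℝ := ∏ c, ((u c).choose (x c) : ℝ) * 2 ^ (u c - x c)

theorem Bn_up (u x : C → ℕ) (c : C) :
    Bn (up u c) x = (if x c ≤ u c then 2 * Bn u x else 0) + if 0 < x c then Bn u (dn x c) else 0 := by
  have e1 : ∀ (u' x' : C → ℕ), (∀ e, e ≠ c → u' e = u e) → (∀ e, e ≠ c → x' e = x e) →
      Bn u' x' = ((u' c).choose (x' c) : ℝ) * 2 ^ (u' c - x' c)
        * ∏ e ∈ univ.erase c, ((u e).choose (x e) : ℝ) * 2 ^ (u e - x e) := by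
    intro u' x' h1 h2
    unfold Bn
    rw [← Finset.mul_prod_erase univ _ (mem_univ c)]
    congr 1
    exact Finset.prod_congr rfl fun e he => by
      rw [h1 e (Finset.ne_of_mem_erase he), h2 e (Finset.ne_of_mem_erase he)]
  rw [e1 (up u c) x (fun e he => up_ne u he) (fun _ _ => rfl), e1 u x (fun _ _ => rfl)
    (fun _ _ => rfl), e1 u (dn x c) (fun _ _ => rfl) (fun e he => dn_ne x he), up_self, dn_self]
  generalize (∏ e ∈ univ.erase c, ((u e).choose (x e) : ℝ) * 2 ^ (u e - x e)) = P
  rcases Nat.eq_zero_or_pos (x c) with h | h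
  · simp [h, pow_succ]; ring
  · obtain ⟨t, ht⟩ := Nat.exists_eq_add_of_le' h
    rw [ht, Nat.choose_succ_succ', if_pos (Nat.succ_pos t), Nat.add_sub_cancel,
      Nat.add_sub_add_right]
    split_ifs with h2
    · rw [show u c - t = u c - (t + 1) + 1 by omega, pow_succ]
      push_cast; ring
    · rw [Nat.choose_eq_zero_of_lt (show u c < t + 1 by omega)]
      push_cast; ring

theorem sum_box_up (u : C → ℕ) (c : C) (G : (C → ℕ) → ℝ) :
    ∑ x ∈ box (up u c), (if x c ≤ u c then G x else 0) = ∑ x ∈ box u, G x := by
  rw [← Finset.sum_filter]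
  refine Finset.sum_congr ?_ fun _ _ => rfl
  ext x
  simp only [mem_filter, mem_box]
  constructor
  · rintro ⟨h1, h2⟩ e
    by_cases he : e = c
    · rw [he]; exact h2
    · have := h1 e; rwa [up_ne u he] at this
  · intro h
    exact ⟨fun e => (h e).trans (by rw [up_apply]; omega), h c⟩

theorem sum_Bn_up (u : C → ℕ) (c : C) (G : (C → ℕ) → ℝ) :
    ∑ x ∈ box (up u c), Bn (up u c) x * G x
      = ∑ x ∈ box u, Bn u x * (2 * G x + G (up x c)) := by
  simp only [Bn_up, add_mul, Finset.sum_add_distrib, ite_mul, zero_mul]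
  rw [sum_shift, sum_box_up]
  simp only [up_self, Nat.lt_succ_iff, dn_up]
  rw [sum_box_up, ← Finset.sum_add_distrib]
  exact Finset.sum_congr rfl fun x _ => by ring

omit [Fintype C] in
theorem cin_insert (sl : I → Option C) (A : Finset (I × Fin 3)) (l : I) (o : Fin 3) (c : C)
    (hl : sl l = some c) (hA : (l, o) ∉ A) :
    cin sl (insert (l, o) A) = if o = 1 then up (cin sl A) c else cin sl A := by
  funext e
  unfold cin
  rw [cnt_insert _ _ _ hA]
  by_cases ho : o = 1 <;> simp [kind, hl, ho, up_apply, eq_comm]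

omit [Fintype C] in
theorem cout_insert (sl : I → Option C) (A : Finset (I × Fin 3)) (l : I) (o : Fin 3) (c : C)
    (hl : sl l = some c) (hA : (l, o) ∉ A) :
    cout sl (insert (l, o) A) = if o = 1 then cout sl A else up (cout sl A) c := by
  funext e
  unfold cout
  rw [cnt_insert _ _ _ hA]
  by_cases ho : o = 1 <;> simp [kind, hl, ho, up_apply, eq_comm]

theorem push (sl : I → Option C) (H : (C → ℕ) → (C → ℕ) → ℝ) (L : List I) (hL : L.Nodup)
    (hs : ∀ l ∈ L, sl l ≠ none) (u : C → ℕ) (hu : ∀ c, u c = L.countP fun l => sl l = some c)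
    (A : Finset (I × Fin 3)) (hA : ∀ y ∈ A, y.1 ∉ L) :
    agg L (fun S => H (cin sl S) (cout sl S)) A
      = ∑ x ∈ box u, Bn u x * H (cin sl A + x) (cout sl A + (u - x)) := by
  induction L generalizing A u with
  | nil =>
    have : u = 0 := funext fun c => by simpa using hu c
    subst this
    have : box (0 : C → ℕ) = {0} := by
      ext x; simp [mem_box, funext_iff]
    simp [agg, this, Bn]
  | cons l L ih =>
    rw [List.nodup_cons] at hL
    obtain ⟨c, hc⟩ := Option.ne_none_iff_exists'.1 (hs l (by simp))
    have hu' : u = up (fun c => L.countP fun l => sl l = some c) c := by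
      funext e
      rw [hu, List.countP_cons, up_apply]
      simp [hc, eq_comm]
    set u' : C → ℕ := fun c => L.countP fun l => sl l = some c with hu'def
    have hn : ∀ o, (l, o) ∉ A := fun o h => hA _ h (by simp)
    have h1 : ∀ o, agg L (fun S => H (cin sl S) (cout sl S)) (insert (l, o) A)
        = ∑ x ∈ box u', Bn u' x
          * H (cin sl (insert (l, o) A) + x) (cout sl (insert (l, o) A) + (u' - x)) := by
      intro o
      refine ih hL.2 (fun l' h => hs l' (by simp [h])) u' (fun _ => rfl) _ ?_
      intro y hy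
      rcases mem_insert.1 hy with rfl | hy
      · exact hL.1
      · exact fun h => hA y hy (by simp [h])
    rw [agg, Fin.sum_univ_three, h1, h1, h1, hu', sum_Bn_up, ← Finset.sum_add_distrib,
      ← Finset.sum_add_distrib]
    refine Finset.sum_congr rfl fun x hx => ?_
    rw [mem_box] at hx
    simp only [cin_insert sl A l _ c hc (hn _), cout_insert sl A l _ c hc (hn _)]
    have e1 : up (cout sl A) c + (u' - x) = cout sl A + (up u' c - x) := by
      funext e
      have := hx e
      simp only [Pi.add_apply, Pi.sub_apply, up_apply]; omega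
    have e2 : up (cin sl A) c + x = cin sl A + up x c := by
      funext e
      simp only [Pi.add_apply, up_apply]; omega
    have e3 : up u' c - up x c = u' - x := by
      funext e
      simp only [Pi.sub_apply, up_apply]; omega
    simp only [show (0 : Fin 3) ≠ 1 by decide, show (2 : Fin 3) ≠ 1 by decide, if_false, if_true,
      e1, e2, e3]
    ring

/-- Factorial weight. -/
noncomputable def Fw (x y : C → ℕ) : ℝ :=
  ∏ c, ((x c).factorial : ℝ) * ((y c).factorial * (1 / 2) ^ y c)

omit [DecidableEq C] in
theorem Fw_pos (x y : C → ℕ) : 0 < Fw x y :=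
  Finset.prod_pos fun c _ => by
    have := (x c).factorial_pos
    have := (y c).factorial_pos
    positivity

theorem Bn_Fw (u x a b : C → ℕ) (hx : x ∈ box u) (h : ∀ c, u c = 0 ∨ (a c = 0 ∧ b c = 0)) :
    Bn u x * Fw (a + x) (b + (u - x)) = (∏ c, ((u c).factorial : ℝ)) * Fw a b := by
  unfold Bn Fw
  rw [← Finset.prod_mul_distrib, ← Finset.prod_mul_distrib]
  refine Finset.prod_congr rfl fun c _ => ?_
  have hc := mem_box.1 hx c
  simp only [Pi.add_apply, Pi.sub_apply]
  rcases h c with h | h
  · have : x c = 0 := by omega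
    simp [h, this]
  · have e := Nat.choose_mul_factorial_mul_factorial hc
    have e' : ((u c).choose (x c) : ℝ) * (x c).factorial * (u c - x c).factorial
        = (u c).factorial := by exact_mod_cast e
    simp only [h.1, h.2, zero_add, Nat.factorial_zero, Nat.cast_one, pow_zero, mul_one, ← e',
      one_div, inv_pow]
    field_simp

/-- The slot weight built from a potential. -/
noncomputable def Wt (sl : I → Option C) (Ψ : (C → ℕ) → (C → ℕ) → ℝ) (S : Finset (I × Fin 3)) : ℝ :=
  Fw (cin sl S) (cout sl S) * Ψ (cin sl S) (cout sl S)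

theorem exists_cell (u : C → ℕ) :
    ∃ cell : Fin (∑ c, u c) → C, ∀ c, (univ.filter fun j => cell j = c).card = u c := by
  have e : Fin (∑ c, u c) ≃ Σ c, Fin (u c) := Fintype.equivOfCardEq (by simp)
  refine ⟨fun j => (e j).1, fun c => ?_⟩
  rw [Finset.card_bij' (t := (univ : Finset (Σ c, Fin (u c))).filter fun p => p.1 = c)
    (fun j _ => e j) (fun p _ => e.symm p) (by simp) (by simp) (by simp) (by simp)]
  rw [Finset.card_filter, Fintype.sum_sigma]
  have : ∀ x, (∑ _k : Fin (u x), if x = c then 1 else 0) = if x = c then u x else 0 := by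
    intro x; split_ifs <;> simp
  simp only [this, Finset.sum_ite_eq', mem_univ, if_true]

theorem countP_finRange {n : ℕ} (p : Fin n → Prop) [DecidablePred p] :
    (List.finRange n).countP (fun j => p j) = (univ.filter p).card := by
  rw [List.countP_eq_length_filter, ← List.toFinset_card_of_nodup
    ((List.nodup_finRange n).filter _), List.toFinset_filter]
  simp

end Vale.Agent.P328b
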