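import Vale.Agent.P328b.Prog

/-! Refinement of one step of the chain. -/

namespace Vale.Agent.P328b

open Finset Vale.Agent.P317

attribute [local irreducible] par

variable {m n : ℕ}

def Rep (A : ℕ → ℕ) (x : Fin m × Fin n → ℕ) : Prop := ∀ e, A (idx e) = x e

def RepUp (A : ℕ → ℕ) (x : Fin m × Fin n → ℕ) (l : ℕ) : Prop := ∀ e, idx e < l → A (idx e) = x e

theorem RepUp.zero (A : ℕ → ℕ) (x : Fin m × Fin n → ℕ) : RepUp A x 0 :=
  fun _ h => absurd h (Nat.not_lt_zero _)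

theorem RepUp.top {A : ℕ → ℕ} {x : Fin m × Fin n → ℕ} (h : RepUp A x (m * n)) : Rep A x :=
  fun e => h e (idx_lt e)

theorem RepUp.step {A : ℕ → ℕ} {x : Fin m × Fin n → ℕ} {e : Fin m × Fin n}
    (h : RepUp A x (idx e)) {v : ℕ} (hv : v = x e) :
    RepUp (Function.update A (idx e) v) x (idx e + 1) := by
  intro e' he'
  by_cases h' : e' = e
  · rw [h', Function.update_self, hv]
  · have : idx e' ≠ idx e := fun h'' => h' (idx_inj h'')
    rw [Function.update_of_ne this, h e' (by omega)]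

theorem Rep.update {A : ℕ → ℕ} {x y : Fin m × Fin n → ℕ} (h : Rep A x) {e : Fin m × Fin n}
    {v : ℕ} (hv : v = y e) (hy : ∀ e', e' ≠ e → y e' = x e') :
    Rep (Function.update A (idx e) v) y := by
  intro e'
  by_cases h' : e' = e
  · rw [h', Function.update_self, hv]
  · rw [Function.update_of_ne fun h'' => h' (idx_inj h''), h e', hy e' h']

theorem exists_idx {i : ℕ} (h : i < m * n) : ∃ e : Fin m × Fin n, idx e = i :=
  ⟨cellOf i h, idx_cellOf i h⟩

def psum (F : Fin m × Fin n → ℕ) (l : ℕ) : ℕ := ∑ e, if idx e < l then F e else 0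

@[simp] theorem psum_zero (F : Fin m × Fin n → ℕ) : psum F 0 = 0 := by simp [psum]

theorem psum_top (F : Fin m × Fin n → ℕ) : psum F (m * n) = ∑ e, F e := by simp [psum, idx_lt]

theorem psum_succ (F : Fin m × Fin n → ℕ) (e : Fin m × Fin n) :
    psum F (idx e + 1) = psum F (idx e) + F e := by
  unfold psum
  have : ∀ x, (if idx x < idx e + 1 then F x else 0)
      = (if idx x < idx e then F x else 0) + if x = e then F x else 0 := by
    intro x
    by_cases h : x = e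
    · subst h; simp
    · have : idx x ≠ idx e := fun h' => h (idx_inj h')
      simp only [h, if_false, add_zero]
      split_ifs <;> first | rfl | omega
  simp only [this, Finset.sum_add_distrib, Finset.sum_ite_eq', mem_univ, if_true]

/-- The read-only data. -/
structure Env (I : Inst m n) (S : ℕ) (M : Mem) : Prop where
  hn : M 0 1 = n
  hr : ∀ i : Fin m, M 1 i = I.r i
  hc : ∀ j : Fin n, M 2 j = I.c j
  hm : M 0 0 = m
  hP : M vP 0 = par m n
  hD : M vD 0 = m * n
  hSZ : M vSZ 0 = Nat.size (m * n)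
  hS : M vS 0 = S
  hLB : M vLB 0 = Nat.size I.tot
  hTOT : M vTOT 0 = I.tot
  hI0 : M vI0 0 = I.i0
  hJ0 : M vJ0 0 = I.j0
  hPW : ∀ k, k ≤ 600 → M vPW k = par m n ^ k
  hPR : ∀ t, t ≤ m → M vPR t = pre I.r t
  hPC : ∀ t, t ≤ n → M vPC t = pre I.c t

structure Env2 (I : Inst m n) (S : ℕ) (M : Mem) : Prop extends Env I S M where
  hDEL : M vDEL 0 = I.del
  hKK : ∀ e, M vKK (idx e) = I.kk e
  hDL : ∀ e, M vDL (idx e) = I.dd e
  hU : ∀ e, M vU (idx e) = I.uu e

variable {I : Inst m n} {S : ℕ} {M : Mem}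

theorem Env.fr {M' : Mem} {W : List ℕ} (h : Env I S M) (f : Fr W M M')
    (hW : ∀ a ∈ [0, 1, 2, vP, vD, vSZ, vS, vLB, vTOT, vI0, vJ0, vPW, vPR, vPC], a ∉ W) :
    Env I S M' := by
  obtain ⟨_, _, _, _, _, _, _, _, _, _, _, _, _, _, _⟩ := h
  constructor <;> rw [f _ (hW _ (by decide))] <;> assumption

theorem Env2.fr {M' : Mem} {W : List ℕ} (h : Env2 I S M) (f : Fr W M M')
    (hW : ∀ a ∈ W, a = 3 ∨ 20 ≤ a) : Env2 I S M' := by
  have e : ∀ a, a ≠ 3 ∧ a < 20 → a ∉ W := fun a ha h' => by have := hW a h'; omega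
  obtain ⟨h, _, _, _, _⟩ := h
  refine ⟨h.fr f fun a ha => e a (by revert a; decide), ?_, ?_, ?_, ?_⟩ <;>
    rw [f _ (e _ (by decide))] <;> assumption

theorem Env2.set (h : Env2 I S M) (a i v : ℕ) (ha : a = 3 ∨ 20 ≤ a) : Env2 I S (M.set a i v) :=
  h.fr (Fr.set (W := [a]) M (by simp) i v) (by simpa using ha)

theorem Env.pw (h : Env I S M) : HasPW (par m n) M := ⟨h.hP, h.hPW⟩

def wSums : List ℕ := [vSR, vSC, vST, vL, 27]

theorem sumsC_det (h : Env2 I S M) {x : Fin m × Fin n → ℕ} (hx : Rep (M vX) x)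
    {e : Fin m × Fin n} (hk : M vK 0 = idx e) :
    Det sumsC M fun M' => (M' vSR 0 = rowS x e.1 ∧ M' vSC 0 = colS x e.2 ∧ M' vST 0 = ∑ e, x e)
      ∧ Fr wSums M M' := by
  refine Ref.asg_seq (Ref.asg_seq (Ref.asg_seq ((det_forI _ _ _ _ (m * n) (by simp [h.hD])
    (by decide) (fun l M' => (M' vSR 0 = psum (fun c => if c.1 = e.1 then x c else 0) l
      ∧ M' vSC 0 = psum (fun c => if c.2 = e.2 then x c else 0) l ∧ M' vST 0 = psum x l)
      ∧ Fr wSums M M') ?_ ⟨by simp, ?_⟩ ?_).mono ?_)))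
  · rintro i M' v ⟨h1, h2⟩
    exact ⟨by simpa using h1, h2.set_right (by decide) _ _⟩
  · exact ((Fr.set _ (by decide) _ _).set_right (by decide) _ _).set_right (by decide) _ _
  · rintro i hi M' hl ⟨⟨h1, h2, h3⟩, f⟩
    obtain ⟨c, rfl⟩ := exists_idx hi
    have eX := f vX (by decide)
    have e0 := f 0 (by decide)
    have eK := f vK (by decide)
    have d1 : Det (.ifz (neqX (.div (var vL) eN) eI) (incr vSR (.load vX (var vL))) skip) M'
        fun M'' => M'' vSR 0 = psum (fun c => if c.1 = e.1 then x c else 0) (idx c + 1) := by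
      rw [psum_succ]
      by_cases hc : c.1 = e.1
      · exact Ref.ifz_zero (by simp [eval_neqX, e0, eK, hl, hk, h.hn, idx_div, hc])
          (Det.incr (by simp [h1, hc, eX, hl, hx c]))
      · exact Ref.ifz_ne (by simp [eval_neqX, e0, eK, hl, hk, h.hn, idx_div, hc, Fin.val_inj])
          (Det.skip (by simp [h1, hc]))
    refine (d1.frame [vSR, 27] (by decide)).seq ?_
    rintro M1 ⟨g1, f1⟩
    have d2 : Det (.ifz (neqX (.mod (var vL) eN) eJ) (incr vSC (.load vX (var vL))) skip) M1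
        fun M'' => M'' vSC 0 = psum (fun c => if c.2 = e.2 then x c else 0) (idx c + 1) := by
      rw [psum_succ]
      have a1 := f1 0 (by decide)
      have a2 := f1 vK (by decide)
      have a3 := f1 vL (by decide)
      have a4 := f1 vSC (by decide)
      by_cases hc : c.2 = e.2
      · exact Ref.ifz_zero (by simp [eval_neqX, a1, a2, a3, e0, eK, hl, hk, h.hn, idx_mod, hc])
          (Det.incr (by simp [a3, a4, f1 vX (by decide), h2, hc, eX, hl, hx c]))
      · exact Ref.ifz_ne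
          (by simp [eval_neqX, a1, a2, a3, e0, eK, hl, hk, h.hn, idx_mod, hc, Fin.val_inj])
          (Det.skip (by simp [a4, h2, hc]))
    refine (d2.frame [vSC, 27] (by decide)).seq ?_
    rintro M2 ⟨g2, f2⟩
    refine Det.incr ⟨⟨by simp [f2 vSR (by decide), g1], by simp [g2], ?_⟩,
      ((f.trans (f1.mono (by decide))).trans (f2.mono (by decide))).set_right (by decide) _ _⟩
    simp [psum_succ, f2 vST (by decide), f1 vST (by decide), h3, f2 vX (by decide),
      f1 vX (by decide), eX, f2 vL (by decide), f1 vL (by decide), hl, hx c]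
  · rintro M' ⟨⟨h1, h2, h3⟩, f⟩
    refine ⟨⟨?_, ?_, by rw [h3, psum_top]⟩, f⟩
    · rw [h1, psum_top, Fintype.sum_prod_type_right]; simp [rowS]
    · rw [h2, psum_top, Fintype.sum_prod_type]; simp [colS]

def wTry : List ℕ := vX :: vO1 :: vO2 :: vO3 :: vOLD :: vSR :: vSC :: vST :: vL :: wTest

theorem tryC_ref (h : Env2 I S M) {q q' : Fin m × Fin n → ℕ} (hx : Rep (M vX) (I.sc q))
    {e : Fin m × Fin n} (hk : M vK 0 = idx e) (hv : M vNV 0 = I.sc q' e)
    (hq : ∀ e', e' ≠ e → q' e' = q e') :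
    Ref tryC M (I.tryMove q q' e) fun M' y => Rep (M' vX) (I.sc y) := by
  refine (sumsC_det h hx hk).seq ?_
  rintro M1 ⟨⟨a1, a2, a3⟩, f1⟩
  refine Ref.asg_seq (Ref.asg_seq (Ref.asg_seq (Ref.asg_seq (Ref.store_seq ?_))))
  generalize hM2 : Mem.set _ vX _ _ = M2
  have f2 : Fr [vO1, vO2, vO3, vOLD, vX] M1 M2 := by
    rw [← hM2]
    exact ((((Fr.set _ (by decide) _ _).set_right (by decide) _ _).set_right
      (by decide) _ _).set_right (by decide) _ _).set_right (by decide) _ _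
  have k2 : M2 vK 0 = idx e := by rw [f2 _ (by decide), f1 _ (by decide), hk]
  have b : (M2 vO1 0 = rowS (I.sc q) e.1 ∧ M2 vO2 0 = colS (I.sc q) e.2
      ∧ M2 vO3 0 = ∑ e, I.sc q e ∧ M2 vOLD 0 = I.sc q e) := by
    rw [← hM2]
    simp [a1, a2, a3, f1 vX (by decide), f1 vK (by decide), hk, hx e]
  have x2 : Rep (M2 vX) (I.sc q') := by
    rw [← hM2, set_arr]
    simp only [eval_var]
    simp (disch := decide) only [Mem.set_of_ne, f1 _, hk]
    exact hx.update hv fun e' he' => by simp [Inst.sc, hq e' he']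
  clear hM2
  have h2 := (h.fr f1 (by decide)).fr f2 (by decide)
  refine (sumsC_det h2 x2 k2).seq ?_
  rintro M3 ⟨c, f3⟩
  refine Ref.asg_seq ?_
  generalize hM4 : Mem.set _ vACC _ _ = M4
  have f4 : Fr (vACC :: wSums) M2 M4 := by
    rw [← hM4]; exact (f3.mono (by decide)).set_right (by decide) _ _
  have c0 : M4 vACC 0 = 0 := by rw [← hM4]; simp
  replace c : M4 vSR 0 = rowS (I.sc q') e.1 ∧ M4 vSC 0 = colS (I.sc q') e.2
      ∧ M4 vST 0 = ∑ e, I.sc q' e := by rw [← hM4]; simpa using c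
  clear hM4
  have h4 := h2.fr f4 (by decide)
  rw [← f4 vO1 (by decide), ← f4 vO2 (by decide), ← f4 vO3 (by decide), ← f4 vOLD (by decide)] at b
  rw [← f4 vK (by decide)] at k2
  rw [← f4 vX (by decide)] at x2
  unfold Inst.tryMove Inst.testV
  refine (test3_ref I.four_le h4.pw _ _ _ _ _ _
    (by simp [eT, h4.hn, h4.hm, h4.hI0, h4.hJ0, h4.hr, h4.hc, Inst.TT])
    (by simp [eV0, h4.hI0, h4.hJ0, h4.hr, h4.hc, h4.hTOT, h4.hDEL, Inst.viol, b])
    (by simp [eV0, h4.hI0, h4.hJ0, h4.hr, h4.hc, h4.hTOT, h4.hDEL, Inst.viol, c])).seq ?_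
  rintro M5 r1 ⟨d1, f5⟩
  have h5 := h4.fr f5 (by decide)
  refine (test3_ref I.four_le h5.pw _ _ _ _ _ _
    (by simp [eT, h5.hn, h5.hm, h5.hJ0, h5.hr, h5.hc, Inst.TT, f5 vK (by decide), k2, idx_div])
    (by simp [h5.hn, h5.hr, Inst.viol, b, f5 vK (by decide), k2, idx_div, f5 vO1 (by decide)])
    (by simp [h5.hn, h5.hr, Inst.viol, c, f5 vK (by decide), k2, idx_div,
      f5 vSR (by decide)])).seq ?_
  rintro M6 r2 ⟨d2, f6⟩
  have h6 := h5.fr f6 (by decide)
  replace f6 := f5.trans f6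
  refine (test3_ref I.four_le h6.pw _ _ _ _ _ _
    (by simp [eT, h6.hn, h6.hm, h6.hI0, h6.hr, h6.hc, Inst.TT, f6 vK (by decide), k2, idx_mod])
    (by simp [h6.hn, h6.hc, Inst.viol, b, f6 vK (by decide), k2, idx_mod, f6 vO2 (by decide)])
    (by simp [h6.hn, h6.hc, Inst.viol, c, f6 vK (by decide), k2, idx_mod,
      f6 vSC (by decide)])).seq ?_
  rintro M7 r3 ⟨d3, f7⟩
  replace f7 := f6.trans f7
  rw [← f7 vX (by decide)] at x2
  split_ifs with hr
  · exact Ref.ifz_zero (by simp [eval_neqX, d3, d2, d1, c0, hr]) (Ref.skip x2)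
  · refine Ref.ifz_ne (by simp [eval_neqX, d3, d2, d1, c0, hr]) (Det.to_ref (Det.store ?_))
    rw [set_arr, eval_var, eval_var, f7 vK (by decide), k2, f7 vOLD (by decide)]
    exact x2.update b.2.2.2 fun e' he' => by simp [Inst.sc, hq e' he']

theorem moveC_ref (h : Env2 I S M) {q : Fin m × Fin n → ℕ} (hx : Rep (M vX) (I.sc q))
    {e : Fin m × Fin n} (hk : M vK 0 = idx e) :
    Ref moveC M (I.move q e (M vDIR 0)) fun M' y => Rep (M' vX) (I.sc y) := by
  have hd := I.dd_pos e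
  have e1 : I.sc q e / I.dd e = q e := Nat.mul_div_cancel_left _ hd
  unfold Inst.move
  split_ifs with h1 h2 h3 h4
  · refine Ref.ifz_zero h1 (Ref.ifz_ne ?_ (Ref.asg_seq (tryC_ref (h.set _ _ _ (by decide))
      (by simpa using hx) (by simpa using hk) ?_ fun e' he' => up_ne _ he')))
    · simp only [eval_sub, eval_div, eval_atK, hk, h.hU, h.hDL, hx e, e1]
      unfold Inst.QQ at h2; omega
    · simp [hk, hx e, h.hDL, Inst.sc_up]
  · refine Ref.ifz_zero h1 (Ref.ifz_zero ?_ (Ref.skip hx))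
    simp only [eval_sub, eval_div, eval_atK, hk, h.hU, h.hDL, hx e, e1]
    unfold Inst.QQ at h2; omega
  · refine Ref.ifz_ne h1 (Ref.ifz_zero (by simp [h3]) (Ref.ifz_ne ?_ (Ref.asg_seq (tryC_ref
      (h.set _ _ _ (by decide)) (by simpa using hx) (by simpa using hk) ?_
      fun e' he' => dn_ne _ he'))))
    · simp only [eval_atK, hk, hx e]
      exact (Nat.mul_pos hd h4).ne'
    · simp [hk, hx e, h.hDL, Inst.sc, Nat.mul_sub]
  · refine Ref.ifz_ne h1 (Ref.ifz_zero (by simp [h3]) (Ref.ifz_zero ?_ (Ref.skip hx)))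
    simp [hk, hx e, Inst.sc, Nat.eq_zero_of_not_pos h4]
  · exact Ref.ifz_ne h1 (Ref.ifz_ne (by simp; omega) (Ref.skip hx))

theorem bits_asg (e : Expr) (a : ℕ) (M : Mem) (k : ℕ) (hk : e.eval (M.set 25 0 0) = k) :
    Ref (.seq (bitsC e) (asg a (var 25))) M (bits k)
      fun M' r => M' a 0 = r ∧ Fr [a, 25, 26] M M' := by
  refine (bitsC_ref e M k hk).seq_det ?_
  rintro M' r ⟨h1, h2⟩
  exact Det.asg ⟨by simp [h1], (h2.mono (by simp)).set_right (by simp) _ _⟩

def wStep : List ℕ := vK :: vDIR :: vNV :: wTry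

set_option maxRecDepth 8000 in
theorem stepC_w : ∀ a ∈ stepC.writes, a ∈ wStep := by decide

theorem stepC_ref (h : Env2 I S M) {q : Fin m × Fin n → ℕ} (hx : Rep (M vX) (I.sc q)) :
    Ref stepC M (I.step q) fun M' y => Rep (M' vX) (I.sc y) ∧ Env2 I S M' := by
  refine (Ref.frame (R := fun M' y => Rep (M' vX) (I.sc y)) ?_ wStep stepC_w).mono
    fun M' y hy => ⟨hy.1, h.fr hy.2 (by decide)⟩
  unfold Inst.step
  refine (bits_asg _ _ _ _ (by simp [h.hSZ])).seq ?_
  rintro M1 k ⟨h1, f1⟩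
  refine (bits_asg _ _ _ _ rfl).seq ?_
  rintro M2 s ⟨rfl, f2⟩
  have h2 := (h.fr f1 (by decide)).fr f2 (by decide)
  rw [← f2 vK (by decide)] at h1
  rw [← f1 vX (by decide), ← f2 vX (by decide)] at hx
  split_ifs with hk
  · exact Ref.ifz_ne (by simp [h2.hD, h1]; omega)
      (moveC_ref h2 hx (by rw [h1, idx_cellOf]))
  · exact Ref.ifz_zero (by simp [h2.hD, h1]; omega) (Ref.skip hx)

end Vale.Agent.P328b
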