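import Vale.Agent.P328b.SimA

/-! Refinement of the rounds, the initialisation and the whole program. -/

namespace Vale.Agent.P328b

open Finset Vale.Agent.P317

attribute [local irreducible] par

variable {m n : ℕ} {I : Inst m n} {S : ℕ} {M : Mem}

theorem walkC_ref (h : Env2 I S M) :
    Ref walkC M (I.walk S) fun M' y => Rep (M' vX) (I.sc y) ∧ Env2 I S M' := by
  refine (det_forI _ _ _ _ (m * n) (by simp [h.hD]) (by decide)
    (fun l M' => RepUp (M' vX) (I.sc fun _ => 0) l ∧ Env2 I S M') ?_ ⟨RepUp.zero _ _, h⟩ ?_).seq ?_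
  · rintro i M' v ⟨h1, h2⟩
    exact ⟨by simpa using h1, h2.set _ _ _ (by decide)⟩
  · rintro i hi M' hk ⟨h1, h2⟩
    obtain ⟨c, rfl⟩ := exists_idx hi
    refine Det.store ⟨?_, h2.set _ _ _ (by decide)⟩
    rw [set_arr, eval_var, hk]
    exact h1.step rfl
  · rintro M1 ⟨h1, h2⟩
    unfold Inst.walk
    exact Ref.loop (e := var vS) h2.hS ⟨h1.top, h2⟩ fun M2 q hq =>
      Ref.loop (e := ePW 600) (hq.2.hPW 600 le_rfl) hq fun M3 q' hq' => stepC_ref hq'.2 hq'.1

theorem fillC_ref (h : Env2 I S M) {x : Fin m × Fin n → ℕ} (hx : Rep (M vX) x) :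
    Ref fillC M (I.fill x) fun M' y => Rep (M' vX) y ∧ Env2 I S M' := by
  refine ref_forI _ _ _ _ (m * n) (by simp [h.hD]) (by decide) _ _
    (fun _ M' y => Rep (M' vX) y ∧ Env2 I S M') ?_ ⟨hx, h⟩ ?_
  · rintro i M' v y ⟨h1, h2⟩
    exact ⟨by simpa using h1, h2.set _ _ _ (by decide)⟩
  · rintro i hi M' y hk ⟨h1, h2⟩
    obtain ⟨c, rfl⟩ := exists_idx hi
    unfold Inst.fillAt
    rw [dif_pos hi, cellOf_idx]
    refine (bitsC_ref _ _ _ (by simp [h2.hLB, hk, h2.hKK])).seq ?_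
    rintro M1 R ⟨h3, f⟩
    refine Det.to_ref (Det.store ⟨?_, (h2.fr f (by decide)).set _ _ _ (by decide)⟩)
    rw [set_arr, eval_var, f vK (by decide), hk, f vX (by decide)]
    exact h1.update (by simp [f vK (by decide), hk, f vX (by decide), h1 c, h3])
      fun e' he' => Function.update_of_ne he' _ _

theorem checkC_det (h : Env2 I S M) {x : Fin m × Fin n → ℕ} (hx : Rep (M vX) x) :
    Det checkC M fun M' => (M' vBAD 0 = 0 ↔ I.feas x) ∧ Fr (vBAD :: vK :: wSums) M M' := by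
  refine Ref.asg_seq ((det_forI _ _ _ _ (m * n) (by simp [h.hD]) (by decide)
    (fun l M' => M' vBAD 0 = psum (fun e => (rowS x e.1 - I.r e.1) + (colS x e.2 - I.c e.2)
      + (I.tot - (I.r I.i0 + I.c I.j0 + ∑ e, x e))) l ∧ Fr (vBAD :: vK :: wSums) M M') ?_
    ⟨by simp, Fr.set _ (by decide) _ _⟩ ?_).mono ?_)
  · rintro i M' v ⟨h1, h2⟩
    exact ⟨by simpa using h1, h2.set_right (by decide) _ _⟩
  · rintro i hi M' hk ⟨h1, f⟩
    obtain ⟨c, rfl⟩ := exists_idx hi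
    refine (sumsC_det (h.fr f (by decide)) (by rwa [f vX (by decide)]) hk).seq ?_
    rintro M1 ⟨a, f1⟩
    have f2 := f.trans (f1.mono (by decide))
    have h2 := h.fr f2 (by decide)
    refine Det.incr ⟨?_, f2.set_right (by decide) _ _⟩
    simp [psum_succ, f1 vBAD (by decide), h1, a, f1 vK (by decide), hk, h2.hn, idx_div, idx_mod,
      h2.hr, h2.hc, h2.hI0, h2.hJ0, h2.hTOT]
  · rintro M' ⟨h1, f⟩
    refine ⟨?_, f⟩
    rw [h1, psum_top, Finset.sum_eq_zero_iff]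
    constructor
    · intro h2
      refine ⟨fun i => ?_, fun j => ?_, ?_⟩
      · have := h2 (i, I.j0) (mem_univ _); simp only at this; omega
      · have := h2 (I.i0, j) (mem_univ _); simp only at this; omega
      · have := h2 (I.i0, I.j0) (mem_univ _); omega
    · rintro ⟨h2, h3, h4⟩ e _
      have := h2 e.1
      have := h3 e.2
      omega

theorem compC_det (h : Env2 I S M) {x : Fin m × Fin n → ℕ} (hx : Rep (M vX) x) :
    Det compC M fun M' => Rep (M' 3) (I.comp x) ∧ Env2 I S M' := by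
  refine (det_forI _ _ _ _ (m * n) (by simp [h.hD]) (by decide)
    (fun l M' => RepUp (M' 3) (I.comp x) l ∧ Fr (3 :: vK :: wSums) M M') ?_
    ⟨RepUp.zero _ _, Fr.refl _ _⟩ ?_).mono fun M' h' => ⟨h'.1.top, h.fr h'.2 (by decide)⟩
  · rintro i M' v ⟨h1, h2⟩
    exact ⟨by simpa using h1, h2.set_right (by decide) _ _⟩
  · rintro i hi M' hk ⟨h1, f⟩
    obtain ⟨c, rfl⟩ := exists_idx hi
    refine (sumsC_det (h.fr f (by decide)) (by rwa [f vX (by decide)]) hk).seq ?_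
    rintro M1 ⟨a, f1⟩
    have f2 := f.trans (f1.mono (by decide))
    have h2 := h.fr f2 (by decide)
    rw [← f1 vK (by decide)] at hk
    rw [← f1 3 (by decide)] at h1
    have st : ∀ v : Expr, v.eval M1 = I.comp x c → Det (.store 3 (var vK) v) M1
        fun M' => RepUp (M' 3) (I.comp x) (idx c + 1) ∧ Fr (3 :: vK :: wSums) M M' := by
      intro v hv
      refine Det.store ⟨?_, f2.set_right (by decide) _ _⟩
      rw [set_arr, eval_var, hk]
      exact h1.step hv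
    have e1 : (neqX eI (var vI0)).eval M1 = 0 ↔ c.1 = I.i0 := by
      simp [eval_neqX, hk, h2.hn, idx_div, h2.hI0, Fin.val_inj]
    have e2 : (neqX eJ (var vJ0)).eval M1 = 0 ↔ c.2 = I.j0 := by
      simp [eval_neqX, hk, h2.hn, idx_mod, h2.hJ0, Fin.val_inj]
    by_cases hi : c.1 = I.i0 <;> by_cases hj : c.2 = I.j0
    · exact Ref.ifz_zero (e1.2 hi) (Ref.ifz_zero (e2.2 hj) (st _ (by
        simp [Inst.comp, hi, hj, h2.hI0, h2.hJ0, h2.hr, h2.hc, a, h2.hTOT])))
    · exact Ref.ifz_zero (e1.2 hi) (Ref.ifz_ne (mt e2.1 hj) (st _ (by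
        simp [Inst.comp, hi, hj, hk, h2.hn, idx_mod, h2.hc, a])))
    · exact Ref.ifz_ne (mt e1.1 hi) (Ref.ifz_zero (e2.2 hj) (st _ (by
        simp [Inst.comp, hi, hj, hk, h2.hn, idx_div, h2.hr, a])))
    · exact Ref.ifz_ne (mt e1.1 hi) (Ref.ifz_ne (mt e2.1 hj) (st _ (by
        simp [Inst.comp, hi, hj, hk, f2 vX (by decide), hx c])))

set_option maxRecDepth 8000 in
theorem walkC_w : 3 ∉ walkC.writes := by decide

theorem roundC_ref (h : Env2 I S M) {Y : Fin m × Fin n → ℕ} (hY : Rep (M 3) Y) :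
    Ref roundC M (I.round S Y) fun M' y => Rep (M' 3) y ∧ Env2 I S M' := by
  unfold Inst.round
  refine ((walkC_ref h).frame _ fun _ h => h).seq ?_
  rintro M1 q ⟨⟨h1, h2⟩, f1⟩
  refine ((fillC_ref h2 h1).frame _ fun _ h => h).seq ?_
  rintro M2 x ⟨⟨h3, h4⟩, f2⟩
  refine (checkC_det h4 h3).seq ?_
  rintro M3 ⟨h5, f3⟩
  have h6 := h4.fr f3 (by decide)
  split_ifs with hf
  · exact Ref.ifz_zero (h5.2 hf) (compC_det h6 (by rwa [f3 vX (by decide)])).to_ref
  · refine Ref.ifz_ne (mt h5.1 hf) (Ref.skip ⟨?_, h6⟩)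
    rwa [f3 3 (by decide), f2 3 (by decide), f1 3 walkC_w]

theorem mainC_ref (h : Env2 I S M) (hY : Rep (M 3) (nw I.r I.c)) :
    Ref mainC M (I.alg S) fun M' y => Rep (M' 3) y ∧ Env2 I S M' := by
  unfold Inst.alg
  exact Ref.loop (e := var vS) h.hS ⟨hY, h⟩ fun M2 q hq =>
    Ref.loop (e := ePW 4) (hq.2.hPW 4 (by norm_num)) hq fun M3 q' hq' => roundC_ref hq'.2 hq'.1

def wInit : List ℕ := [vDEL, vK, vU, vKK, vV, vDL, 3]

theorem init2_det (h : Env I S M) :
    Det init2 M fun M' => Env2 I S M' ∧ Rep (M' 3) (nw I.r I.c) := by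
  refine Ref.asg_seq ((det_forI _ _ _ _ (m * n) (by simp [h.hD]) (by decide)
    (fun l M' => (RepUp (M' vU) I.uu l ∧ RepUp (M' vKK) I.kk l ∧ RepUp (M' vDL) I.dd l
      ∧ RepUp (M' 3) (nw I.r I.c) l ∧ M' vDEL 0 = psum (fun e => I.dd e - 1) l)
      ∧ Fr wInit M M') ?_ ⟨by simp [RepUp.zero], Fr.set _ (by decide) _ _⟩ ?_).mono ?_)
  · rintro i M' v ⟨h1, h2⟩
    exact ⟨by simpa using h1, h2.set_right (by decide) _ _⟩
  · rintro i hi M' hk ⟨⟨h1, h2, h3, h4, h5⟩, f⟩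
    obtain ⟨c, rfl⟩ := exists_idx hi
    have h' := h.fr f (by decide)
    have d1 : Det uuC M' fun M1 => M1 = M'.set vU (idx c) (I.uu c) := by
      have e1 : (neqX eI (var vI0)).eval M' = 0 ↔ c.1 = I.i0 := by
        simp [eval_neqX, hk, h'.hn, idx_div, h'.hI0, Fin.val_inj]
      have e2 : (neqX eJ (var vJ0)).eval M' = 0 ↔ c.2 = I.j0 := by
        simp [eval_neqX, hk, h'.hn, idx_mod, h'.hJ0, Fin.val_inj]
      by_cases hi : c.1 = I.i0
      · exact Ref.ifz_zero (e1.2 hi) (Det.store (by simp [Inst.uu, hi, hk]))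
      by_cases hj : c.2 = I.j0
      · exact Ref.ifz_ne (mt e1.1 hi) (Ref.ifz_zero (e2.2 hj)
          (Det.store (by simp [Inst.uu, hj, hk])))
      · exact Ref.ifz_ne (mt e1.1 hi) (Ref.ifz_ne (mt e2.1 hj) (Det.store
          (by simp [Inst.uu, hi, hj, hk, h'.hn, idx_div, idx_mod, h'.hr, h'.hc])))
    refine d1.seq ?_
    rintro _ rfl
    refine Ref.store_seq (Ref.asg_seq ?_)
    generalize hM2 : Mem.set _ vV _ _ = M2
    have f2 : Fr [vU, vKK, vV] M' M2 := by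
      rw [← hM2]
      exact ((Fr.set _ (by decide) _ _).set_right (by decide) _ _).set_right (by decide) _ _
    have a1 : M2 vU = Function.update (M' vU) (idx c) (I.uu c) := by
      rw [← hM2]; simp [set_arr]
    have a2 : M2 vKK = Function.update (M' vKK) (idx c) (I.kk c) := by
      rw [← hM2]; simp [set_arr, hk, h'.hPW, Inst.kk]
    have a3 : M2 vV 0 = 1 := by rw [← hM2]; simp
    clear hM2
    refine (Det.loop (k := I.kk c) (by
      simp [f2 vLB (by decide), h'.hLB, f2 vK (by decide), hk, a2, I.kk_le])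
      (fun t M3 => M3 vV 0 = 2 ^ t ∧ Fr [vV] M2 M3) ⟨a3, Fr.refl _ _⟩ ?_).seq ?_
    · rintro t _ M3 ⟨b1, b2⟩
      exact Det.incr ⟨by simp [b1, pow_succ, mul_two], b2.set_right (by decide) _ _⟩
    · rintro M3 ⟨b1, f3⟩
      have f4 : Fr [vU, vKK, vV] M' M3 := f2.trans (f3.mono (by decide))
      have c1 := c.1.2
      have c2 := c.2.2
      refine Ref.store_seq (Ref.asg_seq (Det.store ⟨⟨?_, ?_, ?_, ?_, ?_⟩,
        (((f.trans (f4.mono (by decide))).set_right (by decide) _ _).set_right (by decide) _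
          _).set_right (by decide) _ _⟩))
      · simpa [f3 vU (by decide), a1] using h1.step rfl
      · simpa [f3 vKK (by decide), a2] using h2.step rfl
      · simpa [set_arr, f4 vK (by decide), hk, f4 vDL (by decide), b1] using h3.step (v := 2 ^ I.kk c) rfl
      · rw [set_arr]
        simp only [eval_var]
        simp (disch := decide) only [Mem.set_of_ne, f4 _, hk]
        refine h4.step ?_
        simp [f4 vPR (by decide), f4 vPC (by decide), f4 vK (by decide), f4 0 (by decide), hk,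
          h'.hn, idx_div, idx_mod, h'.hPR _ c1, h'.hPC _ c2, h'.hPR _ c1.le, h'.hPC _ c2.le, nw]
        omega
      · simp [psum_succ, f4 vDEL (by decide), h5, b1, Inst.dd]
  · rintro M' ⟨⟨h1, h2, h3, h4, h5⟩, f⟩
    exact ⟨⟨h.fr f (by decide), by rw [h5, psum_top]; rfl, h2.top, h3.top, h1.top⟩, h4.top⟩

theorem powC_det {P : ℕ} (h : M vP 0 = P) :
    Det powC M fun M' => (∀ k, k ≤ 600 → M' vPW k = P ^ k) ∧ Fr [vV, vAC, vK, vPW] M M' := by
  refine Ref.asg_seq ((det_forI _ _ _ _ 601 rfl (by decide)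
    (fun l M' => (M' vV 0 = P ^ l ∧ ∀ k, k < l → M' vPW k = P ^ k) ∧ Fr [vV, vAC, vK, vPW] M M')
    ?_ ⟨by simp, Fr.set _ (by decide) _ _⟩ ?_).mono
    fun M' h' => ⟨fun k hk => h'.1.2 k (by omega), h'.2⟩)
  · rintro i M' v ⟨h1, h2⟩
    exact ⟨by simpa using h1, h2.set_right (by decide) _ _⟩
  · rintro i _ M' hk ⟨⟨h1, h2⟩, f⟩
    refine Ref.store_seq ((mulC_det _ _ P (by simp [f vP (by decide), h])).mono ?_)
    rintro M1 ⟨h3, f1⟩
    refine ⟨⟨by simp [h3, h1, pow_succ], fun k hk' => ?_⟩,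
      (f.set_right (by decide) _ _).trans (f1.mono (by decide))⟩
    rw [f1 vPW (by decide), Mem.set_same, eval_var, eval_var, hk]
    split_ifs with h4
    · rw [h1, h4]
    · exact h2 k (by omega)

theorem preC_det {k : ℕ} (r : Fin k → ℕ) (dst src : ℕ) (bd : Expr) (h1 : dst ≠ vK)
    (h2 : src ≠ vK) (h3 : src ≠ dst) (hb : bd.eval (M.set vK 0 0) = k)
    (hr : ∀ i : Fin k, M src i = r i) (h0 : M dst 0 = 0) :
    Det (preC dst src bd) M fun M' => (∀ t, t ≤ k → M' dst t = pre r t) ∧ Fr [dst, vK] M M' := by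
  refine det_forI _ _ _ _ k hb (by simpa [Prog.writes] using h1.symm)
    (fun l M' => (∀ t, t ≤ l → M' dst t = pre r t) ∧ Fr [dst, vK] M M') ?_
    ⟨fun t ht => by rw [Nat.le_zero.1 ht, h0, pre_zero], Fr.refl _ _⟩ ?_
  · rintro i M' v ⟨a1, a2⟩
    exact ⟨by simpa [h1] using a1, a2.set_right (by simp) _ _⟩
  · rintro i hi M' hk ⟨a1, f⟩
    refine Det.store ⟨fun t ht => ?_, f.set_right (by simp) _ _⟩
    simp only [Mem.set_same, eval_add, eval_var, eval_const, eval_atK, hk]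
    split_ifs with h4
    · rw [h4, a1 i le_rfl, f src (by simp [h2, h3]), hr ⟨i, hi⟩, pre_succ r ⟨i, hi⟩]
    · exact a1 t (by omega)

theorem argC_det {k : ℕ} (hk0 : 0 < k) (r : Fin k → ℕ) (dst src : ℕ) (bd : Expr) (h1 : dst ≠ vK)
    (h2 : src ≠ vK ∧ src ≠ dst ∧ src ≠ 27) (hb : bd.eval ((M.set dst 0 0).set vK 0 0) = k)
    (hr : ∀ i : Fin k, M src i = r i) :
    Det (argC dst src bd) M fun M' => (∃ i0 : Fin k, M' dst 0 = i0 ∧ ∀ i, r i ≤ r i0)
      ∧ Fr [dst, vK, 27] M M' := by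
  refine Ref.asg_seq ((det_forI _ _ _ _ k hb
    (by simpa [Prog.writes, skip, asg] using h1.symm)
    (fun l M' => (∃ i0 : Fin k, M' dst 0 = i0 ∧ ∀ i : Fin k, i.val < l → r i ≤ r i0)
      ∧ Fr [dst, vK, 27] M M') ?_ ⟨⟨⟨0, hk0⟩, by simp, by simp⟩, Fr.set _ (by simp) _ _⟩ ?_).mono
    fun M' ⟨⟨i0, a1, a2⟩, f⟩ => ⟨⟨i0, a1, fun i => a2 i i.2⟩, f⟩)
  · rintro i M' v ⟨a1, a2⟩
    exact ⟨by simpa [h1] using a1, a2.set_right (by simp) _ _⟩
  · rintro i hi M' hk ⟨⟨i0, a1, a2⟩, f⟩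
    have e : (Expr.sub (atK src) (.load src (var dst))).eval M' = r ⟨i, hi⟩ - r i0 := by
      simp [hk, a1, f src (by simp [h2]), hr, ← hr ⟨i, hi⟩]
    have key : ∀ j : Fin k, j.val < i + 1 → j.val < i ∨ j = ⟨i, hi⟩ := fun j hj =>
      (Nat.lt_succ_iff_lt_or_eq.1 hj).imp id fun h => Fin.ext h
    by_cases hc : r ⟨i, hi⟩ ≤ r i0
    · refine Ref.ifz_zero (by rw [e]; omega) (Det.skip ⟨⟨i0, a1, fun j hj => ?_⟩, f⟩)
      rcases key j hj with h | rfl
      exacts [a2 j h, hc]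
    · refine Ref.ifz_ne (by rw [e]; omega) (Det.asg ⟨⟨⟨i, hi⟩, by simp [hk], fun j hj => ?_⟩,
        f.set_right (by simp) _ _⟩)
      rcases key j hj with h | rfl
      exacts [(a2 j h).trans (by omega), le_rfl]

theorem init0_det (r : Fin m → ℕ) (c : Fin n → ℕ) (E : ℕ) :
    Det init0 (input r c E) fun M' =>
      M' = ((input r c E).set vP 0 (par m n)).set vS 0 (Nat.size E + 1) := by
  refine Ref.asg_seq (Det.asg ?_)
  simp [input, par]

theorem init1_det (hm : 0 < m) (hn : 0 < n) (r : Fin m → ℕ) (c : Fin n → ℕ)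
    (h : ∑ i, r i = ∑ j, c j) (E : ℕ) :
    Det init1 (((input r c E).set vP 0 (par m n)).set vS 0 (Nat.size E + 1)) fun M' =>
      ∃ I : Inst m n, I.r = r ∧ I.c = c ∧ I.Ok ∧ Env I (Nat.size E + 1) M' := by
  generalize hM : Mem.set _ vS _ _ = M
  have a : M 0 0 = m ∧ M 0 1 = n ∧ (∀ i : Fin m, M 1 i = r i) ∧ (∀ j : Fin n, M 2 j = c j)
      ∧ M vP 0 = par m n ∧ M vS 0 = Nat.size E + 1 ∧ M vPR 0 = 0 ∧ M vPC 0 = 0 := by
    rw [← hM]; simp [input]
  obtain ⟨a1, a2, a3, a4, a5, a6, a7, a8⟩ := a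
  refine (powC_det a5).seq ?_
  rintro M1 ⟨b1, f1⟩
  refine (preC_det r _ _ _ (by decide) (by decide) (by decide) (by simp [f1 0 (by decide), a1])
    (by rwa [f1 1 (by decide)]) (by rwa [f1 _ (by decide)])).seq ?_
  rintro M2 ⟨b2, f2⟩
  refine (preC_det c _ _ _ (by decide) (by decide) (by decide)
    (by simp [f2 0 (by decide), f1 0 (by decide), a2])
    (by rwa [f2 2 (by decide), f1 2 (by decide)])
    (by rwa [f2 _ (by decide), f1 _ (by decide)])).seq ?_
  rintro M3 ⟨b3, f3⟩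
  have f4 : Fr [vV, vAC, vK, vPW, vPR, vPC] M M3 :=
    ((f1.mono (by decide)).trans (f2.mono (by decide))).trans (f3.mono (by decide))
  refine (argC_det hm r _ _ _ (by decide) (by decide) (by simp [f4 0 (by decide), a1])
    (by rwa [f4 1 (by decide)])).seq ?_
  rintro M4 ⟨⟨i0, b4, b5⟩, f5⟩
  refine (argC_det hn c _ _ _ (by decide) (by decide)
    (by simp [f5 0 (by decide), f4 0 (by decide), a2])
    (by rwa [f5 2 (by decide), f4 2 (by decide)])).seq ?_
  rintro M5 ⟨⟨j0, b6, b7⟩, f6⟩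
  refine Ref.asg_seq ((mulC_det _ _ n
    (by simp [f6 0 (by decide), f5 0 (by decide), f4 0 (by decide), a2])).seq ?_)
  rintro M6 ⟨b8, f7⟩
  replace f7 : Fr [vV, vAC] M5 M6 := (Fr.set _ (by decide) _ _).trans f7
  replace b8 : M6 vV 0 = m * n := by
    simpa [f6 0 (by decide), f5 0 (by decide), f4 0 (by decide), a1] using b8
  refine Ref.asg_seq (Ref.asg_seq (Ref.asg_seq (Det.asg
    ⟨⟨r, c, i0, j0⟩, rfl, rfl, ⟨h, b5, b7⟩, ?_⟩)))
  have e : M6 vPR m = ∑ i, r i := by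
    rw [f7 _ (by decide), f6 _ (by decide), f5 _ (by decide), f3 _ (by decide), b2 m le_rfl,
      pre_top]
  have e0 : M6 0 0 = m := by
    rw [f7 _ (by decide), f6 _ (by decide), f5 _ (by decide), f4 _ (by decide), a1]
  constructor <;> simp only [eval_len, eval_var, eval_load] <;>
    simp (disch := decide) only [Mem.set_of_ne, Mem.set_self, e0, e, b8, Inst.tot] <;>
    simp (disch := decide) only [f7 _, f6 _, f5 _, f3 _, f2 _, f1 _] <;> assumption

end Vale.Agent.P328b
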