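import Vale.Agent.P328b.Marg
import Vale.Agent.P328b.Decomp
import Vale.Agent.P328b.Fiber

/-! Poincare inequality for the soft table measure on the coarse box. -/

namespace Vale.Agent.P328b

open Finset Vale.Agent.P317

variable {m n : ℕ}

abbrev Vx (m n : ℕ) : Type := Option (Fin m ⊕ Fin n)

/-- Signed incidence of cells and constraints. -/
def inc : Vx m n → Fin m × Fin n → ℝ
  | none, _ => -1
  | some (.inl i), c => if c.1 = i then 1 else 0
  | some (.inr j), c => if c.2 = j then 1 else 0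

theorem sum_inc (σ : Vx m n → ℝ) (c : Fin m × Fin n) :
    ∑ v, σ v * |inc v c| = σ none + σ (some (.inl c.1)) + σ (some (.inr c.2)) := by
  rw [Fintype.sum_option, Fintype.sum_sum_type]
  simp only [inc, abs_neg, abs_one, mul_one, apply_ite abs, abs_zero, mul_ite, mul_zero,
    Finset.sum_ite_eq, mem_univ, if_true]
  ring

noncomputable def PhiE {V : Type} [Fintype V] (K : ℝ) (t : V → ℝ) : ℝ :=
  ∏ v, (K + Real.exp (t v))⁻¹

theorem PhiE_pos {V : Type} [Fintype V] {K : ℝ} (hK : 0 < K) (t : V → ℝ) : 0 < PhiE K t :=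
  Finset.prod_pos fun _ _ => inv_pos.2 (add_pos hK (Real.exp_pos _))

theorem PhiE_le {V : Type} [Fintype V] {K : ℝ} (hK : 0 < K) (t t' e : V → ℝ)
    (h : ∀ v, |t v - t' v| ≤ e v) : PhiE K t ≤ Real.exp (∑ v, e v) * PhiE K t' := by
  unfold PhiE
  rw [Real.exp_sum, ← Finset.prod_mul_distrib]
  exact Finset.prod_le_prod (fun v _ => (inv_pos.2 (add_pos hK (Real.exp_pos _))).le)
    fun v _ => inv_add_exp_le hK _ _ _ (h v)

/-- Linear form seen by a constraint: rows and total see `in` counts, columns see `out` counts. -/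
def lin (U x y : Fin m × Fin n → ℕ) : Vx m n → ℝ
  | none => ∑ c, inc none c * x c
  | some (.inl i) => ∑ c, inc (some (.inl i)) c * x c
  | some (.inr j) => ∑ c, inc (some (.inr j)) c * ((U c : ℝ) - y c)

noncomputable def Psi (K : ℝ) (σ b : Vx m n → ℝ) (U x y : Fin m × Fin n → ℕ) : ℝ :=
  PhiE K fun v => σ v * lin U x y v + b v

theorem lin_up_left (U x y : Fin m × Fin n → ℕ) (c : Fin m × Fin n) (v : Vx m n) :
    |lin U (up x c) y v - lin U x y v| ≤ |inc v c| := by
  rcases v with _ | i | j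
  · simp only [lin, sum_mul_up]; simp
  · simp only [lin, sum_mul_up]; simp
  · simp [lin]

theorem lin_up_right (U x y : Fin m × Fin n → ℕ) (c : Fin m × Fin n) (v : Vx m n) :
    |lin U x (up y c) v - lin U x y v| ≤ |inc v c| := by
  rcases v with _ | i | j
  · simp [lin]
  · simp [lin]
  · simp only [lin, mul_sub, Finset.sum_sub_distrib, sum_mul_up]
    rw [← abs_neg]
    exact le_of_eq (by congr 1; ring)

theorem exp_sum_inc (σ : Vx m n → ℝ) (Λ : ℝ) (hΛ : ∀ v, Real.exp (σ v) ≤ Λ) (c : Fin m × Fin n) :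
    Real.exp (∑ v, σ v * |inc v c|) ≤ Λ ^ 3 := by
  rw [sum_inc, Real.exp_add, Real.exp_add, pow_succ, sq]
  have h0 : 0 ≤ Λ := (Real.exp_pos _).le.trans (hΛ none)
  exact mul_le_mul (mul_le_mul (hΛ _) (hΛ _) (Real.exp_pos _).le h0) (hΛ _) (Real.exp_pos _).le
    (mul_nonneg h0 h0)

theorem Psi_cmp {K : ℝ} (hK : 0 < K) (σ b : Vx m n → ℝ) (hσ : ∀ v, 0 ≤ σ v) (Λ : ℝ)
    (hΛ : ∀ v, Real.exp (σ v) ≤ Λ) (c : Fin m × Fin n) (l l' : Vx m n → ℝ)
    (h : ∀ v, |l v - l' v| ≤ |inc v c|) :
    PhiE K (fun v => σ v * l v + b v) ≤ Λ ^ 3 * PhiE K fun v => σ v * l' v + b v := by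
  refine (PhiE_le hK _ _ (fun v => σ v * |inc v c|) fun v => ?_).trans
    (mul_le_mul_of_nonneg_right (exp_sum_inc σ Λ hΛ c) (PhiE_pos hK _).le)
  rw [show σ v * l v + b v - (σ v * l' v + b v) = σ v * (l v - l' v) by ring, abs_mul,
    abs_of_nonneg (hσ v)]
  exact mul_le_mul_of_nonneg_left (h v) (hσ v)

theorem Psi_rat {K : ℝ} (hK : 0 < K) (σ b : Vx m n → ℝ) (hσ : ∀ v, 0 ≤ σ v) (Λ : ℝ)
    (hΛ : ∀ v, Real.exp (σ v) ≤ Λ) (U : Fin m × Fin n → ℕ) : Rat (Psi K σ b U) (Λ ^ 3) :=
  fun x y c => ⟨Psi_cmp hK σ b hσ Λ hΛ c _ _ (lin_up_left U x y c),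
    Psi_cmp hK σ b hσ Λ hΛ c _ _ fun v => by rw [abs_sub_comm]; exact lin_up_left U x y c v,
    Psi_cmp hK σ b hσ Λ hΛ c _ _ (lin_up_right U x y c),
    Psi_cmp hK σ b hσ Λ hΛ c _ _ fun v => by rw [abs_sub_comm]; exact lin_up_right U x y c v⟩

theorem cnt_map {G K K' : Type} [DecidableEq G] [Fintype K] [DecidableEq K] [DecidableEq K']
    (π : G → Option K) (p : K → K') (S : Finset G) (l : K') :
    (cnt (fun y => (π y).map p) S l : ℝ) = ∑ k, (if p k = l then 1 else 0) * (cnt π S k : ℝ) := by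
  unfold cnt
  simp only [Finset.card_filter, Nat.cast_sum, Finset.mul_sum]
  rw [Finset.sum_comm]
  refine Finset.sum_congr rfl fun y _ => ?_
  cases π y with
  | none => simp
  | some k => simp

theorem lc_exp {K : ℝ} (hK : 0 < K) (a s : ℝ) (t : ℕ) :
    (K + Real.exp (a * t + s))⁻¹ * (K + Real.exp (a * (t + 2 : ℕ) + s))⁻¹
      ≤ (K + Real.exp (a * (t + 1 : ℕ) + s))⁻¹ ^ 2 := by
  have h := pf_id hK (a * t + s) a a
  have e1 : a * (t + 2 : ℕ) + s = a * t + s + a + a := by push_cast; ring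
  have e2 : a * (t + 1 : ℕ) + s = a * t + s + a := by push_cast; ring
  rw [e1, e2, sq, h]
  refine le_mul_of_one_le_right ?_ (by nlinarith [mul_self_nonneg (pf K (a * t + s) a)])
  have := Real.exp_pos (a * t + s)
  have := Real.exp_pos (a * t + s + a + a)
  positivity

theorem Psi_loc {K : ℝ} (hK : 0 < K) (σ b : Vx m n → ℝ) (U : Fin m × Fin n → ℕ) :
    LocH (Psi K σ b U) := by
  intro I _ sl T
  let p1 : (Fin m × Fin n) × Bool → Fin m ⊕ Fin n := fun k =>
    if k.2 then .inl k.1.1 else .inr k.1.2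
  let A : Fin m ⊕ Fin n → ℝ := fun l => match l with
    | .inl i => σ (some (.inl i))
    | .inr j => -σ (some (.inr j))
  let B : Fin m ⊕ Fin n → ℝ := fun l => match l with
    | .inl i => b (some (.inl i))
    | .inr j => σ (some (.inr j)) * ∑ c, inc (some (.inr j)) c * (U c : ℝ) + b (some (.inr j))
  have h := laminar_hyp (kind sl) p1 Sum.isLeft (fun k => if k.2 then 1 else 1 / 2)
    (fun k => by split_ifs <;> norm_num)
    (fun l t => (K + Real.exp (A l * t + B l))⁻¹)
    (fun l t => inv_pos.2 (add_pos hK (Real.exp_pos _))) (fun l t => lc_exp hK _ _ t)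
    (fun k t => if k then (K + Real.exp (-σ none * t + b none))⁻¹ else 1)
    (fun k t => by
      split_ifs
      · exact inv_pos.2 (add_pos hK (Real.exp_pos _))
      · exact one_pos)
    (fun k t => by
      split_ifs
      · exact lc_exp hK _ _ t
      · norm_num) T
  convert h using 2
  funext S
  unfold Wt Fw Psi PhiE lv
  rw [mul_assoc, Fintype.prod_option, Fintype.prod_prod_type (α₂ := Bool), Fintype.prod_bool]
  congr 1
  · refine Finset.prod_congr rfl fun c _ => ?_
    rw [Fintype.prod_bool]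
    simp [cin, cout]
  rw [mul_comm]
  congr 1
  · refine Finset.prod_congr rfl fun l _ => ?_
    congr 3
    rw [cnt_map, Fintype.sum_prod_type]
    rcases l with i | j
    · simp [A, B, lin, inc, p1, cin]
    · simp only [A, B, lin, inc, p1, Fintype.sum_bool, mul_sub, Finset.sum_sub_distrib]
      simp [cout]
      ring
  · simp only [if_true, Bool.false_eq_true, if_false, mul_one]
    congr 3
    have := cnt_map (kind sl) (fun k => (p1 k).isLeft) S true
    simp only [Option.map_map]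
    rw [show (Sum.isLeft ∘ p1) = fun k => (p1 k).isLeft from rfl, this, Fintype.sum_prod_type]
    simp [lin, inc, p1, cin]

theorem Psi_diag (K : ℝ) (σ b : Vx m n → ℝ) (U x y : Fin m × Fin n → ℕ)
    (h : ∀ c, x c + y c = U c) :
    Psi K σ b U x y = Phi K (fun v c => σ v * inc v c) b x := by
  unfold Psi Phi PhiE
  refine Finset.prod_congr rfl fun v _ => ?_
  congr 4
  have e : ∀ c, (U c : ℝ) - y c = x c := fun c => by rw [← h c]; push_cast; ring
  rcases v with _ | i | j <;> simp only [lin, e, Finset.mul_sum, mul_assoc]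

theorem abs_sum_le (a : Fin m × Fin n → ℝ) (δ z : Fin m × Fin n → ℕ) (τ d : ℝ) (hτ : 0 ≤ τ)
    (hd : (Fintype.card (Fin m × Fin n) : ℝ) ≤ d) (ha : ∀ c, δ c ≠ 1 → |a c| * δ c ≤ τ)
    (hz : ∀ c, z c ≤ δ c - 1) : |∑ c, a c * z c| ≤ d * τ := by
  refine (Finset.abs_sum_le_sum_abs _ _).trans ?_
  calc _ ≤ ∑ _c : Fin m × Fin n, τ := Finset.sum_le_sum fun c _ => by
        by_cases h : δ c = 1
        · have : z c = 0 := by have := hz c; omega
          simp [this, hτ]
        · rw [abs_mul, Nat.abs_cast]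
          refine le_trans (mul_le_mul_of_nonneg_left ?_ (abs_nonneg _)) (ha c h)
          exact_mod_cast (hz c).trans (Nat.sub_le _ _)
    _ ≤ _ := by
        rw [Finset.sum_const, card_univ, nsmul_eq_mul]
        exact mul_le_mul_of_nonneg_right hd hτ

/-- Rounding changes the soft weight by at most a factor 3. -/
theorem Phi_round {K : ℝ} (hK : 0 < K) (a : Vx m n → Fin m × Fin n → ℝ) (b : Vx m n → ℝ)
    (δ x z : Fin m × Fin n → ℕ) (τ d M : ℝ) (hτ : 0 ≤ τ)
    (hd : (Fintype.card (Fin m × Fin n) : ℝ) ≤ d) (hM : (Fintype.card (Vx m n) : ℝ) ≤ M)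
    (ha : ∀ v c, δ c ≠ 1 → |a v c| * δ c ≤ τ) (hz : ∀ c, z c ≤ δ c - 1) (h1 : M * (d * τ) ≤ 1) :
    Phi K a b (x + z) ≤ 3 * Phi K a b x ∧ Phi K a b x ≤ 3 * Phi K a b (x + z) := by
  have hd0 : 0 ≤ d := le_trans (Nat.cast_nonneg _) hd
  have e : Real.exp (∑ _v : Vx m n, d * τ) ≤ 3 := by
    rw [Finset.sum_const, card_univ, nsmul_eq_mul]
    have : (Fintype.card (Vx m n) : ℝ) * (d * τ) ≤ 1 :=
      (mul_le_mul_of_nonneg_right hM (by positivity)).trans h1
    exact (Real.exp_le_exp.2 this).trans (Real.exp_one_lt_d9.le.trans (by norm_num))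
  have h : ∀ v, |(∑ c, a v c * ((x + z) c : ℕ) + b v) - (∑ c, a v c * x c + b v)| ≤ d * τ := by
    intro v
    have := abs_sum_le (a v) δ z τ d hτ hd (ha v) hz
    simp only [Pi.add_apply, Nat.cast_add, mul_add, Finset.sum_add_distrib]
    rwa [show ∀ p q r : ℝ, p + q + r - (p + r) = q by intros; ring]
  exact ⟨(Phi_le hK a a b b _ _ _ h).trans (mul_le_mul_of_nonneg_right e (Phi_pos hK _ _ _).le),
    (Phi_le hK a a b b _ _ _ fun v => by rw [abs_sub_comm]; exact h v).trans
      (mul_le_mul_of_nonneg_right e (Phi_pos hK _ _ _).le)⟩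

theorem soft_PI {K : ℝ} (hK : 0 < K) (σ b : Vx m n → ℝ) (hσ : ∀ v, 0 ≤ σ v) (Λ : ℝ) (hΛ1 : 1 ≤ Λ)
    (hΛ : ∀ v, Real.exp (σ v) ≤ Λ) (δ Q : Fin m × Fin n → ℕ) (hδ : ∀ c, 0 < δ c)
    (τ Qb d M : ℝ) (hτ0 : 0 ≤ τ) (hd : (Fintype.card (Fin m × Fin n) : ℝ) ≤ d) (hd1 : 1 ≤ d)
    (hM : (Fintype.card (Vx m n) : ℝ) ≤ M) (hQ : ∀ c, (Q c : ℝ) ≤ Qb) (hQb : 8 ≤ Qb)
    (ha : ∀ v c, δ c ≠ 1 → |σ v * inc v c| * δ c ≤ τ) (h1 : M * (d * τ) ≤ 1)
    (hτ : 100 * d * M * Qb * τ ^ 2 ≤ 1) :
    PI Q (fun q => Phi K (fun v c => σ v * inc v c) b fun c => δ c * q c)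
      (2 * (4 * d * Qb ^ 2) + 6 * (9 * (324 * (2 * Qb * Λ ^ 3) ^ 6 * (d * Qb + 1) ^ 3
        * (Qb * (Λ ^ 3) ^ 2))) * (1 + d * (Λ ^ 3 + 1) * (4 * d * Qb ^ 2))) := by
  set a : Vx m n → Fin m × Fin n → ℝ := fun v c => σ v * inc v c with ha_def
  let QS : Fin m × Fin n → ℕ := fun c => if δ c = 1 then Q c else 0
  let QL : Fin m × Fin n → ℕ := fun c => if δ c = 1 then 0 else Q c
  let UL : Fin m × Fin n → ℕ := fun c => δ c * (QL c + 1) - 1
  have hM1 : 1 ≤ M := le_trans (by exact_mod_cast Fintype.card_pos) hM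
  have hΛ3 : 1 ≤ Λ ^ 3 := one_le_pow₀ hΛ1
  have hQS : ∀ c, (QS c : ℝ) ≤ Qb := fun c => by
    simp only [QS]; split_ifs
    · exact hQ c
    · simp; linarith
  have hQL : ∀ c, (QL c : ℝ) ≤ Qb := fun c => by
    simp only [QL]; split_ifs
    · simp; linarith
    · exact hQ c
  refine decomp_PI Q QS QL (fun c => by simp only [QS, QL]; split_ifs <;> simp) _
    (fun x => (Phi_pos hK _ _ _).le) _ _ _ d (by positivity) (by positivity) (by positivity) hd
    (fun s => ?_) ?_ ?_
  · have h := fiber_PI hK (fun v c => if δ c = 1 then 0 else a v c * δ c)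
      (fun v => b v + ∑ c, a v c * (δ c * s c : ℕ)) QL τ Qb d M hd hd1 hM hM1 hQL hQb
      (fun v c => by
        split_ifs with h
        · simpa using hτ0
        · rw [abs_mul, Nat.abs_cast]; exact ha v c h) hτ0 hτ
    have e : ∀ l ∈ box QL, Phi K a b (fun c => δ c * (s + l) c)
        = Phi K (fun v c => if δ c = 1 then 0 else a v c * δ c)
          (fun v => b v + ∑ c, a v c * (δ c * s c : ℕ)) l := by
      intro l hl
      unfold Phi
      refine Finset.prod_congr rfl fun v _ => ?_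
      congr 3
      beta_reduce
      rw [add_comm (b v), ← add_assoc, ← Finset.sum_add_distrib]
      congr 1
      refine Finset.sum_congr rfl fun c _ => ?_
      have := mem_box.1 hl c
      simp only [QL] at this
      split_ifs at this ⊢ with h
      · have : l c = 0 := by omega
        simp [this]
      · simp only [Pi.add_apply]; push_cast; ring
    have := h.perturb (a := 1) (b := 1) (ν' := fun l => Phi K a b fun c => δ c * (s + l) c)
      (by positivity) zero_le_one (fun l hl => by rw [e l hl, one_mul])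
      (fun l hl => by rw [e l hl, one_mul])
    simpa using this
  · have h := marg_PI (Psi K σ b (QS + UL)) (fun x y => PhiE_pos hK _) (Psi_loc hK σ b _)
      (Λ ^ 3) Qb hΛ3 (Psi_rat hK σ b hσ Λ hΛ _) QS UL (fun c => by
        simp only [QS, UL, QL]; split_ifs with h <;> simp [h]) hQS (by linarith)
    have hZ : (0 : ℝ) < (box fun c => δ c - 1).card :=
      Nat.cast_pos.2 (Finset.card_pos.2 ⟨0, mem_box.2 fun _ => Nat.zero_le _⟩)
    have e : ∀ s ∈ box QS, aggP UL (Psi K σ b (QS + UL)) s (QS - s)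
        = ∑ l ∈ box QL, ∑ z ∈ box (fun c => δ c - 1),
          Phi K a b ((fun c => δ c * (s + l) c) + z) := by
      intro s hs
      unfold aggP
      rw [Finset.sum_congr rfl fun x hx => Psi_diag K σ b (QS + UL) (s + x) (QS - s + (UL - x))
        (fun c => by
          have := mem_box.1 hs c
          have := mem_box.1 hx c
          simp only [Pi.add_apply, Pi.sub_apply]; omega),
        sum_radix UL QL δ hδ (fun c => by
          have : 0 < δ c * (QL c + 1) := Nat.mul_pos (hδ c) (Nat.succ_pos _)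
          simp only [UL]; omega)]
      refine Finset.sum_congr rfl fun l _ => Finset.sum_congr rfl fun z _ => ?_
      congr 1
      funext c
      have := mem_box.1 hs c
      simp only [QS] at this
      simp only [Pi.add_apply]
      split_ifs at this with h
      · rw [h]; ring
      · have : s c = 0 := by omega
        rw [this]; ring
    have hr := fun (s l z : Fin m × Fin n → ℕ) (hz : z ∈ box fun c => δ c - 1) =>
      Phi_round hK a b δ (fun c => δ c * (s + l) c) z τ d M hτ0 hd hM ha (mem_box.1 hz) h1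
    have h2 := h.perturb (ν' := fun s => ∑ l ∈ box QL, Phi K a b fun c => δ c * (s + l) c)
      (a := 3 / (box fun c => δ c - 1).card) (b := 3 * (box fun c => δ c - 1).card)
      (by positivity) (by positivity) (fun s hs => by
        rw [e s hs, div_mul_eq_mul_div, le_div_iff₀ hZ, Finset.sum_mul, Finset.mul_sum]
        refine Finset.sum_le_sum fun l _ => ?_
        rw [mul_comm, ← nsmul_eq_mul, ← Finset.sum_const, Finset.mul_sum]
        exact Finset.sum_le_sum fun z hz => (hr s l z hz).2) (fun s hs => by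
        rw [e s hs, Finset.mul_sum]
        refine Finset.sum_le_sum fun l _ => ?_
        rw [mul_comm (3 : ℝ), mul_assoc, ← nsmul_eq_mul, ← Finset.sum_const]
        exact Finset.sum_le_sum fun z hz => (hr s l z hz).1)
    refine h2.mono (fun s _ => Finset.sum_nonneg fun l _ => (Phi_pos hK _ _ _).le) ?_
    have e2 : 3 / ((box fun c => δ c - 1).card : ℝ) * (3 * (box fun c => δ c - 1).card) = 9 := by
      field_simp; norm_num
    rw [e2]
    have h3 : ((∑ c, QS c : ℕ) : ℝ) ≤ d * Qb := by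
      push_cast
      calc _ ≤ ∑ _c : Fin m × Fin n, Qb := Finset.sum_le_sum fun c _ => hQS c
        _ ≤ _ := by
          rw [Finset.sum_const, card_univ, nsmul_eq_mul]
          exact mul_le_mul_of_nonneg_right hd (by linarith)
    gcongr
  · intro x c hc
    have h2 : δ c = 1 := by
      by_contra h
      simp [QS, h] at hc
    have e : (fun e => δ e * up x c e) = up (fun e => δ e * x e) c := by
      funext e
      simp only [up_apply]
      split_ifs with h
      · subst h; rw [h2]; ring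
      · rfl
    rw [e]
    have := Psi_cmp hK σ b hσ Λ hΛ c (fun v => ∑ e, inc v e * (δ e * x e : ℕ))
      (fun v => ∑ e, inc v e * (up (fun e => δ e * x e) c e : ℕ)) fun v => by
        rw [sum_mul_up]; simp
    simpa only [PhiE, Phi, ha_def, Finset.mul_sum, mul_assoc] using this

end Vale.Agent.P328b
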