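import Vale.Agent.P328b.Count
import Vale.Agent.P317.Spec

/-! Functional description of the sampler. -/

namespace Vale.Agent.P328b

open Finset Vale.Agent.P317

/-- Problem data with the chosen largest row and column. -/
structure Inst (m n : ℕ) where
  r : Fin m → ℕ
  c : Fin n → ℕ
  i0 : Fin m
  j0 : Fin n

def par (m n : ℕ) : ℕ := m + n + 2

def ww (P T : ℕ) : ℕ := if T < 2 * P ^ 6 then 1 else T / (2 * P ^ 6)
def aa (P T : ℕ) : ℕ := if T < 2 * P ^ 6 then P ^ 5 + 1 else P + 1
def bb (P T : ℕ) : ℕ := if T < 2 * P ^ 6 then 1 else P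

def pw (a b J j : ℕ) : ℕ := a ^ min j J * b ^ (J - j)

/-- Integer penalty. -/
def VV (P T s : ℕ) : ℕ :=
  P * pw (aa P T) (bb P T) (P ^ 11) 0 + pw (aa P T) (bb P T) (P ^ 11) (s / ww P T)

/-- 1 with probability proportional to the penalty at `s`. -/
def test (P T s s' : ℕ) : P317.Rand ℕ :=
  (bits (min (P ^ 14) (Nat.size (VV P T s + VV P T s')))).bind fun R =>
    .ret (if R < VV P T s then 1 else 0)

variable {m n : ℕ}

def cellOf (k : ℕ) (h : k < m * n) : Fin m × Fin n := finProdFinEquiv.symm ⟨k, h⟩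

def idx (e : Fin m × Fin n) : ℕ := e.1 * n + e.2

def rowS (x : Fin m × Fin n → ℕ) (i : Fin m) : ℕ := ∑ j, x (i, j)
def colS (x : Fin m × Fin n → ℕ) (j : Fin n) : ℕ := ∑ i, x (i, j)

namespace Inst

variable (I : Inst m n)

def tot : ℕ := ∑ i, I.r i

/-- The hypotheses on the data. -/
structure Ok : Prop where
  sum_eq : ∑ i, I.r i = ∑ j, I.c j
  r_le : ∀ i, I.r i ≤ I.r I.i0
  c_le : ∀ j, I.c j ≤ I.c I.j0

def uu (e : Fin m × Fin n) : ℕ := if e.1 = I.i0 ∨ e.2 = I.j0 then 0 else min (I.r e.1) (I.c e.2)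
def kk (e : Fin m × Fin n) : ℕ := Nat.size (I.uu e / par m n ^ 25)
def dd (e : Fin m × Fin n) : ℕ := 2 ^ I.kk e
def QQ (e : Fin m × Fin n) : ℕ := I.uu e / I.dd e
def del : ℕ := ∑ e, (I.dd e - 1)

def TT : Vx m n → ℕ
  | none => min (I.r I.i0 / n) (I.c I.j0 / m) + 1
  | some (.inl i) => min (I.r i / n) (I.c I.j0 / m) + 1
  | some (.inr j) => min (I.r I.i0 / n) (I.c j / m) + 1

/-- Violation of a constraint, measured at the favourable corner of the block. -/
def viol (x : Fin m × Fin n → ℕ) : Vx m n → ℕ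
  | none => I.tot - (I.r I.i0 + I.c I.j0 + (∑ e, x e + I.del))
  | some (.inl i) => rowS x i - I.r i
  | some (.inr j) => colS x j - I.c j

def sc (q : Fin m × Fin n → ℕ) (e : Fin m × Fin n) : ℕ := I.dd e * q e

def testV (q q' : Fin m × Fin n → ℕ) (v : Vx m n) : P317.Rand ℕ :=
  test (par m n) (I.TT v) (I.viol (I.sc q) v) (I.viol (I.sc q') v)

def tryMove (q q' : Fin m × Fin n → ℕ) (e : Fin m × Fin n) : P317.Rand (Fin m × Fin n → ℕ) :=
  (I.testV q q' none).bind fun a => (I.testV q q' (some (.inl e.1))).bind fun b =>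
    (I.testV q q' (some (.inr e.2))).bind fun c => .ret (if a + b + c = 3 then q' else q)

def move (q : Fin m × Fin n → ℕ) (e : Fin m × Fin n) (s : ℕ) : P317.Rand (Fin m × Fin n → ℕ) :=
  if s = 0 then (if q e < I.QQ e then I.tryMove q (up q e) e else .ret q)
  else if s = 1 then (if 0 < q e then I.tryMove q (dn q e) e else .ret q)
  else .ret q

def step (q : Fin m × Fin n → ℕ) : P317.Rand (Fin m × Fin n → ℕ) :=
  (bits (Nat.size (m * n))).bind fun k => (bits 2).bind fun s =>
    if h : k < m * n then I.move q (cellOf k h) s else .ret q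

def fillAt (k : ℕ) (x : Fin m × Fin n → ℕ) : P317.Rand (Fin m × Fin n → ℕ) :=
  if h : k < m * n then
    (bits (min (Nat.size I.tot) (I.kk (cellOf k h)))).bind fun R =>
      .ret (Function.update x (cellOf k h) (x (cellOf k h) + R))
  else .ret x

def fill (x : Fin m × Fin n → ℕ) : P317.Rand (Fin m × Fin n → ℕ) := iterIdx I.fillAt (m * n) x

def feas (x : Fin m × Fin n → ℕ) : Prop :=
  (∀ i, rowS x i ≤ I.r i) ∧ (∀ j, colS x j ≤ I.c j) ∧ I.tot ≤ I.r I.i0 + I.c I.j0 + ∑ e, x e

instance (x : Fin m × Fin n → ℕ) : Decidable (I.feas x) := by unfold feas; infer_instance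

/-- Completion of the free cells to a table. -/
def comp (x : Fin m × Fin n → ℕ) (e : Fin m × Fin n) : ℕ :=
  if e.1 = I.i0 then
    (if e.2 = I.j0 then I.r I.i0 + I.c I.j0 + ∑ e, x e - I.tot else I.c e.2 - colS x e.2)
  else if e.2 = I.j0 then I.r e.1 - rowS x e.1 else x e

def walk (S : ℕ) : P317.Rand (Fin m × Fin n → ℕ) :=
  iter (iter I.step (par m n ^ 600)) S fun _ => 0

def round (S : ℕ) (Y : Fin m × Fin n → ℕ) : P317.Rand (Fin m × Fin n → ℕ) :=
  (I.walk S).bind fun q => (I.fill (I.sc q)).bind fun x => .ret (if I.feas x then I.comp x else Y)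

end Inst

/-- Initial sums. -/
def pre {k : ℕ} (r : Fin k → ℕ) (t : ℕ) : ℕ := ∑ i : Fin k, if i.val < t then r i else 0

/-- North-west corner table. -/
def nw (r : Fin m → ℕ) (c : Fin n → ℕ) (e : Fin m × Fin n) : ℕ :=
  min (pre r (e.1 + 1)) (pre c (e.2 + 1)) - max (pre r e.1) (pre c e.2)

def Inst.alg (I : Inst m n) (S : ℕ) : P317.Rand (Fin m × Fin n → ℕ) :=
  iter (iter (I.round S) (par m n ^ 4)) S (nw I.r I.c)

theorem cellOf_fst (k : ℕ) (h : k < m * n) : ((cellOf k h).1 : ℕ) = k / n := rfl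

theorem cellOf_snd (k : ℕ) (h : k < m * n) : ((cellOf k h).2 : ℕ) = k % n := rfl

theorem idx_cellOf (k : ℕ) (h : k < m * n) : idx (cellOf k h) = k := Nat.div_add_mod' k n

theorem idx_lt (e : Fin m × Fin n) : idx e < m * n := by
  have h1 := e.1.2
  have h2 := e.2.2
  have : (e.1 + 1) * n ≤ m * n := Nat.mul_le_mul_right n h1
  unfold idx
  rw [Nat.add_mul] at this
  omega

theorem idx_div (e : Fin m × Fin n) : idx e / n = e.1 := by
  unfold idx
  rw [add_comm, Nat.add_mul_div_right _ _ e.2.pos, Nat.div_eq_of_lt e.2.2, zero_add]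

theorem idx_mod (e : Fin m × Fin n) : idx e % n = e.2 := by
  unfold idx
  rw [add_comm, Nat.add_mul_mod_self_right, Nat.mod_eq_of_lt e.2.2]

theorem cellOf_idx (e : Fin m × Fin n) : cellOf (idx e) (idx_lt e) = e :=
  Prod.ext (Fin.ext (idx_div e)) (Fin.ext (idx_mod e))

theorem idx_inj : Function.Injective (idx : Fin m × Fin n → ℕ) := fun e e' h =>
  Prod.ext (Fin.ext (by rw [← idx_div e, h, idx_div])) (Fin.ext (by rw [← idx_mod e, h, idx_mod]))

theorem sum_cellOf {M : Type} [AddCommMonoid M] (F : Fin m × Fin n → M) :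
    ∑ k : Fin (m * n), F (cellOf k k.2) = ∑ e, F e :=
  Fintype.sum_equiv finProdFinEquiv.symm _ _ fun _ => rfl

theorem iter_add {α : Type} (f : α → P317.Rand α) (a b : ℕ) (x : α) :
    iter f (a + b) x = (iter f a x).bind (iter f b) := by
  induction a generalizing x with
  | zero => simp [iter]
  | succ a ih =>
    rw [Nat.succ_add, iter, iter, P317.Rand.bind_assoc]
    congr 1
    funext y
    exact ih y

theorem iter_iter {α : Type} (f : α → P317.Rand α) (a b : ℕ) (x : α) :
    iter (iter f a) b x = iter f (a * b) x := by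
  induction b generalizing x with
  | zero => simp [iter]
  | succ b ih =>
    rw [iter, Nat.mul_succ, add_comm, iter_add]
    congr 1
    funext y
    exact ih y

theorem sum_range_dbl (k : ℕ) (f : ℕ → ℝ) :
    ∑ r ∈ range (2 * k), f r = ∑ r ∈ range k, (f (r + r) + f (r + r + 1)) := by
  induction k with
  | zero => simp
  | succ k ih =>
    rw [show 2 * (k + 1) = 2 * k + 1 + 1 by ring, sum_range_succ, sum_range_succ, ih,
      sum_range_succ, two_mul]
    ring

theorem E_bits' (k : ℕ) (f : ℕ → ℝ) : (bits k).E f = (∑ r ∈ range (2 ^ k), f r) / 2 ^ k := by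
  induction k generalizing f with
  | zero => simp [bits, iter]
  | succ k ih =>
    have h : bits (k + 1) = (bits k).bind fun r => coinR.bind fun c => .ret (r + r + c) :=
      iter_succ' _ _ _
    rw [h, P317.Rand.E_bind, ih, pow_succ' 2 k, sum_range_dbl]
    simp only [coinR, P317.Rand.flip_bind, P317.Rand.ret_bind, P317.Rand.E_flip, P317.Rand.E_ret,
      add_zero]
    rw [← Finset.sum_div, pow_succ]
    field_simp

theorem sum_range_dite' (a b : ℕ) (hab : a ≤ b) (F : (k : ℕ) → k < a → ℝ) :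
    ∑ j ∈ range b, (if h : j < a then F j h else 0) = ∑ j : Fin a, F j j.2 := by
  rw [← Finset.sum_subset (range_subset_range.2 hab)
    (fun j _ hj => dif_neg (by simpa using hj)), Finset.sum_range]
  exact Finset.sum_congr rfl fun j _ => dif_pos j.2

theorem pre_succ {k : ℕ} (r : Fin k → ℕ) (i : Fin k) : pre r (i + 1) = pre r i + r i := by
  unfold pre
  have : ∀ x : Fin k, (if x.val < i + 1 then r x else 0)
      = (if x.val < i then r x else 0) + if x = i then r x else 0 := by
    intro x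
    by_cases h : x = i
    · subst h; simp
    · have : x.val ≠ i := fun h' => h (Fin.ext h')
      simp only [h, if_false, add_zero]
      split_ifs <;> first | rfl | omega
  simp only [this, Finset.sum_add_distrib, Finset.sum_ite_eq', mem_univ, if_true]

theorem pre_zero {k : ℕ} (r : Fin k → ℕ) : pre r 0 = 0 := by simp [pre]

theorem pre_top {k : ℕ} (r : Fin k → ℕ) : pre r k = ∑ i, r i := by simp [pre]

theorem pre_le {k : ℕ} (r : Fin k → ℕ) (t : ℕ) : pre r t ≤ ∑ i, r i :=
  Finset.sum_le_sum fun i _ => by split_ifs <;> simp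

theorem sum_overlap {k : ℕ} (c : Fin k → ℕ) (a b : ℕ) (hab : a ≤ b) (hb : b ≤ ∑ j, c j) :
    ∑ j : Fin k, (min b (pre c (j + 1)) - max a (pre c j)) = b - a := by
  have h : ∀ t, t ≤ k → ∑ j ∈ range t, (min b (pre c (j + 1)) - max a (pre c j))
      = min b (max a (pre c t)) - a := by
    intro t ht
    induction t with
    | zero => simp [pre_zero]
    | succ t ih =>
      rw [sum_range_succ, ih (by omega)]
      have := pre_succ c ⟨t, ht⟩
      simp only at this
      omega
  have := h k le_rfl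
  rw [Finset.sum_range (fun j => min b (pre c (j + 1)) - max a (pre c j)), pre_top] at this
  rw [this]
  omega

theorem nw_mem (r : Fin m → ℕ) (c : Fin n → ℕ) (h : ∑ i, r i = ∑ j, c j) :
    nw r c ∈ tables r c := by
  refine mem_tables.2 ⟨fun i => ?_, fun j => ?_⟩
  · have := sum_overlap c (pre r i) (pre r (i + 1)) (by rw [pre_succ]; omega)
      (h ▸ pre_le r _)
    simp only [nw]
    rw [this, pre_succ]; omega
  · have := sum_overlap r (pre c j) (pre c (j + 1)) (by rw [pre_succ]; omega)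
      (h ▸ pre_le c _)
    simp only [nw, min_comm (pre r _), max_comm (pre r _)]
    rw [this, pre_succ]; omega

end Vale.Agent.P328b
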