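import Vale.Agent.P328b.Params

/-! The stationary weight of the chain and its Poincare inequality. -/

namespace Vale.Agent.P328b

open Finset

theorem kappa_le {p : ℝ} (hp : 4 ≤ p) :
    9 * 9 * (2 * (4 * p ^ 2 * (p ^ 25) ^ 2) + 6 * (9 * (324 * (2 * p ^ 25 * (p ^ 6) ^ 3) ^ 6
      * (p ^ 2 * p ^ 25 + 1) ^ 3 * (p ^ 25 * ((p ^ 6) ^ 3) ^ 2)))
      * (1 + p ^ 2 * ((p ^ 6) ^ 3 + 1) * (4 * p ^ 2 * (p ^ 25) ^ 2))) ≤ p ^ 497 := by
  have p0 : 0 < p := by linarith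
  have k : ∀ k l : ℕ, l = k + 1 → 1 ≤ p ^ k ∧ 4 * p ^ k ≤ p ^ l := fun k l h =>
    ⟨one_le_pow₀ (by linarith), by
      rw [h, pow_succ']; exact mul_le_mul_of_nonneg_right hp (by positivity)⟩
  have a1 : 2 * p ^ 25 * (p ^ 6) ^ 3 ≤ p ^ 44 := by
    obtain ⟨c1, c2⟩ := k 43 44 rfl
    rw [show 2 * p ^ 25 * (p ^ 6) ^ 3 = 2 * p ^ 43 by ring]; linarith
  have a2 : p ^ 2 * p ^ 25 + 1 ≤ p ^ 28 := by
    obtain ⟨c1, c2⟩ := k 27 28 rfl
    rw [show p ^ 2 * p ^ 25 = p ^ 27 by ring]; linarith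
  have a3 : (p ^ 6) ^ 3 + 1 ≤ p ^ 19 := by
    obtain ⟨c1, c2⟩ := k 18 19 rfl
    rw [show (p ^ 6) ^ 3 = p ^ 18 by ring]; linarith
  have a4 : 4 * p ^ 2 * (p ^ 25) ^ 2 ≤ p ^ 53 := by
    obtain ⟨c1, c2⟩ := k 52 53 rfl
    rw [show 4 * p ^ 2 * (p ^ 25) ^ 2 = 4 * p ^ 52 by ring]; linarith
  have a5 : 1 + p ^ 2 * ((p ^ 6) ^ 3 + 1) * (4 * p ^ 2 * (p ^ 25) ^ 2) ≤ p ^ 75 := by
    obtain ⟨c1, c2⟩ := k 74 75 rfl
    have b : p ^ 2 * ((p ^ 6) ^ 3 + 1) * (4 * p ^ 2 * (p ^ 25) ^ 2) ≤ p ^ 2 * p ^ 19 * p ^ 53 := by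
      gcongr
    rw [show p ^ 2 * p ^ 19 * p ^ 53 = p ^ 74 by ring] at b
    linarith
  have a6 : (4 : ℝ) ^ 8 ≤ p ^ 8 := by gcongr
  have a7 : (4 : ℝ) ^ 4 ≤ p ^ 4 := by gcongr
  have a8 : 6 * (9 * (324 * (2 * p ^ 25 * (p ^ 6) ^ 3) ^ 6
      * (p ^ 2 * p ^ 25 + 1) ^ 3 * (p ^ 25 * ((p ^ 6) ^ 3) ^ 2)))
      * (1 + p ^ 2 * ((p ^ 6) ^ 3 + 1) * (4 * p ^ 2 * (p ^ 25) ^ 2)) ≤ p ^ 492 := by
    calc _ ≤ 6 * (9 * (324 * (p ^ 44) ^ 6 * (p ^ 28) ^ 3 * (p ^ 25 * ((p ^ 6) ^ 3) ^ 2)))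
          * p ^ 75 := by gcongr
      _ = 17496 * p ^ 484 := by ring
      _ ≤ p ^ 8 * p ^ 484 := by gcongr; linarith
      _ = _ := by ring
  have a9 : p ^ 54 ≤ p ^ 492 := pow_le_pow_right₀ (by linarith) (by norm_num)
  obtain ⟨b1, b2⟩ := k 53 54 rfl
  obtain ⟨b3, b4⟩ := k 492 493 rfl
  calc _ ≤ 9 * 9 * p ^ 493 := by gcongr 9 * 9 * ?_; linarith
    _ ≤ p ^ 4 * p ^ 493 := by gcongr; linarith
    _ = _ := by ring

variable {m n : ℕ}

namespace Inst

variable (I : Inst m n)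

/-- Signed violation. -/
def tz (x : Fin m × Fin n → ℕ) : Vx m n → ℤ
  | none => I.tot - (I.r I.i0 + I.c I.j0 + ∑ e, x e : ℕ)
  | some (.inl i) => rowS x i - I.r i
  | some (.inr j) => colS x j - I.c j

/-- The smooth weight. -/
noncomputable def ph (x : Fin m × Fin n → ℕ) : ℝ :=
  Phi (par m n) (fun v c => I.sg v * inc v c) (fun v => I.sg v * I.tz 0 v) x

theorem ph_eq (x : Fin m × Fin n → ℕ) :
    I.ph x = ∏ v, ((par m n : ℝ) + Real.exp (I.sg v * I.tz x v))⁻¹ := by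
  unfold ph Phi
  refine Finset.prod_congr rfl fun v _ => ?_
  congr 3
  simp only [mul_assoc, ← Finset.mul_sum]
  rw [← mul_add]
  congr 1
  rcases v with _ | i | j
  · simp [inc, tz]; ring
  · simp [inc, tz, rowS, Fintype.sum_prod_type_right]; ring
  · simp [inc, tz, colS, Fintype.sum_prod_type]; ring

/-- Integer penalty of constraint `v` at coarse point `q`. -/
def Vq (q : Fin m × Fin n → ℕ) (v : Vx m n) : ℕ := VV (par m n) (I.TT v) (I.viol (I.sc q) v)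

/-- Stationary weight. -/
noncomputable def nu (q : Fin m × Fin n → ℕ) : ℝ := ∏ v, (I.Vq q v : ℝ)⁻¹

noncomputable def cst : ℝ := ∏ v, (bb (par m n) (I.TT v) : ℝ) ^ par m n ^ 11

theorem Vq_pos (q : Fin m × Fin n → ℕ) (v : Vx m n) : 0 < I.Vq q v := VV_pos I.four_le _

theorem nu_pos (q : Fin m × Fin n → ℕ) : 0 < I.nu q :=
  Finset.prod_pos fun v _ => inv_pos.2 (by exact_mod_cast I.Vq_pos q v)

theorem cst_pos : 0 < I.cst :=
  Finset.prod_pos fun _ _ => pow_pos (by exact_mod_cast bb_pos I.four_le) _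

include I in
theorem small : (par m n : ℝ) * ((par m n : ℝ) ^ 2 * (1 / (par m n : ℝ) ^ 16)) ≤ 1 := by
  have hP' : (4 : ℝ) ≤ par m n := by exact_mod_cast I.four_le
  rw [show (par m n : ℝ) * ((par m n : ℝ) ^ 2 * (1 / (par m n : ℝ) ^ 16))
    = 1 / (par m n : ℝ) ^ 13 by field_simp]
  exact (div_le_one (by positivity)).2 (one_le_pow₀ (by linarith))

theorem card_cell_le : (Fintype.card (Fin m × Fin n) : ℝ) ≤ (par m n : ℝ) ^ 2 := by
  rw [card_cell]; exact_mod_cast mn_le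

theorem sg_del (h : I.Ok) : I.sg none * I.del ≤ 1 / par m n := by
  have hP' : (4 : ℝ) ≤ par m n := by exact_mod_cast I.four_le
  have h1 := abs_sum_le (fun c => I.sg none * inc none c) I.dd (fun c => I.dd c - 1) _ _
    (by positivity) card_cell_le (I.sg_dd h none) fun _ => le_rfl
  have h2 : ∑ c, I.sg none * inc none c * (I.dd c - 1 : ℕ) = -(I.sg none * I.del) := by
    simp [inc, del, Finset.mul_sum]
  rw [h2, abs_neg] at h1
  rw [le_div_iff₀' (by positivity)]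
  exact (mul_le_mul_of_nonneg_left ((le_abs_self _).trans h1) (by positivity)).trans I.small

theorem nu_cmp (h : I.Ok) {q : Fin m × Fin n → ℕ} (hq : q ∈ box I.QQ) :
    I.cst * I.nu q ≤ 9 * I.ph (I.sc q) ∧ I.ph (I.sc q) ≤ 9 * (I.cst * I.nu q) := by
  have hP := I.four_le
  have hP' : (4 : ℝ) ≤ par m n := by exact_mod_cast hP
  have key : ∀ v, _ := fun v => factor_cmp hP (I.viol_le h hq v) (I.tz (I.sc q) v)
    (if v = none then I.del else 0) (1 / par m n)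
    (by
      split_ifs with hv
      · subst hv; exact I.sg_del h
      · simp)
    (by rcases v with _ | i | j <;> simp only [tz, viol, reduceCtorEq, if_true, if_false] <;> omega)
    (by rcases v with _ | i | j <;> simp only [tz, viol] <;> omega)
  have e : ∏ _v : Vx m n, Real.exp (1 / par m n + 1 / par m n) ≤ 9 := by
    rw [Finset.prod_const, ← Real.exp_nat_mul, card_univ]
    have a1 : (Fintype.card (Vx m n) : ℝ) ≤ par m n := by exact_mod_cast card_Vx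
    have a2 : (Fintype.card (Vx m n) : ℝ) * (1 / par m n + 1 / par m n) ≤ 1 + 1 :=
      (mul_le_mul_of_nonneg_right a1 (by positivity)).trans (le_of_eq (by field_simp))
    refine (Real.exp_le_exp.2 a2).trans ?_
    rw [Real.exp_add]
    have := Real.exp_one_lt_d9
    have := Real.exp_pos 1
    nlinarith
  have p1 := I.nu_pos q
  have p2 := I.cst_pos
  have p3 : 0 < I.ph (I.sc q) := Phi_pos (by linarith) _ _ _
  constructor
  · refine le_trans ?_ (mul_le_mul_of_nonneg_right e p3.le)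
    rw [ph_eq, cst, nu, ← Finset.prod_mul_distrib, ← Finset.prod_mul_distrib]
    exact Finset.prod_le_prod (fun v _ => mul_nonneg (pow_nonneg (Nat.cast_nonneg _) _)
      (inv_nonneg.2 (Nat.cast_nonneg _))) fun v _ => (key v).1
  · refine le_trans ?_ (mul_le_mul_of_nonneg_right e (mul_pos p2 p1).le)
    rw [ph_eq, cst, nu, ← Finset.prod_mul_distrib, ← Finset.prod_mul_distrib]
    exact Finset.prod_le_prod (fun v _ => by positivity) fun v _ => (key v).2

theorem nu_PI (h : I.Ok) : PI I.QQ I.nu ((par m n : ℝ) ^ 497) := by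
  have hP := I.four_le
  have hP' : (4 : ℝ) ≤ par m n := by exact_mod_cast hP
  have p2 := I.cst_pos
  have h1 := soft_PI (K := par m n) (by linarith) I.sg (fun v => I.sg v * I.tz 0 v)
    (fun _ => sig_nonneg hP) ((par m n : ℝ) ^ 6) (one_le_pow₀ (by linarith))
    (fun _ => exp_sig_le hP) I.dd I.QQ I.dd_pos (1 / (par m n : ℝ) ^ 16) ((par m n : ℝ) ^ 25)
    ((par m n : ℝ) ^ 2) (par m n) (by positivity) card_cell_le (one_le_pow₀ (by linarith))
    (by exact_mod_cast card_Vx) (fun c => by exact_mod_cast I.QQ_le c)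
    (le_trans (by norm_num) (pow_le_pow_left₀ (by norm_num) hP' 25)) (I.sg_dd h) I.small
    (by
      rw [show 100 * (par m n : ℝ) ^ 2 * par m n * par m n ^ 25 * (1 / (par m n : ℝ) ^ 16) ^ 2
        = 100 / (par m n : ℝ) ^ 4 by field_simp]
      exact (div_le_one (by positivity)).2
        (le_trans (by norm_num) (pow_le_pow_left₀ (by norm_num) hP' 4)))
  have h2 := h1.perturb (ν' := I.nu) (a := 9 / I.cst) (b := 9 * I.cst) (by positivity)
    (by positivity)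
    (fun q hq => by
      rw [div_mul_eq_mul_div, le_div_iff₀' p2]; exact (I.nu_cmp h hq).1)
    (fun q hq => by rw [mul_assoc]; exact (I.nu_cmp h hq).2)
  refine h2.mono (fun q _ => (I.nu_pos q).le) (le_trans (le_of_eq ?_) (kappa_le hP'))
  rw [show 9 / I.cst * (9 * I.cst) = 9 * 9 by field_simp]

theorem nu_start : ∑ q ∈ box I.QQ, I.nu q ≤ 2 ^ (2 * par m n ^ 15) * I.nu 0 := by
  have hP := I.four_le
  have h1 : ∀ q, I.nu q ≤ 1 := fun q => Finset.prod_le_one (fun _ _ => by positivity)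
    fun v _ => inv_le_one_of_one_le₀ (by exact_mod_cast I.Vq_pos q v)
  have h2 : (box I.QQ).card ≤ 2 ^ par m n ^ 15 := by
    rw [card_box]
    have a : par m n ^ 25 + 1 ≤ 2 ^ (par m n * 25) := by
      rw [pow_mul]; exact Nat.pow_lt_pow_left Nat.lt_two_pow_self (by norm_num)
    refine (Finset.prod_le_pow_card _ _ _ fun c _ =>
      (Nat.succ_le_succ (I.QQ_le c)).trans a).trans ?_
    rw [← pow_mul, card_univ, card_cell]
    refine Nat.pow_le_pow_right (by norm_num) ?_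
    have b : 25 ≤ par m n ^ 12 := le_trans (by norm_num) (Nat.pow_le_pow_left hP 12)
    calc _ ≤ par m n * par m n ^ 12 * par m n ^ 2 := by gcongr; exact mn_le
      _ = _ := by ring
  have h3 : ∏ v, I.Vq 0 v ≤ 2 ^ par m n ^ 15 := by
    refine (Finset.prod_le_pow_card _ _ (2 ^ par m n ^ 14) fun v _ =>
      (Nat.le_add_right (VV (par m n) (I.TT v) (I.viol (I.sc 0) v)) _).trans
        (VV_lt hP _ 0).le).trans ?_
    rw [← pow_mul, show par m n ^ 15 = par m n ^ 14 * par m n by ring, card_univ]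
    exact Nat.pow_le_pow_right (by norm_num) (Nat.mul_le_mul_left _ card_Vx)
  have h4 : 1 ≤ 2 ^ par m n ^ 15 * I.nu 0 := by
    unfold nu
    rw [Finset.prod_inv_distrib, ← div_eq_mul_inv, one_le_div
      (Finset.prod_pos fun v _ => by exact_mod_cast I.Vq_pos 0 v)]
    exact_mod_cast h3
  calc _ ≤ ((box I.QQ).card : ℝ) := by
        simpa using Finset.sum_le_card_nsmul (box I.QQ) I.nu 1 fun q _ => h1 q
    _ ≤ 2 ^ par m n ^ 15 * 1 := by rw [mul_one]; exact_mod_cast h2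
    _ ≤ 2 ^ par m n ^ 15 * (2 ^ par m n ^ 15 * I.nu 0) := by gcongr
    _ = _ := by rw [two_mul, pow_add, mul_assoc]

end Inst

end Vale.Agent.P328b
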